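import Vale.Agent.P019.Curve.Degree

/-! P019, curves: Riemann's theorem. -/

open IntermediateField Module

namespace Vale.Agent.P019

variable {κ C : Type*} [Field κ] [Field C] [Algebra κ C] [IsAlgClosed κ]

theorem exists_defect_bound (h : IsCurve κ C) :
    ∃ c : ℤ, ∀ D : Dv κ C, D.degree - ell D ≤ c := by
  obtain ⟨t, ht⟩ := h.exists_transcendental
  have := h.finiteDimensional ht
  obtain ⟨c, hc⟩ := ell_poleDv_lower h ht
  have hn : 0 < finrank κ⟮t⟯ C := Module.finrank_pos
  refine ⟨c, fun D => ?_⟩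
  set D₁ : Dv κ C := D ⊔ 0 with hD₁
  set m : ℕ := (c + D₁.degree).toNat + 1 with hm
  have h1 := hc m
  have hle : m • poleDv κ t - D₁ ≤ m • poleDv κ t := sub_le_self _ le_sup_right
  have h2 := ell_le_add h hle
  rw [map_sub, sub_sub_cancel] at h2
  have h3 := Int.self_le_toNat (c + D₁.degree)
  have h4 : 0 < ell (m • poleDv κ t - D₁) := by
    have h5 : (m : ℤ) = (c + D₁.degree).toNat + 1 := by rw [hm]; push_cast; ring
    have h6 : (m : ℤ) * 1 ≤ m * finrank κ⟮t⟯ C :=
      mul_le_mul_of_nonneg_left (by exact_mod_cast hn) (Int.natCast_nonneg _)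
    omega
  obtain ⟨f, hf, hf0⟩ := exists_mem_LL_of_ell_pos h4
  have h5 := (mem_LL' h hf0).1 hf
  have h6 : D ≤ m • poleDv κ t + pdiv κ f := by
    refine le_sup_left.trans (?_ : D₁ ≤ _)
    rw [sub_add_eq_add_sub, sub_nonneg] at h5
    exact h5
  have h7 := ell_le_add h h6
  rw [ell_add_pdiv h _ hf0, map_add, degree_pdiv h, map_nsmul, degree_poleDv h ht,
    nsmul_eq_mul] at h7
  omega

theorem exists_isGenus (h : IsCurve κ C) : ∃ g : ℕ, IsGenus κ C g := by
  classical
  obtain ⟨c, hc⟩ := exists_defect_bound h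
  obtain ⟨γ, ⟨D₀, hD₀⟩, hmax⟩ := Int.exists_greatest_of_bdd
    (P := fun γ => ∃ D : Dv κ C, D.degree + 1 - ell D = γ)
    ⟨c + 1, fun γ ⟨D, e⟩ => by have := hc D; omega⟩ ⟨_, 0, rfl⟩
  have hmax' : ∀ D : Dv κ C, D.degree + 1 - ell D ≤ γ := fun D => hmax _ ⟨D, rfl⟩
  have hγ : 0 ≤ γ := by
    have := hmax' 0
    rw [ell_zero h, map_zero] at this
    omega
  have hdesc : ∀ n : ℕ, ∀ D : Dv κ C, ell D = n → D.degree + 1 - ell D = γ →
      ∃ D' : Dv κ C, ell D' = 0 ∧ D'.degree + 1 = γ := by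
    intro n
    induction n using Nat.strong_induction_on with
    | _ n ih =>
      intro D hn hD
      by_cases h0 : ell D = 0
      · exact ⟨D, h0, by rw [h0] at hD; omega⟩
      obtain ⟨f, hf, hf0⟩ := exists_mem_LL_of_ell_pos (Nat.pos_of_ne_zero h0)
      have := infinite_place h
      obtain ⟨z, hz⟩ := Infinite.exists_notMem_finset (D + pdiv κ f).support
      rw [Finsupp.notMem_support_iff, Finsupp.add_apply, pdiv_apply h] at hz
      have hnot : f ∉ LL (D - Finsupp.single z 1) := by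
        intro h1
        have := ((mem_LL h).1 h1).resolve_left hf0 z
        rw [Finsupp.sub_apply, Finsupp.single_eq_same] at this
        omega
      have hle : D - Finsupp.single z 1 ≤ D :=
        sub_le_self _ (Finsupp.single_nonneg.2 zero_le_one)
      have := finiteDimensional_LL h D
      have hlt : ell (D - Finsupp.single z 1) < ell D :=
        Submodule.finrank_lt_finrank_of_lt (lt_of_le_of_ne (LL_mono h hle) fun e => hnot (e ▸ hf))
      have h2 := hmax' (D - Finsupp.single z 1)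
      refine ih _ (hn ▸ hlt) (D - Finsupp.single z 1) rfl ?_
      rw [map_sub, Finsupp.degree_single] at h2 ⊢
      omega
  obtain ⟨D₁, h1, h2⟩ := hdesc _ D₀ rfl hD₀
  obtain ⟨g, rfl⟩ := Int.eq_ofNat_of_zero_le hγ
  refine ⟨g, fun D => by have := hmax' D; omega, fun D hD => ?_⟩
  have h3 := hmax' (D - D₁)
  rw [map_sub] at h3
  obtain ⟨f, hf, hf0⟩ := exists_mem_LL_of_ell_pos (D := D - D₁) (by omega)
  have h4 := (mem_LL' h hf0).1 hf
  rw [sub_add_eq_add_sub, sub_nonneg] at h4
  have h5 := ell_le_add h h4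
  rw [ell_add_pdiv h _ hf0, map_add, degree_pdiv h, h1] at h5
  have h6 := hmax' D
  omega

end Vale.Agent.P019
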