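import Vale.Agent.P019.Curve.DVR

/-! P019, curves: weak approximation, number of zeros, finite support. -/

open IntermediateField Module

namespace Vale.Agent.P019

variable {κ C : Type*} [Field κ] [Field C] [Algebra κ C] [IsAlgClosed κ]

theorem IsOrd.eq_of_le {F : Type*} [Field F] {O O' : ValuationSubring F} {o o' : F → ℤ}
    (h : IsOrd O o) (h' : IsOrd O' o') (hle : O ≤ O') : O = O' := by
  obtain ⟨π, hπ0, hπ⟩ := h.exists_eq 1
  have key : ∀ x, x ≠ 0 → o' x = o x * o' π := by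
    intro x hx
    have hp : π ^ o x ≠ 0 := zpow_ne_zero _ hπ0
    have hu : x / π ^ o x ≠ 0 := div_ne_zero hx hp
    have h0 : o (x / π ^ o x) = 0 := by rw [h.div hx hp, h.zpow, hπ]; ring
    have h1 := (h'.mem_iff hu).1 (hle ((h.mem_iff hu).2 h0.ge))
    have h2 := (h'.mem_iff (inv_ne_zero hu)).1 (hle ((h.mem_iff (inv_ne_zero hu)).2
      (by rw [h.inv, h0]; rfl)))
    rw [h'.inv] at h2
    rw [h'.div hx hp, h'.zpow] at h1 h2
    omega
  obtain ⟨π', hπ0', hπ'⟩ := h'.exists_eq 1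
  have h3 := (h'.mem_iff hπ0).1 (hle ((h.mem_iff hπ0).2 (by omega)))
  have h4 : o' π = 1 := Int.eq_one_of_mul_eq_one_left h3 (by rw [← key π' hπ0', hπ'])
  ext x
  by_cases hx : x = 0
  · simp [hx]
  · rw [h.mem_iff hx, h'.mem_iff hx, key x hx, h4, mul_one]

theorem approx_sep (h : IsCurve κ C) {z w : Place κ C} (hzw : z ≠ w) :
    ∃ u : C, u ≠ 0 ∧ 0 < ord z.O u ∧ ord w.O u < 0 := by
  have oz := (place_isDVR h z).isOrd
  have ow := (place_isDVR h w).isOrd
  obtain ⟨x, hx1, hx2⟩ := SetLike.not_le_iff_exists.1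
    fun hle => hzw (Place.ext (oz.eq_of_le ow hle))
  obtain ⟨y, hy1, hy2⟩ := SetLike.not_le_iff_exists.1
    fun hle => hzw (Place.ext (ow.eq_of_le oz hle)).symm
  have hx0 : x ≠ 0 := by rintro rfl; exact hx2 (zero_mem _)
  have hy0 : y ≠ 0 := by rintro rfl; exact hy2 (zero_mem _)
  rw [oz.mem_iff hx0] at hx1
  rw [ow.mem_iff hx0] at hx2
  rw [ow.mem_iff hy0] at hy1
  rw [oz.mem_iff hy0] at hy2
  refine ⟨x / y, div_ne_zero hx0 hy0, ?_, ?_⟩
  · rw [oz.div hx0 hy0]; omega
  · rw [ow.div hx0 hy0]; omega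

theorem approx_bound {α : Type*} (S : Finset α) (g : α → ℤ) :
    ∃ r : ℕ, 1 ≤ r ∧ ∀ a ∈ S, g a < r := by
  refine ⟨S.sup (fun a => (g a).toNat) + 1, by omega, fun a ha => ?_⟩
  have := Finset.le_sup (f := fun a => (g a).toNat) ha
  omega

theorem approx_step1 (h : IsCurve κ C) (z : Place κ C) (S : Finset (Place κ C)) (hz : z ∉ S) :
    ∃ u : C, u ≠ 0 ∧ 0 < ord z.O u ∧ ∀ w ∈ S, ord w.O u < 0 := by
  classical
  have oz := (place_isDVR h z).isOrd
  induction S using Finset.induction_on with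
  | empty =>
    obtain ⟨π, h0, h1⟩ := oz.exists_eq 1
    exact ⟨π, h0, by omega, by simp⟩
  | insert w S hw ih =>
    rw [Finset.mem_insert, not_or] at hz
    obtain ⟨u, hu0, hu1, hu2⟩ := ih hz.2
    by_cases hwu : ord w.O u < 0
    · exact ⟨u, hu0, hu1, by simpa [hwu] using hu2⟩
    obtain ⟨v, hv0, hv1, hv2⟩ := approx_sep h hz.1
    obtain ⟨r, hr1, hr⟩ := approx_bound S fun w' => -ord w'.O u
    have ow := (place_isDVR h w).isOrd
    have hvr : v ^ r ≠ 0 := pow_ne_zero _ hv0
    have hr' : (1 : ℤ) ≤ r := by exact_mod_cast hr1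
    have a1 : ord w.O (v ^ r) < 0 := by rw [ow.pow]; nlinarith
    obtain ⟨a2, a3⟩ := ow.add_eq_of_lt hvr hu0 (by omega)
    refine ⟨v ^ r + u, a2, ?_, fun w' hw' => ?_⟩
    · have := oz.min_le_add hvr hu0 a2
      have a4 : 0 < ord z.O (v ^ r) := by rw [oz.pow]; positivity
      omega
    · rcases Finset.mem_insert.1 hw' with rfl | hw'
      · omega
      have o' := (place_isDVR h w').isOrd
      have b1 := hu2 w' hw'
      have b2 := hr w' hw'
      rcases le_or_gt 0 (ord w'.O v) with b3 | b3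
      · have b4 : 0 ≤ ord w'.O (v ^ r) := by rw [o'.pow]; positivity
        rw [add_comm, (o'.add_eq_of_lt hu0 hvr (by omega)).2]
        exact b1
      · have b4 : ord w'.O (v ^ r) ≤ -r := by rw [o'.pow]; nlinarith
        rw [(o'.add_eq_of_lt hvr hu0 (by omega)).2]
        omega

theorem approx_step2 (h : IsCurve κ C) (z : Place κ C) (S : Finset (Place κ C)) (hz : z ∉ S)
    {s : ℕ} (hs : 1 ≤ s) :
    ∃ e : C, e ≠ 0 ∧ ord z.O e = 0 ∧ ∀ w ∈ S, (s : ℤ) ≤ ord w.O e := by
  obtain ⟨u, hu0, hu1, hu2⟩ := approx_step1 h z S hz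
  have oz := (place_isDVR h z).isOrd
  have hs' : (1 : ℤ) ≤ s := by exact_mod_cast hs
  have hus : u ^ s ≠ 0 := pow_ne_zero _ hu0
  obtain ⟨a1, a2⟩ := oz.add_eq_of_lt one_ne_zero hus (by rw [oz.one, oz.pow]; positivity)
  refine ⟨(1 + u ^ s)⁻¹, inv_ne_zero a1, by rw [oz.inv, a2, oz.one, neg_zero], fun w hw => ?_⟩
  have ow := (place_isDVR h w).isOrd
  have b1 := hu2 w hw
  have b2 : ord w.O (u ^ s) ≤ -s := by rw [ow.pow]; nlinarith
  rw [ow.inv, add_comm, (ow.add_eq_of_lt hus one_ne_zero (by rw [ow.one]; omega)).2]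
  omega

/-- a sum with a unique term of least order -/
theorem approx_sum (h : IsCurve κ C) (z : Place κ C) {ι : Type*} (T : Finset ι) (g : ι → C)
    {i : ι} (hi : i ∈ T) (h0 : g i ≠ 0)
    (hlt : ∀ j ∈ T, j ≠ i → g j = 0 ∨ ord z.O (g i) < ord z.O (g j)) :
    ∑ j ∈ T, g j ≠ 0 ∧ ord z.O (∑ j ∈ T, g j) = ord z.O (g i) := by
  classical
  have hd := place_isDVR h z
  rw [← Finset.add_sum_erase T g hi]
  have hm : ∑ j ∈ T.erase i, g j ∈ Iv z (ord z.O (g i) + 1) :=
    Submodule.sum_mem _ fun j hj => (mem_Iv hd).2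
      (hlt j (Finset.mem_of_mem_erase hj) (Finset.ne_of_mem_erase hj))
  by_cases hr : ∑ j ∈ T.erase i, g j = 0
  · rw [hr, add_zero]
    exact ⟨h0, rfl⟩
  · exact hd.isOrd.add_eq_of_lt h0 hr (((mem_Iv hd).1 hm).resolve_left hr)

theorem weak_approx (h : IsCurve κ C) (S : Finset (Place κ C)) (n : Place κ C → ℤ) :
    ∃ f : C, f ≠ 0 ∧ ∀ z ∈ S, ord z.O f = n z := by
  classical
  rcases S.eq_empty_or_nonempty with rfl | ⟨z0, hz0⟩
  · exact ⟨1, one_ne_zero, by simp⟩
  choose x hx0 hx using fun z : Place κ C => (place_isDVR h z).isOrd.exists_eq (n z)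
  obtain ⟨s, hs1, hs⟩ := approx_bound (S ×ˢ S) fun p => n p.1 - ord p.1.O (x p.2)
  choose e he0 he1 he2 using fun z : Place κ C =>
    approx_step2 h z (S.erase z) (Finset.notMem_erase z S) hs1
  have key : ∀ w ∈ S, ∑ z ∈ S, x z * e z ≠ 0 ∧ ord w.O (∑ z ∈ S, x z * e z) = n w := by
    intro w hw
    have ow := (place_isDVR h w).isOrd
    have e1 : ord w.O (x w * e w) = n w := by rw [ow.mul (hx0 w) (he0 w), hx, he1, add_zero]
    rw [← e1]
    refine approx_sum h w S (fun z => x z * e z) hw (mul_ne_zero (hx0 w) (he0 w))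
      fun z hz hzw => Or.inr ?_
    have a1 := he2 z w (Finset.mem_erase.2 ⟨hzw.symm, hw⟩)
    have a2 := hs (w, z) (Finset.mem_product.2 ⟨hw, hz⟩)
    dsimp only at a2
    rw [e1, ow.mul (hx0 z) (he0 z)]
    omega
  exact ⟨_, (key z0 hz0).1, fun z hz => (key z hz).2⟩

omit [IsAlgClosed κ] in
theorem approx_aeval_mem (z : Place κ C) {t : C} (ht : t ∈ z.O) (p : Polynomial κ) :
    Polynomial.aeval t p ∈ z.O := by
  induction p using Polynomial.induction_on' with
  | add p q hp hq => rw [map_add]; exact add_mem hp hq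
  | monomial k a =>
    rw [Polynomial.aeval_monomial]
    exact mul_mem (z.triv a) (pow_mem ht k)

theorem approx_poly (h : IsCurve κ C) {t : C} (ht : t ≠ 0) {p : Polynomial κ} (hp : p ≠ 0) :
    ∃ m : ℤ, ∀ z : Place κ C, 0 < ord z.O t →
      ord z.O (Polynomial.aeval t p) = m * ord z.O t := by
  obtain ⟨q, hq1, hq2⟩ := Polynomial.exists_eq_pow_rootMultiplicity_mul_and_not_dvd p hp 0
  generalize Polynomial.rootMultiplicity 0 p = m at hq1
  rw [map_zero, sub_zero] at hq1 hq2
  rw [Polynomial.X_dvd_iff] at hq2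
  refine ⟨m, fun z hz => ?_⟩
  have oz := (place_isDVR h z).isOrd
  have hc : algebraMap κ C (q.coeff 0) ≠ 0 := by simpa using hq2
  have e : Polynomial.aeval t q = algebraMap κ C (q.coeff 0) + t * Polynomial.aeval t q.divX := by
    conv_lhs => rw [← Polynomial.X_mul_divX_add q]
    rw [map_add, map_mul, Polynomial.aeval_X, Polynomial.aeval_C, add_comm]
  have key : Polynomial.aeval t q ≠ 0 ∧ ord z.O (Polynomial.aeval t q) = 0 := by
    rw [e]
    by_cases h0 : Polynomial.aeval t q.divX = 0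
    · rw [h0, mul_zero, add_zero]
      exact ⟨hc, oz.const z.triv _⟩
    · have a1 := (oz.mem_iff h0).1 (approx_aeval_mem z ((oz.mem_iff ht).2 hz.le) q.divX)
      have := oz.add_eq_of_lt hc (mul_ne_zero ht h0)
        (by rw [oz.const z.triv, oz.mul ht h0]; omega)
      rwa [oz.const z.triv] at this
  rw [hq1, map_mul, map_pow, Polynomial.aeval_X, oz.mul (pow_ne_zero _ ht) key.1, key.2, oz.pow,
    add_zero]

theorem approx_rat (h : IsCurve κ C) {t : C} (ht : t ≠ 0) (c : κ⟮t⟯) :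
    ∃ m : ℤ, (c : C) ≠ 0 → ∀ z : Place κ C, 0 < ord z.O t → ord z.O (c : C) = m * ord z.O t := by
  by_cases hc : (c : C) = 0
  · exact ⟨0, fun h0 => absurd hc h0⟩
  obtain ⟨r, s, hrs⟩ := (mem_adjoin_simple_iff κ (c : C)).1 c.2
  have hr : Polynomial.aeval t r ≠ 0 := fun h0 => hc (by rw [hrs, h0, zero_div])
  have hs : Polynomial.aeval t s ≠ 0 := fun h0 => hc (by rw [hrs, h0, div_zero])
  obtain ⟨m, hm⟩ := approx_poly h ht (p := r) (by rintro rfl; exact hr (map_zero _))
  obtain ⟨k, hk⟩ := approx_poly h ht (p := s) (by rintro rfl; exact hs (map_zero _))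
  refine ⟨m - k, fun _ z hz => ?_⟩
  rw [hrs, (place_isDVR h z).isOrd.div hr hs, hm z hz, hk z hz, sub_mul]

theorem sum_ord_zeros_le (h : IsCurve κ C) {t : C} (ht : Transcendental κ t)
    (S : Finset (Place κ C)) (hS : ∀ z ∈ S, 0 < ord z.O t) :
    ∑ z ∈ S, ord z.O t ≤ finrank κ⟮t⟯ C := by
  classical
  have := h.finiteDimensional ht
  have ht0 : t ≠ 0 := by rintro rfl; exact ht isAlgebraic_zero
  choose f hf0 hf using fun i : (_ : Place κ C) × ℕ =>
    weak_approx h S fun w => if w = i.1 then i.2 else ord w.O t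
  set I : Finset ((_ : Place κ C) × ℕ) := S.sigma fun z => Finset.range (ord z.O t).toNat with hI
  have hli : LinearIndependent κ⟮t⟯ fun i : I => f i := by
    rw [Fintype.linearIndependent_iff]
    intro c hc
    by_contra hne
    push Not at hne
    choose m hm using fun i : I => approx_rat h ht0 (c i)
    obtain ⟨i0, hi0, hmin0⟩ := (Finset.univ.filter fun i => c i ≠ 0).exists_min_image m
      (by obtain ⟨i, hi⟩ := hne; exact ⟨i, by simpa using hi⟩)
    obtain ⟨i1, hi1, hmin1⟩ := (Finset.univ.filter fun i => c i ≠ 0 ∧ m i = m i0).exists_min_image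
      (fun i => i.1.2) ⟨i0, by simpa using hi0⟩
    simp only [Finset.mem_filter, Finset.mem_univ, true_and] at hi0 hmin0 hi1 hmin1
    obtain ⟨b1, b2⟩ := Finset.mem_sigma.1 i1.2
    have b3 := hS _ b1
    have b4 : (i1.1.2 : ℤ) < ord i1.1.1.O t := by
      have := Finset.mem_range.1 b2
      omega
    have oz := (place_isDVR h i1.1.1).isOrd
    have hord : ∀ i : I, c i ≠ 0 → (c i : C) * f i ≠ 0 ∧ ord i1.1.1.O ((c i : C) * f i)
        = m i * ord i1.1.1.O t + if i1.1.1 = i.1.1 then (i.1.2 : ℤ) else ord i1.1.1.O t := by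
      intro i hi
      have hi' : (c i : C) ≠ 0 := by simpa using hi
      exact ⟨mul_ne_zero hi' (hf0 i), by rw [oz.mul hi' (hf0 i), hm i hi' _ b3, hf i _ b1]⟩
    refine (approx_sum h i1.1.1 Finset.univ (fun i : I => (c i : C) * f i) (Finset.mem_univ i1)
      (hord i1 hi1.1).1 fun j _ hj => ?_).1 hc
    by_cases hcj : c j = 0
    · exact Or.inl (by simp [hcj])
    right
    rw [(hord i1 hi1.1).2, (hord j hcj).2, if_pos rfl, hi1.2]
    rcases (hmin0 j hcj).eq_or_lt with e | e
    · have a1 := hmin1 j ⟨hcj, e.symm⟩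
      rw [← e]
      split_ifs with a2
      · have a3 : i1.1.2 ≠ j.1.2 := fun a3 => hj (Subtype.ext (Sigma.ext a2.symm (heq_of_eq a3.symm)))
        omega
      · omega
    · have a1 : (m i0 + 1) * ord i1.1.1.O t ≤ m j * ord i1.1.1.O t :=
        mul_le_mul_of_nonneg_right e b3.le
      rw [add_mul, one_mul] at a1
      split_ifs <;> omega
  have hcard := hli.fintype_card_le_finrank
  rw [Fintype.card_coe, hI, Finset.card_sigma] at hcard
  simp only [Finset.card_range] at hcard
  have e : ∑ z ∈ S, ord z.O t = ((∑ z ∈ S, (ord z.O t).toNat : ℕ) : ℤ) := by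
    rw [Nat.cast_sum]
    exact Finset.sum_congr rfl fun z hz => (Int.toNat_of_nonneg (hS z hz).le).symm
  rw [e]
  exact_mod_cast hcard

theorem approx_zeros_finite (h : IsCurve κ C) {t : C} (ht : Transcendental κ t) :
    {z : Place κ C | 0 < ord z.O t}.Finite := by
  by_contra hinf
  obtain ⟨S, hS, hc⟩ := Set.Infinite.exists_subset_card_eq hinf (finrank κ⟮t⟯ C + 1)
  have h1 := sum_ord_zeros_le h ht S fun z hz => hS hz
  have h2 := Finset.card_nsmul_le_sum S (fun z => ord z.O t) 1 fun z hz => hS hz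
  rw [hc, nsmul_eq_mul, mul_one] at h2
  push_cast at h2
  omega

omit [IsAlgClosed κ] in
theorem approx_trans_inv {t : C} (ht : Transcendental κ t) : Transcendental κ t⁻¹ :=
  fun hi => ht (IsAlgebraic.inv_iff.1 hi)

theorem ord_support_finite (h : IsCurve κ C) (f : C) :
    (Function.support fun z : Place κ C => ord z.O f).Finite := by
  by_cases hf : Transcendental κ f
  · refine ((approx_zeros_finite h hf).union
      (approx_zeros_finite h (approx_trans_inv hf))).subset fun z hz => ?_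
    have : ord z.O f ≠ 0 := hz
    simp only [Set.mem_union, Set.mem_ofPred_eq, (place_isDVR h z).isOrd.inv]
    omega
  · rw [transcendental_iff_not_mem_range, not_not] at hf
    obtain ⟨a, rfl⟩ := hf
    refine Set.finite_empty.subset fun z hz => ?_
    exact hz ((place_isDVR h z).isOrd.const z.triv a)

theorem infinite_place (h : IsCurve κ C) : Infinite (Place κ C) := by
  obtain ⟨t, ht⟩ := h.exists_transcendental
  have h1 : ∀ a : κ, Transcendental κ (t - algebraMap κ C a) := by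
    intro a
    rw [transcendental_iff_not_mem_range] at ht ⊢
    rintro ⟨b, hb⟩
    exact ht ⟨b + a, by rw [map_add, hb, sub_add_cancel]⟩
  choose z hz using fun a => place_exists_zero (h1 a)
  refine Infinite.of_injective z fun a b hab => ?_
  by_contra hne
  have h2 := hz a
  have h3 := hz b
  rw [← hab] at h3
  have h4 := (z a).O.valuation.map_sub_lt h3 h2
  have e : t - algebraMap κ C b - (t - algebraMap κ C a) = algebraMap κ C (a - b) := by
    rw [map_sub]; ring
  have oz := (place_isDVR h (z a)).isOrd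
  rw [e, oz.val_lt_one_iff ((map_ne_zero _).2 (sub_ne_zero.2 hne)), oz.const (z a).triv] at h4
  exact lt_irrefl _ h4

theorem const_of_no_pole (h : IsCurve κ C) {f : C} (hf : ∀ z : Place κ C, f ∈ z.O) :
    f ∈ Set.range (algebraMap κ C) := by
  by_contra hn
  have ht := transcendental_iff_not_mem_range.2 hn
  have h0 : f ≠ 0 := by rintro rfl; exact ht isAlgebraic_zero
  obtain ⟨z, hz⟩ := place_exists_zero (approx_trans_inv ht)
  have oz := (place_isDVR h z).isOrd
  have h1 := (oz.mem_iff h0).1 (hf z)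
  rw [oz.val_lt_one_iff (inv_ne_zero h0), oz.inv] at hz
  omega

end Vale.Agent.P019
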