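import Vale.Agent.P019.Curve.Degree

/-! P019, curves: the canonical class. -/

open IntermediateField Module

namespace Vale.Agent.P019

variable {κ C : Type*} [Field κ] [Field C] [Algebra κ C] [IsAlgClosed κ]

namespace Canon

/-- functions with poles bounded by `D` away from `P` -/
def Gam (P : Place κ C) (D : Dv κ C) : Submodule κ C := ⨅ z : {z // z ≠ P}, Iv z.1 (-D z.1)

/-- the two-chart coboundaries -/
def SS (P : Place κ C) (D : Dv κ C) : Submodule κ C := Gam P D ⊔ Iv P (-D P)

theorem mem_Gam (h : IsCurve κ C) {P : Place κ C} {D : Dv κ C} {f : C} :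
    f ∈ Gam P D ↔ f = 0 ∨ ∀ z, z ≠ P → -D z ≤ ord z.O f := by
  rw [Gam, Submodule.mem_iInf]
  constructor
  · intro hf
    by_cases h0 : f = 0
    · exact Or.inl h0
    · exact Or.inr fun z hz => ((mem_Iv (place_isDVR h z)).1 (hf ⟨z, hz⟩)).resolve_left h0
  · rintro (rfl | hf) z
    · exact zero_mem _
    · exact (mem_Iv (place_isDVR h z.1)).2 (Or.inr (hf z.1 z.2))

theorem Iv_step (h : IsCurve κ C) (P : Place κ C) {y : C} (hy : y ≠ 0) :
    Iv P (ord P.O y) ≤ Iv P (ord P.O y + 1) ⊔ Submodule.span κ {y} := by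
  intro x hx
  have ho := (place_isDVR h P).isOrd
  by_cases hx0 : x = 0
  · rw [hx0]; exact zero_mem _
  have hx' := ((mem_Iv (place_isDVR h P)).1 hx).resolve_left hx0
  have hq : x / y ∈ P.O := by
    rw [ho.mem_iff (div_ne_zero hx0 hy), ho.div hx0 hy]; omega
  obtain ⟨c, hc⟩ := place_exists_val h P hq
  have e : x = y * (x / y - algebraMap κ C c) + c • y := by
    rw [Algebra.smul_def]; field_simp; ring
  rw [e]
  refine Submodule.add_mem_sup ?_ (Submodule.smul_mem _ _ (Submodule.mem_span_singleton_self y))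
  rw [mem_Iv (place_isDVR h P)]
  by_cases h0 : x / y - algebraMap κ C c = 0
  · exact Or.inl (by rw [h0, mul_zero])
  · refine Or.inr ?_
    rw [ho.mul hy h0]
    have := (ho.val_lt_one_iff h0).1 hc
    omega

theorem LL_le_Gam (h : IsCurve κ C) (P : Place κ C) (D : Dv κ C) (m : ℤ) :
    LL (D + Finsupp.single P m) ≤ Gam P D := by
  intro f hf
  rw [mem_Gam h]
  refine ((mem_LL h).1 hf).imp_right fun hf z hz => ?_
  have := hf z
  rwa [Finsupp.add_apply, Finsupp.single_eq_of_ne hz, add_zero] at this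

theorem mem_LL_of_Gam (h : IsCurve κ C) {P : Place κ C} {D : Dv κ C} {m : ℤ} {f : C}
    (hf : f ∈ Gam P D) (hP : -D P - m ≤ ord P.O f) : f ∈ LL (D + Finsupp.single P m) := by
  rw [mem_LL h]
  refine ((mem_Gam h).1 hf).imp_right fun hf z => ?_
  by_cases hz : z = P
  · subst hz
    rw [Finsupp.add_apply, Finsupp.single_eq_same]; omega
  · rw [Finsupp.add_apply, Finsupp.single_eq_of_ne hz, add_zero]; exact hf z hz

theorem step_of_not_le (h : IsCurve κ C) (P : Place κ C) (D : Dv κ C) (m : ℤ)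
    (hn : ¬ LL (D + Finsupp.single P (m + 1)) ≤ LL (D + Finsupp.single P m)) :
    Iv P (-D P - (m + 1)) ≤ Iv P (-D P - m) ⊔ Gam P D := by
  obtain ⟨y, hy, hy'⟩ := Set.not_subset.1 hn
  have hy0 : y ≠ 0 := by rintro rfl; exact hy' (zero_mem _)
  have hG := LL_le_Gam h P D _ hy
  have h1 : -D P - (m + 1) ≤ ord P.O y := by
    have := ((mem_LL h).1 hy).resolve_left hy0 P
    rw [Finsupp.add_apply, Finsupp.single_eq_same] at this
    omega
  have h2 : ¬ -D P - m ≤ ord P.O y := fun h2 => hy' (mem_LL_of_Gam h hG h2)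
  have h3 : ord P.O y = -D P - (m + 1) := by omega
  have := Iv_step h P hy0
  rw [h3, show -D P - (m + 1) + 1 = -D P - m by ring] at this
  exact this.trans (sup_le_sup_left ((Submodule.span_singleton_le_iff_mem _ _).2 hG) _)

theorem single_mono (P : Place κ C) (D : Dv κ C) {m n : ℤ} (hmn : m ≤ n) :
    D + Finsupp.single P m ≤ D + Finsupp.single P n := by
  intro z
  classical
  simp only [Finsupp.add_apply, Finsupp.single_apply]
  split_ifs <;> omega

theorem exists_T_aux (h : IsCurve κ C) (P : Place κ C) (D : Dv κ C) (m : ℕ) :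
    ∃ T : Finset C, (T.card : ℤ) + ell (D + Finsupp.single P (m : ℤ)) ≤ ell D + m ∧
      Iv P (-D P - m) ≤ SS P D ⊔ Submodule.span κ (T : Set C) := by
  classical
  induction m with
  | zero =>
    refine ⟨∅, by simp, ?_⟩
    simp only [Nat.cast_zero, sub_zero]
    exact le_sup_of_le_left le_sup_right
  | succ m ih =>
    obtain ⟨T, hT, hT'⟩ := ih
    by_cases hn : LL (D + Finsupp.single P ((m : ℤ) + 1)) ≤ LL (D + Finsupp.single P (m : ℤ))
    · obtain ⟨y, hy0, hy⟩ := (place_isDVR h P).isOrd.exists_eq (-D P - (m + 1))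
      refine ⟨insert y T, ?_, ?_⟩
      · have := finiteDimensional_LL h (D + Finsupp.single P (m : ℤ))
        have h1 : ell (D + Finsupp.single P ((m : ℤ) + 1)) ≤ ell (D + Finsupp.single P (m : ℤ)) :=
          Submodule.finrank_mono hn
        have h2 := Finset.card_insert_le y T
        push_cast
        omega
      · have := Iv_step h P hy0
        rw [hy, show -D P - ((m : ℤ) + 1) + 1 = -D P - m by ring] at this
        push_cast
        refine this.trans (sup_le (hT'.trans (sup_le_sup_left (Submodule.span_mono ?_) _)) ?_)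
        · simp
        · exact le_sup_of_le_right (Submodule.span_mono (by simp))
    · refine ⟨T, ?_, ?_⟩
      · have := ell_le_add h (single_mono P D (show (m : ℤ) ≤ m + 1 by omega))
        simp only [map_add, Finsupp.degree_single] at this
        push_cast
        omega
      · push_cast
        exact (step_of_not_le h P D m hn).trans
          (sup_le hT' (le_sup_of_le_left le_sup_left))

theorem exists_T (h : IsCurve κ C) {g : ℕ} (hg : IsGenus κ C g) (P : Place κ C) (D : Dv κ C) :
    ∃ T : Finset C, (T.card : ℤ) + D.degree + 1 ≤ ell D + g ∧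
      SS P D ⊔ Submodule.span κ (T : Set C) = ⊤ := by
  set M : ℕ := (2 * (g : ℤ) - D.degree).toNat with hM
  have hM' : 2 * (g : ℤ) - D.degree ≤ M := Int.self_le_toNat _
  have hns : ∀ m : ℤ, M ≤ m → (ell (D + Finsupp.single P m) : ℤ) + g = D.degree + m + 1 := by
    intro m hm
    have := hg.2 (D + Finsupp.single P m) (by simp only [map_add, Finsupp.degree_single]; omega)
    simpa only [map_add, Finsupp.degree_single] using this
  obtain ⟨T, hT, hT'⟩ := exists_T_aux h P D M
  refine ⟨T, by have := hns M le_rfl; omega, ?_⟩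
  have key : ∀ k : ℕ, Iv P (-D P - (M + k : ℤ)) ≤ SS P D ⊔ Submodule.span κ (T : Set C) := by
    intro k
    induction k with
    | zero => simpa using hT'
    | succ k ih =>
      have hn : ¬ LL (D + Finsupp.single P ((M + k : ℤ) + 1)) ≤
          LL (D + Finsupp.single P (M + k : ℤ)) := by
        intro hle
        have := finiteDimensional_LL h (D + Finsupp.single P (M + k : ℤ))
        have h1 : ell (D + Finsupp.single P ((M + k : ℤ) + 1)) ≤
            ell (D + Finsupp.single P (M + k : ℤ)) := Submodule.finrank_mono hle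
        have h2 := hns (M + k) (by omega)
        have h3 := hns (M + k + 1) (by omega)
        omega
      have := step_of_not_le h P D _ hn
      push_cast
      rw [← add_assoc]
      exact this.trans (sup_le ih (le_sup_of_le_left le_sup_left))
  refine top_unique fun x _ => key (-D P - M - ord P.O x).toNat ?_
  rw [mem_Iv (place_isDVR h P)]
  have := Int.self_le_toNat (-D P - M - ord P.O x)
  exact Or.inr (by omega)

theorem SS_ne_top (h : IsCurve κ C) {g : ℕ} (hg : IsGenus κ C g) (P : Place κ C) {D : Dv κ C}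
    (hD : (ell D : ℤ) + g ≠ D.degree + 1) : SS P D ≠ ⊤ := by
  intro htop
  have ho := (place_isDVR h P).isOrd
  have key : ∀ m : ℕ, (ell D : ℤ) + m ≤ ell (D + Finsupp.single P (m : ℤ)) := by
    intro m
    induction m with
    | zero => simp
    | succ m ih =>
      obtain ⟨y, hy0, hy⟩ := ho.exists_eq (-D P - (m + 1))
      have hy1 : y ∈ SS P D := by rw [htop]; trivial
      obtain ⟨γ, hγ, ι, hι, e⟩ := Submodule.mem_sup.1 hy1
      have hγ' : γ ≠ 0 ∧ ord P.O γ = -D P - (m + 1) := by
        have e' : γ = y + -ι := by rw [← e]; ring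
        by_cases hι0 : ι = 0
        · rw [e', hι0, neg_zero, add_zero]; exact ⟨hy0, hy⟩
        · have h1 := ((mem_Iv (place_isDVR h P)).1 hι).resolve_left hι0
          have := ho.add_eq_of_lt hy0 (neg_ne_zero.2 hι0) (by rw [ho.neg]; omega)
          rw [e', this.2]
          exact ⟨this.1, hy⟩
      have h1 : γ ∈ LL (D + Finsupp.single P ((m : ℤ) + 1)) := mem_LL_of_Gam h hγ hγ'.2.ge
      have h2 : γ ∉ LL (D + Finsupp.single P (m : ℤ)) := by
        intro h2
        have := ((mem_LL h).1 h2).resolve_left hγ'.1 P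
        rw [Finsupp.add_apply, Finsupp.single_eq_same, hγ'.2] at this
        omega
      have := finiteDimensional_LL h (D + Finsupp.single P ((m : ℤ) + 1))
      have h3 : ell (D + Finsupp.single P (m : ℤ)) < ell (D + Finsupp.single P ((m : ℤ) + 1)) :=
        Submodule.finrank_lt_finrank_of_lt
          (lt_of_le_of_ne (LL_mono h (single_mono P D (by omega))) fun e => h2 (e ▸ h1))
      push_cast
      omega
  set M : ℕ := (2 * (g : ℤ) - D.degree).toNat with hM
  have hM' : 2 * (g : ℤ) - D.degree ≤ M := Int.self_le_toNat _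
  have h1 := hg.2 (D + Finsupp.single P (M : ℤ))
    (by simp only [map_add, Finsupp.degree_single]; omega)
  simp only [map_add, Finsupp.degree_single] at h1
  have h2 := key M
  have h3 := hg.1 D
  omega

theorem SS_mono (h : IsCurve κ C) (P : Place κ C) {D D' : Dv κ C} (hD : D ≤ D') :
    SS P D ≤ SS P D' := by
  refine sup_le_sup (fun f hf => ?_) (fun f hf => ?_)
  · rw [mem_Gam h] at hf ⊢
    exact hf.imp_right fun hf z hz => (neg_le_neg (hD z)).trans (hf z hz)
  · rw [mem_Iv (place_isDVR h P)] at hf ⊢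
    exact hf.imp_right fun hf => (neg_le_neg (hD P)).trans hf

theorem mul_mem_SS (h : IsCurve κ C) (P : Place κ C) (D : Dv κ C) {f : C} (hf : f ≠ 0) {x : C}
    (hx : x ∈ SS P (D + pdiv κ f)) : f * x ∈ SS P D := by
  obtain ⟨γ, hγ, ι, hι, rfl⟩ := Submodule.mem_sup.1 hx
  rw [mul_add]
  refine Submodule.add_mem_sup ?_ ?_
  · by_cases h0 : γ = 0
    · rw [h0, mul_zero]; exact zero_mem _
    rw [mem_Gam h] at hγ ⊢
    refine Or.inr fun z hz => ?_
    have := hγ.resolve_left h0 z hz
    rw [Finsupp.add_apply, pdiv_apply h] at this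
    rw [(place_isDVR h z).isOrd.mul hf h0]
    omega
  · by_cases h0 : ι = 0
    · rw [h0, mul_zero]; exact zero_mem _
    rw [mem_Iv (place_isDVR h P)] at hι ⊢
    refine Or.inr ?_
    have := hι.resolve_left h0
    rw [Finsupp.add_apply, pdiv_apply h] at this
    rw [(place_isDVR h P).isOrd.mul hf h0]
    omega

theorem SS_sup (h : IsCurve κ C) {g : ℕ} (hg : IsGenus κ C g) (P : Place κ C) (A B : Dv κ C) :
    SS P (A ⊔ B) ≤ SS P A ⊔ SS P B := by
  refine sup_le (fun x hx => ?_) ?_
  · set m : ℤ := max (2 * (g : ℤ) - (A ⊓ B).degree) (-(A ⊔ B) P - ord P.O x) with hm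
    have hm1 : 2 * (g : ℤ) - (A ⊓ B).degree ≤ m := le_max_left _ _
    have hm2 : -(A ⊔ B) P - ord P.O x ≤ m := le_max_right _ _
    have hx' : x ∈ LL (A ⊔ B + Finsupp.single P m) := mem_LL_of_Gam h hx (by omega)
    have hdeg : ∀ {D D' : Dv κ C}, D ≤ D' → D.degree ≤ D'.degree := by
      intro D D' hD
      have h1 : (D' - D).degree = ∑ i ∈ (D' - D).support, (D' - D) i := rfl
      have h2 : 0 ≤ (D' - D).degree := by
        rw [h1]
        exact Finset.sum_nonneg fun i _ => by
          rw [Finsupp.sub_apply]; exact sub_nonneg.2 (hD i)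
      rw [map_sub] at h2
      omega
    have hns : ∀ D : Dv κ C, A ⊓ B ≤ D →
        (ell (D + Finsupp.single P m) : ℤ) + g = D.degree + m + 1 := by
      intro D hD
      have h1 := hdeg hD
      have := hg.2 (D + Finsupp.single P m) (by simp only [map_add, Finsupp.degree_single]; omega)
      simpa only [map_add, Finsupp.degree_single] using this
    have hA := finiteDimensional_LL h (A + Finsupp.single P m)
    have hB := finiteDimensional_LL h (B + Finsupp.single P m)
    have hAB := finiteDimensional_LL h (A ⊔ B + Finsupp.single P m)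
    have e1 := Submodule.finrank_sup_add_finrank_inf_eq (LL (A + Finsupp.single P m))
      (LL (B + Finsupp.single P m))
    rw [← LL_inf h, ← inf_add] at e1
    have e2 : (A ⊓ B).degree + (A ⊔ B).degree = A.degree + B.degree := by
      rw [← map_add, ← map_add, inf_add_sup]
    have h1 := hns A inf_le_left
    have h2 := hns B inf_le_right
    have h3 := hns (A ⊓ B) le_rfl
    have h4 := hns (A ⊔ B) inf_le_sup
    have hle : LL (A + Finsupp.single P m) ⊔ LL (B + Finsupp.single P m) ≤
        LL (A ⊔ B + Finsupp.single P m) :=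
      sup_le (LL_mono h (add_le_add_left le_sup_left _)) (LL_mono h (add_le_add_left le_sup_right _))
    have heq := Submodule.eq_of_le_of_finrank_eq hle (by unfold ell at h1 h2 h3 h4; omega)
    rw [← heq] at hx'
    exact sup_le_sup ((LL_le_Gam h P A m).trans le_sup_left)
      ((LL_le_Gam h P B m).trans le_sup_left) hx'
  · rw [Finsupp.sup_apply]
    rcases le_total (A P) (B P) with hAB | hAB
    · rw [sup_eq_right.2 hAB]; exact le_sup_of_le_right le_sup_right
    · rw [sup_eq_left.2 hAB]; exact le_sup_of_le_left le_sup_right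

omit [IsAlgClosed κ] in
theorem eq_of_le_of_degree_le {D D' : Dv κ C} (hD : D ≤ D') (hd : D'.degree ≤ D.degree) :
    D = D' := by
  have h1 : (D' - D).degree = ∑ i ∈ (D' - D).support, (D' - D) i := rfl
  have h0 : ∀ i ∈ (D' - D).support, 0 ≤ (D' - D) i := fun i _ => by
    rw [Finsupp.sub_apply]; exact sub_nonneg.2 (hD i)
  have h2 : ∑ i ∈ (D' - D).support, (D' - D) i = 0 := by
    refine le_antisymm ?_ (Finset.sum_nonneg h0)
    rw [← h1, map_sub]; omega
  rw [Finset.sum_eq_zero_iff_of_nonneg h0] at h2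
  have : D' - D = 0 := by
    ext i
    by_contra hi
    exact hi (h2 i (Finsupp.mem_support_iff.2 hi))
  exact (sub_eq_zero.1 this).symm

theorem unique_special (h : IsCurve κ C) {g : ℕ} (hg : IsGenus κ C g) (P : Place κ C)
    {W W' : Dv κ C} (hW : (ell W : ℤ) + g ≠ W.degree + 1) (hW' : (ell W' : ℤ) + g ≠ W'.degree + 1)
    (hd : W.degree = W'.degree)
    (hmax : ∀ D : Dv κ C, (ell D : ℤ) + g ≠ D.degree + 1 → D.degree ≤ W.degree) :
    (W : Pic κ C) = (W' : Pic κ C) := by
  obtain ⟨w, hw0, hw⟩ := (SS P W).exists_le_ker_of_lt_top (lt_top_iff_ne_top.2 (SS_ne_top h hg P hW))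
  obtain ⟨w', hw0', hw'⟩ :=
    (SS P W').exists_le_ker_of_lt_top (lt_top_iff_ne_top.2 (SS_ne_top h hg P hW'))
  set b : ℤ := max 1 (3 * (g : ℤ) - 2 * W.degree) with hb
  have hb1 : 1 ≤ b := le_max_left _ _
  have hb2 : 3 * (g : ℤ) - 2 * W.degree ≤ b := le_max_right _ _
  set B : Dv κ C := Finsupp.single P b with hB
  have hBd : B.degree = b := Finsupp.degree_single _ _
  obtain ⟨T, hT, hT'⟩ := exists_T h hg P (-B)
  rw [ell_eq_zero_of_neg h (by rw [map_neg]; omega), map_neg, hBd] at hT
  have hfin := finiteDimensional_LL h (W + B)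
  have hfin' := finiteDimensional_LL h (W' + B)
  let Ψ : (LL (W + B) × LL (W' + B)) →ₗ[κ] Module.Dual κ C :=
    { toFun := fun p => w ∘ₗ LinearMap.mulLeft κ (p.1 : C) - w' ∘ₗ LinearMap.mulLeft κ (p.2 : C)
      map_add' := fun p q => by ext x; simp [add_mul]; ring
      map_smul' := fun c p => by ext x; simp [mul_sub] }
  have hΨ : ∀ p x, Ψ p x = w (p.1 * x) - w' (p.2 * x) := fun _ _ => rfl
  let Φ : (LL (W + B) × LL (W' + B)) →ₗ[κ] (T → κ) :=
    LinearMap.pi fun t => (Module.Dual.eval κ C (t : C)) ∘ₗ Ψ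
  have hker : LinearMap.ker Φ ≠ ⊥ := by
    apply LinearMap.ker_ne_bot_of_finrank_lt
    have h1 := hg.1 (W + B)
    have h2 := hg.1 (W' + B)
    rw [map_add, hBd] at h1 h2
    rw [Module.finrank_prod, Module.finrank_fintype_fun_eq_card, Fintype.card_coe]
    unfold ell at h1 h2
    omega
  obtain ⟨p, hp, hp0⟩ := Submodule.exists_mem_ne_zero_of_ne_bot hker
  have hkill : ∀ {D : Dv κ C} {v : Module.Dual κ C} {f : C}, SS P D ≤ LinearMap.ker v →
      f ∈ LL (D + B) → ∀ x ∈ SS P (-B), v (f * x) = 0 := by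
    intro D v f hv hf x hx
    by_cases h0 : f = 0
    · simp [h0]
    have h1 := (mem_LL' h h0).1 hf
    have h2 : -B ≤ D + pdiv κ f := by
      intro z
      have := h1 z
      simp only [Finsupp.add_apply, Finsupp.neg_apply, Finsupp.coe_zero, Pi.zero_apply] at this ⊢
      omega
    exact hv (mul_mem_SS h P D h0 (SS_mono h P h2 hx))
  have hΨ0 : Ψ p = 0 := by
    rw [← LinearMap.ker_eq_top, eq_top_iff, ← hT']
    refine sup_le (fun x hx => ?_) (Submodule.span_le.2 fun t ht => ?_)
    · rw [LinearMap.mem_ker, hΨ, hkill hw p.1.2 x hx, hkill hw' p.2.2 x hx, sub_zero]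
    · exact congrFun (LinearMap.mem_ker.1 hp) ⟨t, ht⟩
  have heq : ∀ x, w (p.1 * x) = w' (p.2 * x) := fun x => by
    rw [← sub_eq_zero, ← hΨ, hΨ0]; rfl
  have hnz : ∀ {v : Module.Dual κ C} {f : C}, v ≠ 0 → f ≠ 0 → ∃ x, v (f * x) ≠ 0 := by
    intro v f hv hf
    by_contra hc
    push Not at hc
    apply hv
    ext y
    have := hc (f⁻¹ * y)
    rwa [mul_inv_cancel_left₀ hf] at this
  have hp1 : (p.1 : C) ≠ 0 := by
    intro h1
    have h2 : (p.2 : C) ≠ 0 := fun h2 => hp0 (Prod.ext (Subtype.ext h1) (Subtype.ext h2))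
    obtain ⟨x, hx⟩ := hnz hw0' h2
    exact hx (by rw [← heq, h1, zero_mul, map_zero])
  have hp2 : (p.2 : C) ≠ 0 := by
    intro h2
    obtain ⟨x, hx⟩ := hnz hw0 hp1
    exact hx (by rw [heq, h2, zero_mul, map_zero])
  set A : Dv κ C := W + pdiv κ (p.1 : C) with hA
  set A' : Dv κ C := W' + pdiv κ (p.2 : C) with hA'
  have hsp : (ell (A ⊔ A') : ℤ) + g ≠ (A ⊔ A').degree + 1 := by
    intro hns
    obtain ⟨T', h1, h2⟩ := exists_T h hg P (A ⊔ A')
    have h3 : T' = ∅ := Finset.card_eq_zero.1 (by omega)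
    rw [h3, Finset.coe_empty, Submodule.span_empty, sup_bot_eq] at h2
    obtain ⟨x, hx⟩ := hnz hw0 hp1
    have h4 : SS P A ⊔ SS P A' ≤ LinearMap.ker (w ∘ₗ LinearMap.mulLeft κ (p.1 : C)) := by
      refine sup_le (fun y hy => ?_) (fun y hy => ?_)
      · exact hw (mul_mem_SS h P W hp1 hy)
      · change w (p.1 * y) = 0
        rw [heq]
        exact hw' (mul_mem_SS h P W' hp2 hy)
    exact hx (h4 (SS_sup h hg P A A' (by rw [h2]; trivial)))
  have h5 := hmax _ hsp
  have hAd : A.degree = W.degree := by rw [hA, map_add, degree_pdiv h, add_zero]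
  have hAd' : A'.degree = W.degree := by rw [hA', map_add, degree_pdiv h, add_zero, hd]
  have e1 : A = A ⊔ A' := eq_of_le_of_degree_le le_sup_left (by omega)
  have e2 : A' = A ⊔ A' := eq_of_le_of_degree_le le_sup_right (by omega)
  rw [(mk_eq_mk h).2 ⟨_, hp1, hA⟩, (mk_eq_mk h).2 ⟨_, hp2, hA'⟩, e2, ← e1]

end Canon

theorem exists_isCanon (h : IsCurve κ C) {g : ℕ} (hg : IsGenus κ C g) (hg1 : 1 ≤ g) :
    ∃ W : Dv κ C, IsCanon g W := by
  obtain ⟨P⟩ : Nonempty (Place κ C) := by
    have := infinite_place h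
    infer_instance
  have hbdd : ∀ D : Dv κ C, (ell D : ℤ) + g ≠ D.degree + 1 → D.degree ≤ 2 * (g : ℤ) - 2 := by
    intro D hD
    by_contra hc
    exact hD (hg.2 D (by omega))
  have hex : (ell (Finsupp.single P ((g : ℤ) - 1) : Dv κ C) : ℤ) + g ≠
      (Finsupp.single P ((g : ℤ) - 1) : Dv κ C).degree + 1 := by
    have h1 : ell (0 : Dv κ C) ≤ ell (Finsupp.single P ((g : ℤ) - 1) : Dv κ C) := by
      apply ell_mono h
      have := Canon.single_mono P (0 : Dv κ C) (show (0 : ℤ) ≤ g - 1 by omega)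
      simpa using this
    rw [ell_zero h] at h1
    rw [Finsupp.degree_single]
    omega
  obtain ⟨m, ⟨W, hW, hWm⟩, hmax⟩ := Int.exists_greatest_of_bdd
    (P := fun m => ∃ D : Dv κ C, (ell D : ℤ) + g ≠ D.degree + 1 ∧ D.degree = m)
    ⟨2 * (g : ℤ) - 2, fun m ⟨D, hD, e⟩ => e ▸ hbdd D hD⟩ ⟨_, _, hex, rfl⟩
  have hmax' : ∀ D : Dv κ C, (ell D : ℤ) + g ≠ D.degree + 1 → D.degree ≤ W.degree :=
    fun D hD => hWm ▸ hmax _ ⟨D, hD, rfl⟩
  refine ⟨W, ?_, hbdd W hW, ?_, fun D hD hne => ?_⟩
  · have := hmax' _ hex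
    rwa [Finsupp.degree_single] at this
  · have h1 : (ell (W + Finsupp.single P 1) : ℤ) + g = (W + Finsupp.single P 1).degree + 1 := by
      by_contra hc
      have := hmax' _ hc
      rw [map_add, Finsupp.degree_single] at this
      omega
    have h2 : ell W ≤ ell (W + Finsupp.single P 1) := by
      apply ell_mono h
      simpa using Canon.single_mono P W (show (0 : ℤ) ≤ 1 by omega)
    have h3 := hg.1 W
    rw [map_add, Finsupp.degree_single] at h1
    omega
  · by_contra hc
    exact hne (Canon.unique_special h hg P hW hc (le_antisymm hD (hmax' D hc)) hmax').symm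

end Vale.Agent.P019
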