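import Vale.Agent.P019.Curve.Defs

/-! P019, curves: size of the `ℓ`-torsion from the growth of the fixed groups. -/

namespace Vale.Agent.P019

namespace GroupLemAux

variable {G A : Type*} [Group G] [AddCommGroup A] [DistribMulAction G A]

/-- Fixed points of `ψ` in `S`. -/
def fx (ψ : G) (S : AddSubgroup A) : AddSubgroup A where
  carrier := {a | a ∈ S ∧ ψ • a = a}
  add_mem' := fun ha hb => ⟨S.add_mem ha.1 hb.1, by rw [smul_add, ha.2, hb.2]⟩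
  zero_mem' := ⟨S.zero_mem, smul_zero _⟩
  neg_mem' := fun ha => ⟨S.neg_mem ha.1, by rw [smul_neg, ha.2]⟩

/-- The `ℓ`-torsion of `S`. -/
def tor (ℓ : ℕ) (S : AddSubgroup A) : AddSubgroup A where
  carrier := {a | a ∈ S ∧ ℓ • a = 0}
  add_mem' := fun ha hb => ⟨S.add_mem ha.1 hb.1, by rw [smul_add, ha.2, hb.2, add_zero]⟩
  zero_mem' := ⟨S.zero_mem, smul_zero _⟩
  neg_mem' := fun ha => ⟨S.neg_mem ha.1, by rw [smul_neg, ha.2, neg_zero]⟩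

/-- The norm map. -/
def nrm (ψ : G) (ℓ : ℕ) : A →+ A := ∑ j ∈ Finset.range ℓ, DistribSMul.toAddMonoidHom A (ψ ^ j)

theorem tor_le (ℓ : ℕ) (S : AddSubgroup A) : tor ℓ S ≤ S := fun _ ha => ha.1

theorem nrm_apply (ψ : G) (ℓ : ℕ) (a : A) : nrm ψ ℓ a = ∑ j ∈ Finset.range ℓ, ψ ^ j • a := by
  simp [nrm]

theorem pow_fix {ψ : G} {a : A} (h : ψ • a = a) (j : ℕ) : ψ ^ j • a = a := by
  induction j with
  | zero => simp
  | succ j ih => rw [pow_succ, mul_smul, h, ih]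

theorem pow_mem {ψ : G} {S : AddSubgroup A} (hS : ∀ a ∈ S, ψ • a ∈ S) (j : ℕ) :
    ∀ a ∈ S, ψ ^ j • a ∈ S := by
  induction j with
  | zero => simp
  | succ j ih => intro a ha; rw [pow_succ, mul_smul]; exact ih _ (hS a ha)

theorem nrm_fix {ψ : G} {a : A} (h : ψ • a = a) (ℓ : ℕ) : nrm ψ ℓ a = ℓ • a := by
  simp [nrm_apply, pow_fix h]

theorem smul_nrm {ψ : G} {ℓ : ℕ} {b : A} (h : ψ ^ ℓ • b = b) : ψ • nrm ψ ℓ b = nrm ψ ℓ b := by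
  have h1 := Finset.sum_range_succ (fun j => ψ ^ j • b) ℓ
  rw [Finset.sum_range_succ', h, pow_zero, one_smul, add_left_inj] at h1
  rw [nrm_apply, Finset.smul_sum, ← h1]
  exact Finset.sum_congr rfl fun j _ => by rw [pow_succ', mul_smul]

theorem card_split {ψ : G} {S : AddSubgroup A} (hS : ∀ a ∈ S, ψ • a ∈ S) {ℓ : ℕ}
    (hn : ∀ a ∈ S, ψ • a = a →
      ∃ b ∈ S, ψ ^ ℓ • b = b ∧ ∑ j ∈ Finset.range ℓ, ψ ^ j • b = a) :
    Nat.card ((nrm ψ ℓ : A →+ A).ker ⊓ fx (ψ ^ ℓ) S : AddSubgroup A) * Nat.card (fx ψ S)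
      = Nat.card (fx (ψ ^ ℓ) S) := by
  have h1 : (fx (ψ ^ ℓ) S).map (nrm ψ ℓ) = fx ψ S := by
    ext a
    constructor
    · rintro ⟨b, hb, rfl⟩
      refine ⟨?_, smul_nrm hb.2⟩
      rw [nrm_apply]
      exact S.sum_mem fun j _ => pow_mem hS j b hb.1
    · intro ha
      obtain ⟨b, hb, h2, h3⟩ := hn a ha.1 ha.2
      exact ⟨b, ⟨hb, h2⟩, by rw [nrm_apply, h3]⟩
  rw [← h1, ← AddSubgroup.relIndex_ker, ← AddSubgroup.inf_relIndex_right,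
    ← AddSubgroup.card_mul_index (((nrm ψ ℓ : A →+ A).ker ⊓ fx (ψ ^ ℓ) S).addSubgroupOf
      (fx (ψ ^ ℓ) S))]
  congr 1
  exact (Nat.card_congr (AddSubgroup.addSubgroupOfEquivOfLe inf_le_right).toEquiv).symm

theorem card_pow {ℓ : ℕ} (hℓ : ℓ.Prime) (T : AddSubgroup A) [Finite T] (hT : ∀ a ∈ T, ℓ • a = 0) :
    ∃ k, Nat.card T = ℓ ^ k := by
  refine ⟨_, Nat.eq_prime_pow_of_unique_prime_dvd Nat.card_pos.ne' fun {d} hd h1 => ?_⟩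
  have : Fact d.Prime := ⟨hd⟩
  obtain ⟨x, hx⟩ := exists_prime_addOrderOf_dvd_card' d h1
  refine (Nat.prime_dvd_prime_iff_eq hd hℓ).1 ?_
  rw [← hx, addOrderOf_dvd_iff_nsmul_eq_zero]
  exact Subtype.ext (hT x.1 x.2)

theorem dvd_card_tor {ℓ ρ : ℕ} (hℓ : ℓ.Prime) (K : AddSubgroup A) [Finite K]
    (hK : ∀ a ∈ K, ℓ • ℓ • a = 0 → ℓ • a = 0) (hd : ℓ ^ ρ ∣ Nat.card K) :
    ℓ ^ ρ ∣ Nat.card (tor ℓ K) := by
  have : Fact ℓ.Prime := ⟨hℓ⟩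
  have h0 : Nat.card ((tor ℓ K).addSubgroupOf K) = Nat.card (tor ℓ K) :=
    Nat.card_congr (AddSubgroup.addSubgroupOfEquivOfLe (tor_le ℓ K)).toEquiv
  rw [AddSubgroup.card_eq_card_quotient_mul_card_addSubgroup ((tor ℓ K).addSubgroupOf K),
    h0] at hd
  refine Nat.Coprime.dvd_of_dvd_mul_left (Nat.Coprime.pow_left _ ?_) hd
  rw [hℓ.coprime_iff_not_dvd]
  intro h1
  obtain ⟨x, hx⟩ := exists_prime_addOrderOf_dvd_card' ℓ h1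
  obtain ⟨y, rfl⟩ := QuotientAddGroup.mk_surjective x
  have h2 := addOrderOf_nsmul_eq_zero (y : K ⧸ (tor ℓ K).addSubgroupOf K)
  rw [hx, ← QuotientAddGroup.mk_nsmul, QuotientAddGroup.eq_zero_iff] at h2
  have h3 : (y : K ⧸ (tor ℓ K).addSubgroupOf K) = 0 :=
    (QuotientAddGroup.eq_zero_iff _).2 ⟨y.2, hK y.1 y.2 h2.2⟩
  rw [h3, addOrderOf_zero] at hx
  exact hℓ.one_lt.ne hx

theorem fix_finset (F : G) (S : AddSubgroup A)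
    (hper : ∀ a ∈ S, ∃ n : ℕ, 1 ≤ n ∧ F ^ n • a = a) {n₀ : ℕ} (h0 : 1 ≤ n₀) (t : Finset A) :
    (∀ a ∈ t, a ∈ S) → ∃ n : ℕ, 1 ≤ n ∧ n₀ ∣ n ∧ ∀ a ∈ t, F ^ n • a = a := by
  classical
  induction t using Finset.induction_on with
  | empty => exact fun _ => ⟨n₀, h0, dvd_rfl, by simp⟩
  | insert b t _ ih =>
    intro ht
    obtain ⟨n, h1, h2, h3⟩ := ih fun a ha => ht a (Finset.mem_insert_of_mem ha)
    obtain ⟨m, h4, h5⟩ := hper b (ht b (Finset.mem_insert_self _ _))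
    refine ⟨n * m, Nat.mul_pos h1 h4, h2.mul_right m, fun a ha => ?_⟩
    rcases Finset.mem_insert.1 ha with rfl | ha
    · rw [mul_comm, pow_mul]
      exact pow_fix h5 n
    · rw [pow_mul]
      exact pow_fix (h3 a ha) m

theorem fix_sq {ψ : G} {S : AddSubgroup A} (hS : ∀ a ∈ S, ψ • a ∈ S) {ℓ : ℕ}
    (hT : ∀ a ∈ S, ℓ • a = 0 → ψ • a = a) {y : A} (hy : y ∈ S) (h2 : ℓ • ℓ • y = 0) :
    ψ ^ ℓ • y = y := by
  have h1 : ℓ • (ψ • y - y) = 0 := by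
    rw [smul_sub, ← smul_comm ψ ℓ y, hT _ (S.nsmul_mem hy ℓ) h2, sub_self]
  have h3 := hT _ (S.sub_mem (hS y hy) hy) h1
  have h4 : ∀ j : ℕ, ψ ^ j • y = y + j • (ψ • y - y) := by
    intro j
    induction j with
    | zero => simp
    | succ j ih =>
      rw [pow_succ', mul_smul, ih, smul_add, smul_comm ψ j, h3, succ_nsmul]
      abel
  rw [h4, h1, add_zero]

end GroupLemAux

open GroupLemAux in
theorem card_torsion_of_growth {G A : Type*} [Group G] [AddCommGroup A] [DistribMulAction G A]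
    (F : G) (S : AddSubgroup A) (hS : ∀ a ∈ S, F • a ∈ S) {ℓ ρ : ℕ} (hℓ : ℓ.Prime)
    (hper : ∀ a ∈ S, ∃ n : ℕ, 1 ≤ n ∧ F ^ n • a = a)
    (hfin : ∀ n : ℕ, 1 ≤ n → {a | a ∈ S ∧ F ^ n • a = a}.Finite)
    (hgrow : ∃ n₀ : ℕ, 1 ≤ n₀ ∧ ∀ n, 1 ≤ n → n₀ ∣ n →
      padicValNat ℓ {a | a ∈ S ∧ F ^ (n * ℓ) • a = a}.ncard =
        padicValNat ℓ {a | a ∈ S ∧ F ^ n • a = a}.ncard + ρ)
    (hnorm : ∀ n : ℕ, 1 ≤ n → ∀ a ∈ S, F ^ n • a = a →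
      ∃ b ∈ S, (F ^ n) ^ ℓ • b = b ∧ ∑ j ∈ Finset.range ℓ, (F ^ n) ^ j • b = a) :
    {a | a ∈ S ∧ ℓ • a = 0}.Finite ∧ {a | a ∈ S ∧ ℓ • a = 0}.ncard = ℓ ^ ρ := by
  have : Fact ℓ.Prime := ⟨hℓ⟩
  obtain ⟨n₀, hn₀, hgrow⟩ := hgrow
  have hK : ∀ n, 1 ≤ n → n₀ ∣ n → ∃ K : AddSubgroup A, Finite K ∧
      padicValNat ℓ (Nat.card K) = ρ ∧ K ≤ S ∧ (∀ a ∈ K, nrm (F ^ n) ℓ a = 0) ∧
      ∀ a ∈ S, F ^ n • a = a → ℓ • a = 0 → a ∈ K := by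
    intro n h1 h2
    have f1 : Finite (fx (F ^ n) S) := hfin n h1
    have f2 : Finite (fx ((F ^ n) ^ ℓ) S) := by
      rw [← pow_mul]
      exact hfin (n * ℓ) (Nat.mul_pos h1 hℓ.pos)
    have f3 : Finite ((nrm (F ^ n) ℓ : A →+ A).ker ⊓ fx ((F ^ n) ^ ℓ) S : AddSubgroup A) :=
      Finite.of_injective _ (AddSubgroup.inclusion_injective inf_le_right)
    refine ⟨(nrm (F ^ n) ℓ : A →+ A).ker ⊓ fx ((F ^ n) ^ ℓ) S, f3, ?_, fun a ha => ha.2.1,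
      fun a ha => ha.1, fun a ha h3 h4 => ⟨?_, ha, pow_fix h3 ℓ⟩⟩
    · have h3 := card_split (pow_mem hS n) (hnorm n h1)
      have h4 : padicValNat ℓ (Nat.card (fx (F ^ (n * ℓ)) S))
          = padicValNat ℓ (Nat.card (fx (F ^ n) S)) + ρ := hgrow n h1 h2
      rw [pow_mul, ← h3, padicValNat.mul Nat.card_pos.ne' Nat.card_pos.ne'] at h4
      omega
    · exact (nrm_fix h3 ℓ).trans h4
  have hup : ∀ n, 1 ≤ n → n₀ ∣ n → Finite (tor ℓ (fx (F ^ n) S)) ∧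
      Nat.card (tor ℓ (fx (F ^ n) S)) ≤ ℓ ^ ρ := by
    intro n h1 h2
    obtain ⟨K, hf, h3, -, -, h4⟩ := hK n h1 h2
    have h5 : tor ℓ (fx (F ^ n) S) ≤ K := fun a ha => h4 a ha.1.1 ha.1.2 ha.2
    have f1 : Finite (tor ℓ (fx (F ^ n) S)) :=
      Finite.of_injective _ (AddSubgroup.inclusion_injective h5)
    obtain ⟨k, hk⟩ := card_pow hℓ (tor ℓ (fx (F ^ n) S)) fun a ha => ha.2
    have h6 := AddSubgroup.card_dvd_of_le h5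
    rw [hk, padicValNat_dvd_iff_le Nat.card_pos.ne', h3] at h6
    exact ⟨f1, hk ▸ Nat.pow_le_pow_right hℓ.pos h6⟩
  have hT : {a | a ∈ S ∧ ℓ • a = 0}.Finite := by
    by_contra hinf
    obtain ⟨t, ht, hc⟩ := Set.Infinite.exists_subset_card_eq hinf (ℓ ^ ρ + 1)
    obtain ⟨n, h1, h2, h3⟩ := fix_finset F S hper hn₀ t fun a ha => (ht ha).1
    obtain ⟨f1, h4⟩ := hup n h1 h2
    have h5 : (t : Set A).ncard ≤ (tor ℓ (fx (F ^ n) S) : Set A).ncard :=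
      Set.ncard_le_ncard (fun a ha => ⟨⟨(ht ha).1, h3 a ha⟩, (ht ha).2⟩) f1
    have h6 : (tor ℓ (fx (F ^ n) S) : Set A).ncard ≤ ℓ ^ ρ := h4
    rw [Set.ncard_coe_finset] at h5
    omega
  refine ⟨hT, ?_⟩
  obtain ⟨n, h1, h2, h3⟩ := fix_finset F S hper hn₀ hT.toFinset
    fun a ha => (hT.mem_toFinset.1 ha).1
  have h4 : ∀ a ∈ S, ℓ • a = 0 → F ^ n • a = a := fun a ha h5 => h3 a (hT.mem_toFinset.2 ⟨ha, h5⟩)
  refine le_antisymm ?_ ?_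
  · obtain ⟨f1, h5⟩ := hup n h1 h2
    have h6 : {a | a ∈ S ∧ ℓ • a = 0}.ncard ≤ (tor ℓ (fx (F ^ n) S) : Set A).ncard :=
      Set.ncard_le_ncard (fun a ha => ⟨⟨ha.1, h4 a ha.1 ha.2⟩, ha.2⟩) f1
    exact h6.trans h5
  · obtain ⟨K, hf, h5, h6, h7, -⟩ := hK (n * ℓ) (Nat.mul_pos h1 hℓ.pos) (h2.mul_right ℓ)
    have h8 : ℓ ^ ρ ∣ Nat.card (tor ℓ K) := by
      refine dvd_card_tor hℓ K (fun a ha h9 => ?_) (h5 ▸ pow_padicValNat_dvd)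
      rw [← nrm_fix (ψ := F ^ (n * ℓ)), h7 a ha]
      rw [pow_mul]
      exact fix_sq (pow_mem hS n) h4 (h6 ha) h9
    have f1 : Finite (tor ℓ K) :=
      Finite.of_injective _ (AddSubgroup.inclusion_injective (tor_le ℓ K))
    have h9 : (tor ℓ K : Set A).ncard ≤ {a | a ∈ S ∧ ℓ • a = 0}.ncard :=
      Set.ncard_le_ncard (fun a ha => ⟨h6 ha.1, ha.2⟩) hT
    exact (Nat.le_of_dvd Nat.card_pos h8).trans h9

end Vale.Agent.P019
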