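import Vale.Agent.P019.Curve.Degree

/-! P019, curves: unramified classes and torsion in the class group. -/

open IntermediateField Module

namespace Vale.Agent.P019

variable {κ C : Type*} [Field κ] [Field C] [Algebra κ C] [IsAlgClosed κ]

namespace UnrPic

/-- the correspondence between classes of functions and divisor classes -/
def Rl (ℓ : ℕ) (v : V ℓ C) (a : Pic κ C) : Prop :=
  ∃ (f : C) (D : Dv κ C), f ≠ 0 ∧ cl ℓ f = v ∧ pdiv κ f = ℓ • D ∧ (D : Pic κ C) = a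

theorem mem_unr (h : IsCurve κ C) (ℓ : ℕ) {f : C} (hf : f ≠ 0) :
    cl ℓ f ∈ Unr ℓ κ C ↔ ∀ z : Place κ C, (ℓ : ℤ) ∣ pdiv κ f z := by
  rw [Unr, Submodule.mem_iInf]
  exact forall_congr' fun z => by
    rw [(place_isDVR h z).isOrd.cl_mem_HO_iff ℓ hf, pdiv_apply h]

theorem mk_pdiv (h : IsCurve κ C) {f : C} (hf : f ≠ 0) : (pdiv κ f : Pic κ C) = 0 :=
  (QuotientAddGroup.eq_zero_iff _).2 ((mem_Prin h).2 ⟨f, hf, rfl⟩)

theorem left_total (h : IsCurve κ C) {ℓ : ℕ} (hℓ : ℓ ≠ 0) {v : V ℓ C} (hv : v ∈ Unr ℓ κ C) :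
    ∃ a : Pic κ C, (a ∈ Pic0 κ C ∧ ℓ • a = 0) ∧ Rl ℓ v a := by
  obtain ⟨f, hf, rfl⟩ := cl_surj v
  rw [mem_unr h ℓ hf] at hv
  set D : Dv κ C := (pdiv κ f).mapRange (· / (ℓ : ℤ)) (by simp) with hD
  have h1 : pdiv κ f = ℓ • D := by
    ext z
    rw [Finsupp.smul_apply, hD, Finsupp.mapRange_apply, nsmul_eq_mul,
      Int.mul_ediv_cancel' (hv z)]
  refine ⟨D, ⟨(mk_mem_Pic0 h).2 ?_, ?_⟩, f, D, hf, rfl, h1, rfl⟩
  · have h2 := degree_pdiv h f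
    rw [h1, map_nsmul, nsmul_eq_mul] at h2
    exact (mul_eq_zero.1 h2).resolve_left (by exact_mod_cast hℓ)
  · rw [← QuotientAddGroup.mk_nsmul, ← h1, mk_pdiv h hf]

theorem right_total (h : IsCurve κ C) {ℓ : ℕ} {a : Pic κ C} (ha : ℓ • a = 0) :
    ∃ v ∈ Unr ℓ κ C, Rl ℓ v a := by
  obtain ⟨D, rfl⟩ := QuotientAddGroup.mk_surjective a
  rw [← QuotientAddGroup.mk_nsmul, QuotientAddGroup.eq_zero_iff, mem_Prin h] at ha
  obtain ⟨f, hf, h1⟩ := ha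
  refine ⟨cl ℓ f, (mem_unr h ℓ hf).2 fun z => ?_, f, D, hf, rfl, h1.symm, rfl⟩
  rw [← h1, Finsupp.smul_apply, nsmul_eq_mul]
  exact dvd_mul_right _ _

theorem eq_iff (h : IsCurve κ C) {ℓ : ℕ} (hℓ : ℓ ≠ 0) {v v' : V ℓ C} {a a' : Pic κ C}
    (h1 : Rl ℓ v a) (h2 : Rl ℓ v' a') : v = v' ↔ a = a' := by
  obtain ⟨f, D, hf, rfl, e, rfl⟩ := h1
  obtain ⟨f', D', hf', rfl, e', rfl⟩ := h2
  constructor
  · intro hc
    obtain ⟨u, hu, hc⟩ := (cl_eq_iff hf hf').1 hc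
    refine ((mk_eq_mk h).2 ⟨u, hu, ?_⟩).symm
    rw [hc, pdiv_mul h hf' (pow_ne_zero _ hu), pdiv_pow h, e', ← smul_add] at e
    ext z
    have := DFunLike.congr_fun e z
    simp only [Finsupp.smul_apply, nsmul_eq_mul] at this
    exact (mul_left_cancel₀ (by exact_mod_cast hℓ) this).symm
  · intro hc
    obtain ⟨u, hu, hc⟩ := (mk_eq_mk h).1 hc
    have hu' : f * u ^ ℓ ≠ 0 := mul_ne_zero hf (pow_ne_zero _ hu)
    have h3 : pdiv κ f' = pdiv κ (f * u ^ ℓ) := by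
      rw [pdiv_mul h hf (pow_ne_zero _ hu), pdiv_pow h, e, e', hc, smul_add]
    obtain ⟨c, hc0, h4⟩ := (pdiv_eq_iff h hf' hu').1 h3
    obtain ⟨d, rfl⟩ := IsAlgClosed.exists_pow_nat_eq c (Nat.pos_of_ne_zero hℓ)
    have hd : d ≠ 0 := by
      rintro rfl
      exact hc0 (zero_pow hℓ)
    refine ((cl_eq_iff hf' hf).2 ⟨d • u, smul_ne_zero hd hu, ?_⟩).symm
    rw [h4, smul_pow, mul_smul_comm]

end UnrPic

theorem unr_equiv (h : IsCurve κ C) (ℓ : ℕ) [Fact ℓ.Prime] :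
    Nonempty (Unr ℓ κ C ≃ {a : Pic κ C | a ∈ Pic0 κ C ∧ ℓ • a = 0}) := by
  have hℓ : ℓ ≠ 0 := (Fact.out : ℓ.Prime).ne_zero
  choose φ h1 h2 using fun v : Unr ℓ κ C => UnrPic.left_total h hℓ v.2
  refine ⟨Equiv.ofBijective (fun v => ⟨φ v, h1 v⟩) ⟨fun v v' e => ?_, fun a => ?_⟩⟩
  · exact Subtype.ext ((UnrPic.eq_iff h hℓ (h2 v) (h2 v')).2 (congrArg Subtype.val e))
  · obtain ⟨v, hv, h3⟩ := UnrPic.right_total h a.2.2
    exact ⟨⟨v, hv⟩, Subtype.ext ((UnrPic.eq_iff h hℓ (h2 ⟨v, hv⟩) h3).1 rfl)⟩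

theorem Pic0_eq_bot (h : IsCurve κ C) (hg : IsGenus κ C 0) : Pic0 κ C = ⊥ := by
  refine (AddSubgroup.eq_bot_iff_forall _).2 fun a ha => ?_
  obtain ⟨D, hD, rfl⟩ := mem_Pic0.1 ha
  have h1 := hg.1 D
  rw [hD] at h1
  obtain ⟨f, hf, hf0⟩ := exists_mem_LL_of_ell_pos (D := D) (by omega)
  rw [mem_LL' h hf0] at hf
  have h2 : (D + pdiv κ f).degree = 0 := by rw [map_add, hD, degree_pdiv h, add_zero]
  have h3 : D + pdiv κ f = 0 := by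
    ext z
    by_cases hz : z ∈ (D + pdiv κ f).support
    · exact (Finset.sum_eq_zero_iff_of_nonneg fun i _ => hf i).1 h2 z hz
    · exact Finsupp.notMem_support_iff.1 hz
  exact (mk_eq_mk h).2 ⟨f, hf0, h3.symm⟩

end Vale.Agent.P019
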