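import Vale.Agent.P019.Curve.NormSurj
import Vale.Agent.P019.Curve.GroupLem
import Vale.Agent.P019.Curve.Canon
import Vale.Agent.P019.Curve.UnrPic

/-! P019, curves: the rank of the unramified classes lies between g and 2 g. -/

open IntermediateField Module

namespace Vale.Agent.P019

variable {κ C : Type*} [Field κ] [Field C] [Algebra κ C] [IsAlgClosed κ]

theorem JRank.torsion (h : IsCurve κ C) (hκ : FinAlg κ) {ℓ : ℕ} (hp : ℓ.Prime) (hℓ : (ℓ : κ) ≠ 0)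
    {g : ℕ} (hg : IsGenus κ C g) : ∃ ρ : ℕ, g ≤ ρ ∧ ρ ≤ 2 * g ∧
      {a | a ∈ Pic0 κ C ∧ ℓ • a = 0}.Finite ∧ {a | a ∈ Pic0 κ C ∧ ℓ • a = 0}.ncard = ℓ ^ ρ := by
  rcases Nat.eq_zero_or_pos g with rfl | hg1
  · have h1 : {a | a ∈ Pic0 κ C ∧ ℓ • a = 0} = {0} := by
      ext a
      rw [Pic0_eq_bot h hg]
      simp +contextual
    rw [h1]
    exact ⟨0, le_rfl, le_rfl, Set.finite_singleton _, by simp⟩
  obtain ⟨q, F, hF⟩ := exists_isFrob h hκ
  obtain ⟨W, hW⟩ := exists_isCanon h hg hg1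
  have h1 := hW.lower
  have h2 := hW.upper
  obtain ⟨m₀, hm₀⟩ := Int.eq_ofNat_of_zero_le (a := W.degree) (by omega)
  have hfin := fun n hn => fixPic0_finite h hκ hg (hF.pow (n := n) hn)
  refine ⟨m₀ + 2, by omega, by omega, card_torsion_of_growth F (Pic0 κ C)
    (fun a ha => smul_mem_Pic0 F ha) hp (fun a _ => ?_) hfin ?_ fun n hn a ha ha' => ?_⟩
  · obtain ⟨D, rfl⟩ := QuotientAddGroup.mk_surjective a
    obtain ⟨n, hn, e⟩ := hF.perDv D
    exact ⟨n, hn, by rw [smul_Pic_mk, e]⟩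
  · refine zeta_growth (g := g) hp hF.two_le (hF.coprime hp hℓ) (by omega)
      (fun k => {x : Place κ C | F ^ k • x = x}.ncard)
      (fun n m => (Eff (Place κ C) (F ^ n) m).ncard) (fun n => (FixPic0 (F ^ n)).ncard)
      (fun n hn => ?_) (fun n hn => ?_) (fun n hn m hm => ?_) fun n hn => ?_
    · simpa only [← pow_mul] using count_rec_card (F ^ n) (hF.pow hn).fin
    · exact (Set.ncard_pos (hfin n hn)).2 ⟨0, zero_mem _, smul_zero _⟩
    · have h3 := eff_count_big h hκ hg (hF.pow hn) m fun D hD => by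
        rw [← hD]
        refine hW.uniq D (by omega) fun e => ?_
        have := degree_congr h e
        omega
      exact_mod_cast h3
    · exact_mod_cast eff_count_canon h hκ hg (hF.pow hn) hW m₀ hm₀
  · obtain ⟨b, hb, e⟩ := norm_surj h hκ hg (hF.pow hn) hp.pos ⟨ha, ha'⟩
    exact ⟨b, hb.1, hb.2, e⟩

theorem unr_rank (h : IsCurve κ C) (hκ : FinAlg κ) (ℓ : ℕ) [Fact ℓ.Prime] (hℓ : (ℓ : κ) ≠ 0)
    {g : ℕ} (hg : IsGenus κ C g) :
    FiniteDimensional (ZMod ℓ) (Unr ℓ κ C) ∧ g ≤ finrank (ZMod ℓ) (Unr ℓ κ C) ∧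
      finrank (ZMod ℓ) (Unr ℓ κ C) ≤ 2 * g := by
  have hp : ℓ.Prime := Fact.out
  obtain ⟨ρ, h1, h2, h3, h4⟩ := JRank.torsion h hκ hp hℓ hg
  obtain ⟨e⟩ := unr_equiv h ℓ
  have := h3.to_subtype
  have : Finite (Unr ℓ κ C) := Finite.of_equiv _ e.symm
  have h5 : Module.Finite (ZMod ℓ) (Unr ℓ κ C) := Module.Finite.of_finite
  have h6 := Module.natCard_eq_pow_finrank (K := ZMod ℓ) (V := Unr ℓ κ C)
  rw [Nat.card_congr e, Nat.card_coe_set_eq, h4, Nat.card_zmod] at h6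
  rw [← Nat.pow_right_injective hp.two_le h6]
  exact ⟨h5, h1, h2⟩

end Vale.Agent.P019
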