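import Vale.Agent.P019.Curve.Degree

/-! P019, curves: successive minima at infinity. -/

open IntermediateField Module

namespace Vale.Agent.P019

variable {κ C : Type*} [Field κ] [Field C] [Algebra κ C] [IsAlgClosed κ]

theorem minima_pole_nonneg (h : IsCurve κ C) (t : C) : (0 : Dv κ C) ≤ poleDv κ t := fun z => by
  rw [poleDv_apply h]
  exact le_max_right _ _

theorem minima_mono (h : IsCurve κ C) (t : C) {a b : ℕ} (hab : a ≤ b) :
    LL (a • poleDv κ t) ≤ LL (b • poleDv κ t) :=
  LL_mono h (nsmul_le_nsmul_left (minima_pole_nonneg h t) hab)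

theorem minima_pow_mul (h : IsCurve κ C) (t : C) {m : ℕ} {f : C} (hf : f ∈ LL (m • poleDv κ t))
    (i : ℕ) : t ^ i * f ∈ LL ((i + m) • poleDv κ t) := by
  rw [add_nsmul]
  exact mul_mem_LL h (pow_mem_LL h (mem_LL_poleDv h t) i) hf

theorem minima_aeval_mul (h : IsCurve κ C) (t : C) {m e M : ℕ} {f : C}
    (hf : f ∈ LL (m • poleDv κ t)) {q : Polynomial κ} (hq : ∀ i, e ≤ i → q.coeff i = 0)
    (hM : m + e ≤ M + 1) : Polynomial.aeval t q * f ∈ LL (M • poleDv κ t) := by
  rw [Polynomial.aeval_def, Polynomial.eval₂_eq_sum, Polynomial.sum, Finset.sum_mul]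
  refine Submodule.sum_mem _ fun i hi => ?_
  have h1 : i < e := not_le.1 fun h2 => Polynomial.mem_support_iff.1 hi (hq i h2)
  rw [mul_assoc, ← Algebra.smul_def]
  exact Submodule.smul_mem _ _ (minima_mono h t (by omega) (minima_pow_mul h t hf i))

theorem minima_cancel (h : IsCurve κ C) {t : C} (ht : t ≠ 0) {m e : ℕ} {F : C}
    (h1 : F ∈ LL ((m + 1) • poleDv κ t)) (h2 : t ^ e * F ∈ LL ((m + e) • poleDv κ t)) :
    F ∈ LL (m • poleDv κ t) := by
  by_cases h0 : F = 0
  · rw [h0]; exact zero_mem _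
  rw [mem_LL h]
  refine Or.inr fun z => ?_
  have h3 := ((mem_LL h).1 h1).resolve_left h0 z
  have h4 := ((mem_LL h).1 h2).resolve_left (mul_ne_zero (pow_ne_zero _ ht) h0) z
  have ho := (place_isDVR h z).isOrd
  rw [ho.mul (pow_ne_zero _ ht) h0, ho.pow] at h4
  simp only [Finsupp.smul_apply, nsmul_eq_mul, poleDv_apply h] at h3 h4 ⊢
  rcases le_total (-ord z.O t) 0 with h5 | h5
  · rw [max_eq_right h5] at h3 ⊢
    simpa using h3
  · rw [max_eq_left h5] at h4 ⊢
    push_cast at h4
    linarith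

theorem minima_indep (h : IsCurve κ C) {t : C} (ht : t ≠ 0) {m : ℕ} {ι : Type} [Fintype ι]
    {f : ι → C} (hf : ∀ j, f j ∈ LL ((m + 1) • poleDv κ t))
    (hi : ∀ c : ι → κ, ∑ j, c j • f j ∈ LL (m • poleDv κ t) → ∀ j, c j = 0) :
    LinearIndependent κ⟮t⟯ f := by
  have key : ∀ (e : ℕ) (p : ι → Polynomial κ), (∀ j i, e ≤ i → (p j).coeff i = 0) →
      ∑ j, Polynomial.aeval t (p j) * f j = 0 → ∀ j, p j = 0 := by
    intro e
    induction e with
    | zero => exact fun p hp _ j => Polynomial.ext fun i => hp j i (Nat.zero_le i)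
    | succ e ih =>
      intro p hp h0
      have h1 : ∀ j, (p j).coeff e = 0 := by
        refine hi _ (minima_cancel h ht (e := e)
          (Submodule.sum_mem _ fun j _ => Submodule.smul_mem _ _ (hf j)) ?_)
        have h2 : t ^ e * ∑ j, (p j).coeff e • f j = -∑ j,
            Polynomial.aeval t (p j - Polynomial.monomial e ((p j).coeff e)) * f j := by
          simp only [map_sub, sub_mul, Finset.sum_sub_distrib, h0, Polynomial.aeval_monomial,
            Finset.mul_sum, Algebra.smul_def, zero_sub, neg_neg]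
          exact Finset.sum_congr rfl fun j _ => by ring
        rw [h2]
        refine neg_mem (Submodule.sum_mem _ fun j _ =>
          minima_aeval_mul h t (hf j) (e := e) (fun i hi => ?_) (by omega))
        rw [Polynomial.coeff_sub, Polynomial.coeff_monomial]
        split_ifs with h3
        · rw [h3, sub_self]
        · rw [hp j i (by omega), sub_zero]
      refine ih p (fun j i hi => ?_) h0
      rcases hi.eq_or_lt with rfl | h3
      · exact h1 j
      · exact hp j i h3
  open scoped IntermediateField.algebraAdjoinAdjoin in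
  rw [← LinearIndependent.iff_fractionRing (Algebra.adjoin κ {t}) κ⟮t⟯,
    Fintype.linearIndependent_iff]
  intro c hc j
  have h1 : ∀ j, ∃ p : Polynomial κ, Polynomial.aeval t p = (c j : C) := fun j =>
    (Algebra.adjoin_singleton_eq_range_aeval κ t).le (c j).2
  choose p hp using h1
  have h2 := key (∑ j, (p j).natDegree + 1) p (fun j i hi => Polynomial.coeff_eq_zero_of_natDegree_lt
    (lt_of_le_of_lt (Finset.single_le_sum (f := fun j => (p j).natDegree) (fun _ _ => Nat.zero_le _)
      (Finset.mem_univ j)) hi)) (by simp only [hp]; exact hc) j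
  apply Subtype.ext
  rw [← hp j, h2, map_zero]
  rfl

theorem minima_step (h : IsCurve κ C) {t : C} (ht : t ≠ 0) (m : ℕ) (b : Finset C)
    (hb : (LL ((m + 1) • poleDv κ t) : Set C) ⊆ Submodule.span κ⟮t⟯ (b : Set C)) :
    ell ((m + 1) • poleDv κ t) ≤ ell (m • poleDv κ t) + b.card := by
  obtain ⟨U', hU'⟩ := Submodule.exists_isCompl (LL (m • poleDv κ t))
  have hfin := finiteDimensional_LL h ((m + 1) • poleDv κ t)
  have hfin' := finiteDimensional_LL h (m • poleDv κ t)
  obtain ⟨U, hU⟩ : ∃ U, U = U' ⊓ LL ((m + 1) • poleDv κ t) := ⟨_, rfl⟩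
  have hle : U ≤ LL ((m + 1) • poleDv κ t) := hU ▸ inf_le_right
  have : FiniteDimensional κ U := Submodule.finiteDimensional_of_le hle
  have h1 : LL (m • poleDv κ t) ⊔ U = LL ((m + 1) • poleDv κ t) := by
    rw [hU, ← sup_inf_assoc_of_le _ (minima_mono h t m.le_succ), hU'.sup_eq_top, top_inf_eq]
  have h2 := Submodule.finrank_add_le_finrank_add_finrank (LL (m • poleDv κ t)) U
  rw [h1] at h2
  have h3 : LinearIndependent κ⟮t⟯ fun j => (finBasis κ U j : C) := by
    refine minima_indep h ht (fun j => hle (finBasis κ U j).2) fun c hc => ?_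
    have h4 : ∑ j, c j • finBasis κ U j = 0 := by
      apply Subtype.ext
      have h5 := (∑ j, c j • finBasis κ U j).2
      refine (Submodule.disjoint_def.1 hU'.disjoint) _ (by simpa using hc) ?_
      exact (hU.le.trans inf_le_left) h5
    exact Fintype.linearIndependent_iff.1 (finBasis κ U).linearIndependent c h4
  have h4 := linearIndependent_le_span_aux' _ h3 (b : Set C)
    (by rintro _ ⟨j, rfl⟩; exact hb (hle (finBasis κ U j).2))
  simp only [Fintype.card_fin, Finset.coe_sort_coe, Fintype.card_coe] at h4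
  unfold ell
  omega

theorem minima_greedy (h : IsCurve κ C) {t : C} (ht : Transcendental κ t) (m : ℕ) :
    ∃ (b : Finset C) (d : C → ℕ), LinearIndepOn κ⟮t⟯ id (b : Set C) ∧
      (∀ w ∈ b, w ∈ LL (d w • poleDv κ t)) ∧
      (LL (m • poleDv κ t) : Set C) ⊆ Submodule.span κ⟮t⟯ (b : Set C) ∧
      (ell (m • poleDv κ t) : ℤ) + ∑ w ∈ b, (d w : ℤ) ≤ b.card * (m + 1) := by
  classical
  have ht0 : t ≠ 0 := by rintro rfl; exact ht isAlgebraic_zero
  have hfin := h.finiteDimensional ht
  induction m with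
  | zero =>
    refine ⟨{1}, fun _ => 0, by simp, by simpa using const_mem_LL_zero h 1, ?_, ?_⟩
    · rw [zero_smul, LL_zero h, Finset.coe_singleton]
      exact Submodule.span_subset_span κ κ⟮t⟯ _
    · simp [ell_zero h]
  | succ m ih =>
    obtain ⟨b, d, h1, h2, h3, h4⟩ := ih
    obtain ⟨b', h5, h6, h7, h8⟩ := exists_linearIndepOn_id_extension h1
      (Set.subset_union_left (t := (LL ((m + 1) • poleDv κ t) : Set C)))
    have h9 : b'.Finite := LinearIndependent.setFinite h8
    lift b' to Finset C using h9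
    have h10 := Set.subset_union_right.trans h7
    refine ⟨b', fun w => if w ∈ b then d w else m + 1, h8, fun w hw => ?_, h10, ?_⟩
    · beta_reduce
      split_ifs with hw'
      · exact h2 w hw'
      · exact (h5 hw).resolve_left hw'
    · have h11 := minima_step h ht0 m b' h10
      have hsub : b ⊆ b' := h6
      have h12 : ∑ w ∈ b' \ b, (((if w ∈ b then d w else m + 1 : ℕ)) : ℤ)
          = (b' \ b).card * (m + 1) := by
        rw [Finset.sum_congr rfl fun w hw => by rw [if_neg (Finset.mem_sdiff.1 hw).2]]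
        simp
      have h13 : ∑ w ∈ b, (((if w ∈ b then d w else m + 1 : ℕ)) : ℤ) = ∑ w ∈ b, (d w : ℤ) :=
        Finset.sum_congr rfl fun w hw => by rw [if_pos hw]
      have h14 : ((b' \ b).card : ℤ) + b.card = b'.card := by
        exact_mod_cast Finset.card_sdiff_add_card_eq_card hsub
      rw [← Finset.sum_sdiff hsub, h12, h13, ← h14]
      have h15 : (ell ((m + 1) • poleDv κ t) : ℤ) ≤ ell (m • poleDv κ t) + b'.card := by
        exact_mod_cast h11
      push_cast
      linarith

theorem exists_minima (h : IsCurve κ C) {g : ℕ} (hg : IsGenus κ C g) {t : C}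
    (ht : Transcendental κ t) :
    ∃ (ω : Fin (finrank κ⟮t⟯ C) → C) (d : Fin (finrank κ⟮t⟯ C) → ℕ),
      LinearIndependent κ⟮t⟯ ω ∧ (∀ j, ω j ∈ LL (d j • poleDv κ t)) ∧
        (∑ j, d j : ℤ) ≤ g + finrank κ⟮t⟯ C - 1 := by
  have hfin := h.finiteDimensional ht
  obtain ⟨b, d, h1, h2, -, h4⟩ := minima_greedy h ht (finrank κ⟮t⟯ C + g)
  have h5 := hg.1 ((finrank κ⟮t⟯ C + g) • poleDv κ t)
  rw [map_nsmul, degree_poleDv h ht, nsmul_eq_mul] at h5
  have h6 : b.card ≤ finrank κ⟮t⟯ C := LinearIndependent.finset_card_le_finrank h1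
  have h7 : (0 : ℤ) ≤ ∑ w ∈ b, (d w : ℤ) := Finset.sum_nonneg fun _ _ => Nat.cast_nonneg _
  have h8 : b.card = finrank κ⟮t⟯ C := by
    by_contra h9
    have h10 : (b.card : ℤ) + 1 ≤ finrank κ⟮t⟯ C := by exact_mod_cast lt_of_le_of_ne h6 h9
    push_cast at h4 h5
    have h11 : (0 : ℤ) ≤ finrank κ⟮t⟯ C := Nat.cast_nonneg _
    have h12 : (0 : ℤ) ≤ g := Nat.cast_nonneg _
    nlinarith
  let e := b.equivFinOfCardEq h8
  refine ⟨fun j => e.symm j, fun j => d (e.symm j), LinearIndependent.comp h1 _ e.symm.injective,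
    fun j => h2 _ (e.symm j).2, ?_⟩
  have h9 : ∑ j, (d (e.symm j) : ℤ) = ∑ w ∈ b, (d w : ℤ) := by
    rw [e.symm.sum_comp fun w => (d w : ℤ), Finset.sum_coe_sort b fun w => (d w : ℤ)]
  rw [h8] at h4
  push_cast at h4 h5 ⊢
  linarith

end Vale.Agent.P019
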