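import Vale.Agent.P019.Curve.Degree

/-! P019, curves: the discriminant bound behind the Riemann-Hurwitz inequality. -/

open IntermediateField Module Polynomial

namespace Vale.Agent.P019

variable {κ C : Type*} [Field κ] [Field C] [Algebra κ C] [IsAlgClosed κ]

namespace RH

theorem exists_ext {F Ω : Type*} [Field F] [Field Ω] (f : F →+* Ω) (O : ValuationSubring F) :
    ∃ V : ValuationSubring Ω, ∀ x, f x ∈ V ↔ x ∈ O := by
  obtain ⟨V, h1, h2⟩ := IsLocalRing.exists_factor_valuationRing (f.comp O.subtype)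
  refine ⟨V, fun x => ⟨fun hx => ?_, fun hx => h1 ⟨x, hx⟩⟩⟩
  by_contra hn
  have h0 : x ≠ 0 := fun h0 => hn (h0 ▸ O.zero_mem)
  have h3 : x⁻¹ ∈ O := (O.mem_or_inv_mem x).resolve_left hn
  have h4 : IsUnit (⟨x⁻¹, h3⟩ : O) := h2.1 _ (isUnit_iff_exists_inv.2 ⟨⟨f x, hx⟩, Subtype.ext (by
    change f x⁻¹ * f x = 1
    rw [← map_mul, inv_mul_cancel₀ h0, map_one])⟩)
  obtain ⟨y, hy⟩ := isUnit_iff_exists_inv.1 h4
  have h5 : x⁻¹ * (y : F) = 1 := congrArg Subtype.val hy
  rw [inv_mul_eq_one₀ h0] at h5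
  exact hn (h5 ▸ y.2)

/-- the trace, viewed as a map to the big field -/
noncomputable def tr (K : IntermediateField κ C) : C →ₗ[κ] C :=
  K.val.toLinearMap ∘ₗ (Algebra.trace K C).restrictScalars κ

omit [IsAlgClosed κ] in
theorem tr_mem (K : IntermediateField κ C) (x : C) : tr K x ∈ K := (Algebra.trace K C x).2

omit [IsAlgClosed κ] in
theorem tr_mul {K : IntermediateField κ C} {y : C} (hy : y ∈ K) (x : C) :
    tr K (y * x) = y * tr K x :=
  congrArg Subtype.val (map_smul (Algebra.trace K C) (⟨y, hy⟩ : K) x)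

omit [IsAlgClosed κ] in
theorem tr_val (K : IntermediateField κ C) [FiniteDimensional K C] [Algebra.IsSeparable K C]
    (z : Place κ C) (hz : ∃ y ∈ K, y ∉ z.O) (x : C) :
    ((∀ z' : Place κ C, (∀ y ∈ K, y ∈ z'.O ↔ y ∈ z.O) → x ∈ z'.O) → tr K x ∈ z.O) ∧
    ((∀ z' : Place κ C, (∀ y ∈ K, y ∈ z'.O ↔ y ∈ z.O) → x ∈ z'.O.nonunits) →
      tr K x ∈ z.O.nonunits) := by
  obtain ⟨V, hV⟩ := exists_ext (algebraMap C (AlgebraicClosure C)) z.O
  have h1 : ∀ σ : C →ₐ[K] AlgebraicClosure C, ∃ z' : Place κ C,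
      (∀ y ∈ K, y ∈ z'.O ↔ y ∈ z.O) ∧ ∀ y, y ∈ z'.O ↔ σ y ∈ V := by
    intro σ
    have h2 : ∀ y ∈ K, σ y ∈ V ↔ y ∈ z.O := fun y hy => by
      rw [← hV, show σ y = algebraMap C _ y from σ.commutes ⟨y, hy⟩]
    refine ⟨⟨V.comap σ.toRingHom, fun ht => ?_, fun a => (h2 _ (K.algebraMap_mem a)).2 (z.triv a)⟩,
      h2, fun _ => Iff.rfl⟩
    obtain ⟨y, hy, hy'⟩ := hz
    have h3 : y ∈ V.comap σ.toRingHom := by rw [ht]; trivial
    exact hy' ((h2 y hy).1 h3)
  have h4 : algebraMap C (AlgebraicClosure C) (tr K x) = ∑ σ : C →ₐ[K] AlgebraicClosure C, σ x :=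
    trace_eq_sum_embeddings (K := K) (AlgebraicClosure C) (x := x)
  constructor
  · intro hx
    rw [← hV, h4]
    refine sum_mem fun σ _ => ?_
    obtain ⟨z', a1, a2⟩ := h1 σ
    exact (a2 x).1 (hx z' a1)
  · intro hx
    have h5 : algebraMap C (AlgebraicClosure C) (tr K x) ∈ V.nonunits := by
      rw [h4]
      refine sum_mem fun σ _ => ?_
      obtain ⟨z', a1, a2⟩ := h1 σ
      have a3 := hx z' a1
      rw [ValuationSubring.mem_nonunits_iff_or] at a3 ⊢
      rwa [map_eq_zero, ← map_inv₀, ← a2]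
    rw [ValuationSubring.mem_nonunits_iff_or] at h5 ⊢
    rwa [map_eq_zero, ← map_inv₀, hV] at h5

omit [IsAlgClosed κ] in
theorem sub_ne {t : C} (ht : Transcendental κ t) (a : κ) : t - algebraMap κ C a ≠ 0 := fun h0 =>
  ht (sub_eq_zero.1 h0 ▸ isAlgebraic_algebraMap a)

omit [IsAlgClosed κ] in
theorem mem_of_val {t : C} {a : κ} {z : Place κ C}
    (hz : z.O.valuation (t - algebraMap κ C a) < 1) : t ∈ z.O := by
  have h1 := z.O.add_mem _ _ ((z.O.valuation_le_one_iff _).1 hz.le) (z.triv a)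
  rwa [sub_add_cancel] at h1

theorem val_add_const (h : IsCurve κ C) {z : Place κ C} {x : C} (hx : z.O.valuation x < 1) {c : κ}
    (hc : c ≠ 0) : z.O.valuation (x + algebraMap κ C c) = 1 := by
  have ho := (place_isDVR h z).isOrd
  have h1 : z.O.valuation (algebraMap κ C c) = 1 :=
    (ho.val_eq_one_iff (by simpa using hc)).2 (ho.const z.triv c)
  rw [z.O.valuation.map_add_eq_of_lt_right (h1 ▸ hx), h1]

theorem ord_aeval (h : IsCurve κ C) {t : C} (ht : Transcendental κ t) {a : κ} {z : Place κ C}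
    (hz : z.O.valuation (t - algebraMap κ C a) < 1) {r : κ[X]} (hr : r ≠ 0) :
    aeval t r ≠ 0 ∧ ∃ k : ℕ, ord z.O (aeval t r) = k * ord z.O (t - algebraMap κ C a) := by
  have ho := (place_isDVR h z).isOrd
  obtain ⟨r1, e1, h1⟩ := exists_eq_pow_rootMultiplicity_mul_and_not_dvd r hr a
  obtain ⟨r2, e2⟩ := X_sub_C_dvd_sub_C_eval (a := a) (p := r1)
  have h2 : aeval t r2 ∈ z.O := by
    rw [aeval_eq_sum_range]
    refine sum_mem fun i _ => ?_
    rw [Algebra.smul_def]
    exact mul_mem (z.triv _) (pow_mem (mem_of_val hz) _)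
  have h3 : z.O.valuation (aeval t r1) = 1 := by
    rw [eq_add_of_sub_eq e2, map_add, aeval_C]
    refine val_add_const h ?_ fun h0 => h1 (dvd_iff_isRoot.2 h0)
    rw [map_mul, map_sub, aeval_X, aeval_C, map_mul]
    exact mul_lt_one_of_nonneg_of_lt_one_left zero_le hz ((z.O.valuation_le_one_iff _).2 h2)
  have h4 : aeval t r1 ≠ 0 := fun h0 => by simp [h0] at h3
  have h5 := pow_ne_zero (rootMultiplicity a r) (sub_ne ht a)
  generalize rootMultiplicity a r = k at e1 h5
  rw [e1, map_mul, map_pow, map_sub, aeval_X, aeval_C]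
  exact ⟨mul_ne_zero h5 h4, k, by rw [ho.mul h5 h4, ho.pow, (ho.val_eq_one_iff h4).1 h3, add_zero]⟩

theorem div_mem (h : IsCurve κ C) {t : C} (ht : Transcendental κ t) {a : κ} {z : Place κ C}
    (hz : z.O.valuation (t - algebraMap κ C a) < 1) {y : C} (hy : y ∈ κ⟮t⟯)
    (h1 : y ∈ z.O.nonunits) : y / (t - algebraMap κ C a) ∈ z.O := by
  have ho := (place_isDVR h z).isOrd
  by_cases h0 : y = 0
  · rw [h0, zero_div]
    exact z.O.zero_mem
  obtain ⟨r, s, rfl⟩ := (mem_adjoin_simple_iff κ y).1 hy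
  obtain ⟨a1, k, a2⟩ := ord_aeval h ht hz (r := r) fun e => h0 (by simp [e])
  obtain ⟨b1, l, b2⟩ := ord_aeval h ht hz (r := s) fun e => h0 (by simp [e])
  have h2 := (ho.val_lt_one_iff h0).1 (z.O.mem_nonunits_iff.1 h1)
  have h3 := (ho.val_lt_one_iff (sub_ne ht a)).1 hz
  rw [ho.mem_iff (div_ne_zero h0 (sub_ne ht a)), ho.div h0 (sub_ne ht a)]
  rw [ho.div a1 b1, a2, b2, ← sub_mul] at h2 ⊢
  have h4 := (mul_pos_iff_of_pos_right h3).1 h2
  nlinarith

theorem det_mem {n : Type*} [Fintype n] [DecidableEq n] (O : ValuationSubring C)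
    (M : Matrix n n C) {u v : n → C} (hu : ∀ i, u i ≠ 0) (hv : ∀ i, v i ≠ 0)
    (hM : ∀ i j, M i j / (u i * v j) ∈ O) : M.det / ((∏ i, u i) * ∏ i, v i) ∈ O := by
  have e : M = .of fun i j => u i *
      (Matrix.of fun i j => v j * (Matrix.of fun i j => M i j / (u i * v j)) i j) i j := by
    ext i j
    have := hu i
    have := hv j
    simp only [Matrix.of_apply]
    field_simp
  rw [e, Matrix.det_mul_column, Matrix.det_mul_row, ← mul_assoc, mul_div_cancel_left₀ _
    (mul_ne_zero (Finset.prod_ne_zero_iff.2 fun i _ => hu i)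
      (Finset.prod_ne_zero_iff.2 fun i _ => hv i)), Matrix.det_apply']
  exact sum_mem fun σ _ => mul_mem (intCast_mem _ _) (prod_mem fun i _ => hM _ _)

omit [IsAlgClosed κ] in
theorem exists_basis {n : ℕ} (U : Submodule κ (Fin n → κ)) :
    ∃ (b : Basis (Fin n) κ (Fin n → κ)) (S : Finset (Fin n)),
      S.card = finrank κ U ∧ ∀ i ∈ S, b i ∈ U := by
  obtain ⟨W, hW⟩ := U.exists_isCompl
  let b := ((finBasis κ U).prod (finBasis κ W)).map (U.prodEquivOfIsCompl W hW)
  let e := b.indexEquiv (Pi.basisFun κ (Fin n))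
  refine ⟨b.reindex e, Finset.univ.map ⟨fun i => e (.inl i),
    e.injective.comp Sum.inl_injective⟩, by simp, fun i hi => ?_⟩
  obtain ⟨j, -, rfl⟩ := Finset.mem_map.1 hi
  simp [b]

theorem finite_place (h : IsCurve κ C) {t : C} (ht : Transcendental κ t)
    [Algebra.IsSeparable κ⟮t⟯ C] {n : ℕ} (ω : Fin n → C)
    (hω : ∀ (j : Fin n) (z : Place κ C), t ∈ z.O → ω j ∈ z.O)
    (hΔ : (Matrix.of fun i j => tr κ⟮t⟯ (ω i * ω j)).det ≠ 0) {a : κ} {z : Place κ C}
    (hz : z.O.valuation (t - algebraMap κ C a) < 1) :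
    ((n - {z : Place κ C | z.O.valuation (t - algebraMap κ C a) < 1}.ncard : ℕ) : ℤ)
      * ord z.O (t - algebraMap κ C a) ≤ ord z.O (Matrix.of fun i j => tr κ⟮t⟯ (ω i * ω j)).det := by
  classical
  have := h.finiteDimensional ht
  have ho := (place_isDVR h z).isOrd
  have h0 := sub_ne ht a
  have hK : t - algebraMap κ C a ∈ κ⟮t⟯ :=
    sub_mem (mem_adjoin_simple_self κ t) (IntermediateField.algebraMap_mem _ a)
  have hfin : {z : Place κ C | z.O.valuation (t - algebraMap κ C a) < 1}.Finite :=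
    (ord_support_finite h (t - algebraMap κ C a)).subset fun z' hz' =>
      (((place_isDVR h z').isOrd.val_lt_one_iff h0).1 hz').ne'
  obtain ⟨Z, hZ⟩ := hfin.exists_finset_coe
  have hZ' : ∀ z' : Z, z'.1.O.valuation (t - algebraMap κ C a) < 1 := fun z' => hZ.subset z'.2
  choose α hα using fun (z' : Z) (j : Fin n) =>
    place_exists_val h z'.1 (hω j z'.1 (mem_of_val (hZ' z')))
  obtain ⟨b, S, hS, hb⟩ := exists_basis (LinearMap.ker (Matrix.of α).mulVecLin)
  have h1 := (Matrix.of α).mulVecLin.finrank_range_add_finrank_ker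
  have h2 := (LinearMap.range (Matrix.of α).mulVecLin).finrank_le
  rw [finrank_fintype_fun_eq_card, Fintype.card_coe] at h2
  rw [finrank_fintype_fun_eq_card, Fintype.card_fin, ← hS] at h1
  have hP : (Matrix.of b).det ≠ 0 := ((Matrix.isUnit_iff_isUnit_det _).1
    (Matrix.linearIndependent_rows_iff_isUnit.1 b.linearIndependent)).ne_zero
  have h3 : ∃ y ∈ κ⟮t⟯, y ∉ z.O := ⟨_, inv_mem hK,
    (z.O.mem_nonunits_iff_or.1 (z.O.mem_nonunits_iff.2 hz)).resolve_left h0⟩
  have h4 : ∀ z' : Place κ C, (∀ y ∈ κ⟮t⟯, y ∈ z'.O ↔ y ∈ z.O) →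
      z'.O.valuation (t - algebraMap κ C a) < 1 := fun z' hz' => by
    rw [← ValuationSubring.mem_nonunits_iff, ValuationSubring.mem_nonunits_iff_or] at hz ⊢
    rwa [hz' _ (inv_mem hK)]
  have h5 := det_mem z.O ((algebraMap κ C).mapMatrix (Matrix.of b) *
    Matrix.of fun i j => tr κ⟮t⟯ (ω i * ω j))
    (u := fun i => if i ∈ S then t - algebraMap κ C a else 1) (v := fun _ => 1)
    (fun i => by split_ifs; exacts [h0, one_ne_zero]) (fun _ => one_ne_zero) fun i j => by
      have e1 : ((algebraMap κ C).mapMatrix (Matrix.of b) *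
          Matrix.of fun i j => tr κ⟮t⟯ (ω i * ω j)) i j = tr κ⟮t⟯ ((∑ k, b i k • ω k) * ω j) := by
        simp only [Matrix.mul_apply, RingHom.mapMatrix_apply, Matrix.map_apply, Matrix.of_apply,
          Finset.sum_mul, map_sum, smul_mul_assoc, map_smul]
        simp only [Algebra.smul_def]
      rw [e1, mul_one]
      split_ifs with hi
      · refine div_mem h ht hz (tr_mem _ _) ((tr_val _ z h3 _).2 fun z' hz' => ?_)
        have a1 := h4 z' hz'
        have a2 : ∑ k, α ⟨z', hZ.symm.subset a1⟩ k * b i k = 0 :=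
          congrFun (LinearMap.mem_ker.1 (hb i hi)) ⟨z', hZ.symm.subset a1⟩
        have a3 : ∑ k, b i k • ω k = ∑ k, algebraMap κ C (b i k) *
            (ω k - algebraMap κ C (α ⟨z', hZ.symm.subset a1⟩ k)) := by
          have a4 := congrArg (algebraMap κ C) a2
          simp only [map_sum, map_mul, map_zero] at a4
          simp only [mul_sub, Finset.sum_sub_distrib, Algebra.smul_def,
            mul_comm (algebraMap κ C (b i _)) (algebraMap κ C _), a4, sub_zero]
        rw [a3, ValuationSubring.mem_nonunits_iff, map_mul]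
        refine mul_lt_one_of_nonneg_of_lt_one_left zero_le
          (z'.O.valuation.map_sum_lt one_ne_zero fun k _ => ?_)
          ((z'.O.valuation_le_one_iff _).2 (hω j z' (mem_of_val a1)))
        rw [map_mul]
        exact mul_lt_one_of_nonneg_of_lt_one_right ((z'.O.valuation_le_one_iff _).2 (z'.triv _))
          zero_le (hα ⟨z', hZ.symm.subset a1⟩ k)
      · rw [div_one]
        refine (tr_val _ z h3 _).1 fun z' hz' => ?_
        have a1 := mem_of_val (h4 z' hz')
        refine mul_mem (sum_mem fun k _ => ?_) (hω j z' a1)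
        rw [Algebra.smul_def]
        exact mul_mem (z'.triv _) (hω k z' a1)
  have hP' : algebraMap κ C (Matrix.of b).det ≠ 0 := by simpa using hP
  rw [Matrix.det_mul, ← RingHom.map_det, Finset.prod_const_one, mul_one, Finset.prod_ite_mem,
    Finset.univ_inter, Finset.prod_const,
    ho.mem_iff (div_ne_zero (mul_ne_zero hP' hΔ) (pow_ne_zero _ h0)),
    ho.div (mul_ne_zero hP' hΔ) (pow_ne_zero _ h0), ho.mul hP' hΔ, ho.const z.triv, ho.pow] at h5
  have h6 := (ho.val_lt_one_iff h0).1 hz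
  have h7 : ((n - Z.card : ℕ) : ℤ) ≤ S.card := by omega
  rw [← hZ, Set.ncard_coe_finset]
  nlinarith

theorem pole_place (h : IsCurve κ C) {t : C} (ht : Transcendental κ t)
    [Algebra.IsSeparable κ⟮t⟯ C] {n : ℕ} (ω : Fin n → C) (d : Fin n → ℕ)
    (hω : ∀ (j : Fin n) (z : Place κ C), t ∉ z.O → ω j / t ^ d j ∈ z.O)
    (hΔ : (Matrix.of fun i j => tr κ⟮t⟯ (ω i * ω j)).det ≠ 0) {z : Place κ C} (hz : t ∉ z.O) :
    (2 * ∑ j, (d j : ℤ)) * ord z.O t ≤ ord z.O (Matrix.of fun i j => tr κ⟮t⟯ (ω i * ω j)).det := by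
  have := h.finiteDimensional ht
  have ho := (place_isDVR h z).isOrd
  have h0 : t ≠ 0 := fun h0 => hz (h0 ▸ z.O.zero_mem)
  have hK := mem_adjoin_simple_self κ t
  have h1 := det_mem z.O (Matrix.of fun i j => tr κ⟮t⟯ (ω i * ω j))
    (u := fun i => t ^ d i) (v := fun i => t ^ d i) (fun _ => pow_ne_zero _ h0)
    (fun _ => pow_ne_zero _ h0) fun i j => by
      rw [Matrix.of_apply, div_eq_inv_mul,
        ← tr_mul (inv_mem (mul_mem (pow_mem hK _) (pow_mem hK _))), ← div_eq_inv_mul,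
        mul_div_mul_comm]
      refine (tr_val _ z ⟨t, hK, hz⟩ _).1 fun z' hz' => ?_
      have a1 : t ∉ z'.O := fun a => hz ((hz' t hK).1 a)
      exact mul_mem (hω i z' a1) (hω j z' a1)
  rw [Finset.prod_pow_eq_pow_sum, ← pow_add, ho.mem_iff (div_ne_zero hΔ (pow_ne_zero _ h0)),
    ho.div hΔ (pow_ne_zero _ h0), ho.pow] at h1
  push_cast at h1
  linarith

end RH

theorem disc_bound (h : IsCurve κ C) {t : C} (ht : Transcendental κ t)
    [Algebra.IsSeparable κ⟮t⟯ C] (ω : Fin (finrank κ⟮t⟯ C) → C) (d : Fin (finrank κ⟮t⟯ C) → ℕ)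
    (hω : LinearIndependent κ⟮t⟯ ω) (hd : ∀ j, ω j ∈ LL (d j • poleDv κ t)) (A : Finset κ) :
    ∑ a ∈ A, ((finrank κ⟮t⟯ C : ℤ) -
      {z : Place κ C | z.O.valuation (t - algebraMap κ C a) < 1}.ncard) ≤ 2 * ∑ j, (d j : ℤ) := by
  classical
  have := h.finiteDimensional ht
  have h0 : t ≠ 0 := by simpa using RH.sub_ne ht 0
  have hΔ : (Matrix.of fun i j => RH.tr κ⟮t⟯ (ω i * ω j)).det ≠ 0 := by
    have h1 := Algebra.discr_not_zero_of_basis κ⟮t⟯
      (basisOfLinearIndependentOfCardEqFinrank' ω hω (Fintype.card_fin _))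
    rw [coe_basisOfLinearIndependentOfCardEqFinrank', Algebra.discr_def] at h1
    have h2 := (map_ne_zero (algebraMap κ⟮t⟯ C)).2 h1
    rw [RingHom.map_det] at h2
    exact h2
  have h1 : ∀ j (z : Place κ C), -(d j * max (-ord z.O t) 0) ≤ ord z.O (ω j) := fun j z => by
    have h2 := ((mem_LL h).1 (hd j)).resolve_left (hω.ne_zero j) z
    rwa [Finsupp.smul_apply, poleDv_apply h, nsmul_eq_mul] at h2
  have h2 : ∀ j (z : Place κ C), t ∈ z.O → ω j ∈ z.O := fun j z hz => by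
    have ho := (place_isDVR h z).isOrd
    have h3 := h1 j z
    rw [max_eq_right (neg_nonpos.2 ((ho.mem_iff h0).1 hz)), mul_zero, neg_zero] at h3
    exact (ho.mem_iff (hω.ne_zero j)).2 h3
  have h3 : ∀ j (z : Place κ C), t ∉ z.O → ω j / t ^ d j ∈ z.O := fun j z hz => by
    have ho := (place_isDVR h z).isOrd
    have h3 := h1 j z
    rw [ho.mem_iff h0, not_le] at hz
    rw [max_eq_left (neg_nonneg.2 hz.le)] at h3
    rw [ho.mem_iff (div_ne_zero (hω.ne_zero j) (pow_ne_zero _ h0)),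
      ho.div (hω.ne_zero j) (pow_ne_zero _ h0), ho.pow]
    linarith
  obtain ⟨r, hr⟩ : ∃ r : κ → ℕ, ∀ a, r a = finrank κ⟮t⟯ C -
      {z : Place κ C | z.O.valuation (t - algebraMap κ C a) < 1}.ncard := ⟨_, fun _ => rfl⟩
  obtain ⟨E, hE⟩ : ∃ E : Dv κ C, E = pdiv κ (Matrix.of fun i j => RH.tr κ⟮t⟯ (ω i * ω j)).det
      + (2 * ∑ j, (d j : ℤ)) • poleDv κ t
      - ∑ a ∈ A, (r a : ℤ) • poleDv κ (t - algebraMap κ C a)⁻¹ := ⟨_, rfl⟩
  have h4 : ∀ z, 0 ≤ E z := fun z => by
    have ho := (place_isDVR h z).isOrd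
    simp only [hE, Finsupp.sub_apply, Finsupp.add_apply, Finsupp.smul_apply, Finsupp.finsetSum_apply,
      pdiv_apply h, poleDv_apply h, smul_eq_mul, ho.inv, neg_neg]
    by_cases hz : t ∈ z.O
    · obtain ⟨a, ha⟩ := place_exists_val h z hz
      have a1 := RH.finite_place h ht ω h2 hΔ ha
      have a2 := ((ho.val_lt_one_iff (RH.sub_ne ht a)).1 ha).le
      have a3 : ∑ c ∈ A, (r c : ℤ) * max (ord z.O (t - algebraMap κ C c)) 0
          ≤ ∑ c ∈ insert a A, (r c : ℤ) * max (ord z.O (t - algebraMap κ C c)) 0 :=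
        Finset.sum_le_sum_of_subset_of_nonneg (Finset.subset_insert _ _) fun _ _ _ => by positivity
      rw [Finset.sum_eq_single_of_mem a (Finset.mem_insert_self _ _) fun c _ hc => by
        have a4 := RH.val_add_const h ha (sub_ne_zero.2 hc.symm)
        rw [map_sub, sub_add_sub_cancel, ho.val_eq_one_iff (RH.sub_ne ht c)] at a4
        rw [a4, max_self, mul_zero], max_eq_left a2] at a3
      rw [max_eq_right (neg_nonpos.2 ((ho.mem_iff h0).1 hz)), mul_zero, add_zero]
      rw [← hr] at a1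
      linarith
    · have a1 := RH.pole_place h ht ω d h3 hΔ hz
      have a2 : ∀ c, ord z.O (t - algebraMap κ C c) < 0 := fun c => by
        rw [← not_le, ← ho.mem_iff (RH.sub_ne ht c)]
        intro a3
        have a4 := z.O.add_mem _ _ a3 (z.triv c)
        exact hz (by rwa [sub_add_cancel] at a4)
      rw [ho.mem_iff h0, not_le] at hz
      rw [max_eq_left (neg_nonneg.2 hz.le), Finset.sum_eq_zero (s := A) fun c _ => by
        rw [max_eq_right (a2 c).le, mul_zero]]
      linarith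
  have h5 : 0 ≤ E.degree := Finset.sum_nonneg fun z _ => h4 z
  simp only [hE, map_sub, map_add, map_sum, map_zsmul, degree_pdiv h, degree_poleDv h ht,
    degree_zeroDv h ht, smul_eq_mul, zero_add, ← Finset.sum_mul, ← sub_mul] at h5
  have h6 : (0 : ℤ) < finrank κ⟮t⟯ C := by exact_mod_cast finrank_pos
  have h7 := nonneg_of_mul_nonneg_left h5 h6
  refine le_trans (Finset.sum_le_sum fun a _ => ?_) (sub_nonneg.1 h7)
  rw [hr]
  omega

end Vale.Agent.P019
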