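import Vale.Agent.P019.Curve.DVR

/-! P019, curves: every nonconstant function is a Frobenius power of a separating one. -/

open IntermediateField Module

namespace Vale.Agent.P019

section aux

variable {K C : Type*} [Field K] [Field C] [Algebra K C]

/-- in a separable extension, the base field and the `p`-th powers generate everything -/
theorem sepElt_top_of_sep [Algebra.IsSeparable K C] (p : ℕ) [ExpChar K p] (T : Subfield C)
    (hK : ∀ a : K, algebraMap K C a ∈ T) (hp : ∀ x : C, x ^ p ∈ T) : T = ⊤ := by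
  have h1 := adjoin_eq_adjoin_pow_expChar_of_isSeparable' K C (Set.univ : Set C) p
  have h2 : adjoin K ((· ^ p) '' (Set.univ : Set C)) ≤ T.toIntermediateField hK := by
    rw [adjoin_le_iff]
    rintro _ ⟨x, -, rfl⟩
    exact hp x
  rw [← h1, adjoin_univ] at h2
  exact top_unique fun x _ => h2 (mem_top (x := x))

/-- the converse, for finite extensions -/
theorem sepElt_sep_of_top [FiniteDimensional K C] (p : ℕ) [ExpChar K p]
    (H : ∀ T : Subfield C, (∀ a : K, algebraMap K C a ∈ T) → (∀ x : C, x ^ p ∈ T) → T = ⊤) :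
    Algebra.IsSeparable K C := by
  have : ExpChar C p := expChar_of_injective_algebraMap (algebraMap K C).injective p
  have key : ∀ (k : ℕ) (T : Subfield C), (∀ a : K, algebraMap K C a ∈ T) →
      (∀ x : C, x ^ p ^ k ∈ T) → T = ⊤ := by
    intro k
    induction k with
    | zero => intro T _ h; exact top_unique fun x _ => by simpa using h x
    | succ k ih =>
      intro T hK h
      refine H T hK fun x => ?_
      have h1 : T.comap (frobenius C p) = ⊤ := by
        refine ih _ (fun a => ?_) fun y => ?_
        · rw [Subfield.mem_comap, frobenius_def]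
          exact pow_mem (hK a) p
        · rw [Subfield.mem_comap, frobenius_def, ← pow_mul, ← pow_succ]
          exact h y
      have : x ∈ T.comap (frobenius C p) := by rw [h1]; trivial
      rwa [Subfield.mem_comap, frobenius_def] at this
  set S := separableClosure K C
  have : ExpChar S p := expChar_of_injective_algebraMap (algebraMap K S).injective p
  have : IsPurelyInseparable S C := separableClosure.isPurelyInseparable K C
  have h1 : S.toSubfield = ⊤ := by
    refine key (IsPurelyInseparable.exponent S C) _ (fun a => S.algebraMap_mem a) fun x => ?_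
    obtain ⟨y, hy⟩ := IsPurelyInseparable.exponent_def' S p x
    rw [← hy]
    exact y.2
  rw [← separableClosure.eq_top_iff]
  refine top_unique fun x _ => ?_
  have : x ∈ S.toSubfield := by rw [h1]; trivial
  exact this

/-- if the `p`-th powers and one more element generate `C`, so do the `p`-th powers and any
element that is not a `p`-th power -/
theorem sepElt_exchange {p : ℕ} (hp : p.Prime) [CharP C p] {u s : C}
    (hu : ∀ T : Subfield C, u ∈ T → (∀ x : C, x ^ p ∈ T) → T = ⊤) (hs : ∀ y : C, y ^ p ≠ s)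
    (T : Subfield C) (hT : s ∈ T) (hTp : ∀ x : C, x ^ p ∈ T) : T = ⊤ := by
  have : ExpChar C p := ExpChar.prime hp
  set P : Subfield C := (frobenius C p).fieldRange
  have hmem : ∀ x : C, x ^ p ∈ P := fun x => ⟨x, rfl⟩
  have hint : ∀ x : C, Polynomial.aeval x
      (Polynomial.X ^ p - Polynomial.C (⟨x ^ p, hmem x⟩ : P)) = 0 := fun x => by
    simp only [map_sub, map_pow, Polynomial.aeval_X, Polynomial.aeval_C]
    exact sub_self _
  have hmon : ∀ a : P, (Polynomial.X ^ p - Polynomial.C a).Monic := fun a =>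
    Polynomial.monic_X_pow_sub_C a hp.ne_zero
  have hI : ∀ x : C, IsIntegral P x := fun x => ⟨_, hmon _, hint x⟩
  have hutop : P⟮u⟯ = ⊤ := by
    have := hu P⟮u⟯.toSubfield (mem_adjoin_simple_self P u)
      fun x => P⟮u⟯.algebraMap_mem ⟨x ^ p, hmem x⟩
    refine top_unique fun x _ => ?_
    have h2 : x ∈ P⟮u⟯.toSubfield := by rw [this]; trivial
    exact h2
  have hfu : finrank P P⟮u⟯ ≤ p := by
    rw [adjoin.finrank (hI u)]
    have := Polynomial.natDegree_le_of_dvd (minpoly.dvd P u (hint u)) (hmon _).ne_zero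
    rwa [Polynomial.natDegree_X_pow_sub_C] at this
  have : FiniteDimensional P P⟮u⟯ := adjoin.finiteDimensional (hI u)
  have hfs : finrank P P⟮s⟯ = p := by
    rw [adjoin.finrank (hI s)]
    have hirr : Irreducible (Polynomial.X ^ p - Polynomial.C (⟨s ^ p, hmem s⟩ : P)) := by
      refine X_pow_sub_C_irreducible_of_prime hp fun b hb => ?_
      obtain ⟨y, hy⟩ := b.2
      have h1 : (b : C) ^ p = s ^ p := congrArg Subtype.val hb
      have h2 : (b : C) = s := frobenius_inj C p h1
      exact hs y (by rw [← h2, ← hy]; rfl)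
    rw [← minpoly.eq_of_irreducible_of_monic hirr (hint s) (hmon _),
      Polynomial.natDegree_X_pow_sub_C]
  have hstop : P⟮s⟯ = P⟮u⟯ :=
    eq_of_le_of_finrank_le (by rw [hutop]; exact le_top) (by rw [hfs]; exact hfu)
  have hPT : ∀ a : P, algebraMap P C a ∈ T := fun a => by
    obtain ⟨y, hy⟩ := a.2
    change (a : C) ∈ T
    rw [← hy]
    exact hTp y
  have h3 : P⟮s⟯ ≤ T.toIntermediateField hPT := by
    rw [adjoin_simple_le_iff]
    exact hT
  rw [hstop, hutop] at h3
  exact top_unique fun x _ => h3 (mem_top (x := x))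

end aux

variable {κ C : Type*} [Field κ] [Field C] [Algebra κ C] [IsAlgClosed κ]

theorem sepElt_exists_sep (h : IsCurve κ C) : ∃ u : C, Algebra.IsSeparable κ⟮u⟯ C := by
  have := h.fg
  obtain ⟨S, hS, hsep⟩ := exists_isTranscendenceBasis_and_isSeparable_of_perfectField κ C
  have h1 := hS.cardinalMk_eq_trdeg
  rw [h.trdeg, Cardinal.mk_coe_finset, Nat.cast_eq_one, Finset.card_eq_one] at h1
  obtain ⟨u, rfl⟩ := h1
  refine ⟨u, ?_⟩
  rwa [Finset.coe_singleton] at hsep

theorem sepElt_sep_of_not_pow (h : IsCurve κ C) {p : ℕ} (hp : p.Prime) [CharP κ p] {s : C}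
    (hs : Transcendental κ s) (hs' : ∀ y : C, y ^ p ≠ s) : Algebra.IsSeparable κ⟮s⟯ C := by
  have : ExpChar κ p := ExpChar.prime hp
  have : CharP C p := charP_of_injective_algebraMap (algebraMap κ C).injective p
  have := h.finiteDimensional hs
  have : ExpChar κ⟮s⟯ p := expChar_of_injective_algebraMap (algebraMap κ κ⟮s⟯).injective p
  obtain ⟨u, hu⟩ := sepElt_exists_sep h
  have : ExpChar κ⟮u⟯ p := expChar_of_injective_algebraMap (algebraMap κ κ⟮u⟯).injective p
  refine sepElt_sep_of_top p fun T hT hTp => ?_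
  refine sepElt_exchange hp (u := u) (fun T' hu' hT' => ?_) hs' T
    (hT ⟨s, mem_adjoin_simple_self κ s⟩) hTp
  have hκ : ∀ c : κ, algebraMap κ C c ∈ T' := fun c => by
    obtain ⟨d, rfl⟩ := IsAlgClosed.exists_pow_nat_eq c hp.pos
    rw [map_pow]
    exact hT' _
  have hle : κ⟮u⟯ ≤ T'.toIntermediateField hκ := by
    rw [adjoin_simple_le_iff]
    exact hu'
  exact sepElt_top_of_sep (K := κ⟮u⟯) p T' (fun a => hle a.2) hT'

theorem exists_sep_root (h : IsCurve κ C) {t : C} (ht : Transcendental κ t) :
    ∃ (s : C) (e : ℕ), Transcendental κ s ∧ t = s ^ ringExpChar κ ^ e ∧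
      Algebra.IsSeparable κ⟮s⟯ C := by
  obtain _ | ⟨p, hp, hpk⟩ := CharP.exists' κ
  · have := h.finiteDimensional ht
    have : CharZero κ⟮t⟯ := charZero_of_injective_algebraMap (algebraMap κ κ⟮t⟯).injective
    exact ⟨t, 0, ht, by simp, inferInstance⟩
  · have : ExpChar κ p := ExpChar.prime hp.out
    rw [ringExpChar.eq κ p]
    obtain ⟨z, hz⟩ := place_exists_zero ht
    have ho := (place_isDVR h z).isOrd
    have hne : ∀ {s : C}, Transcendental κ s → s ≠ 0 := fun {s} hs h0 =>
      hs (h0 ▸ isAlgebraic_zero)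
    have key : ∀ (n : ℕ) (t : C), Transcendental κ t → 0 < ord z.O t → ord z.O t ≤ n →
        ∃ (s : C) (e : ℕ), Transcendental κ s ∧ t = s ^ p ^ e ∧ Algebra.IsSeparable κ⟮s⟯ C := by
      intro n
      induction n with
      | zero => intro t _ h1 h2; omega
      | succ n ih =>
        intro t ht h1 h2
        by_cases hy : ∃ y : C, y ^ p = t
        · obtain ⟨y, rfl⟩ := hy
          have hy : Transcendental κ y := fun ha => ht (ha.pow p)
          rw [ho.pow] at h1 h2
          have h3 : (2 : ℤ) ≤ p := by exact_mod_cast hp.out.two_le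
          have h4 : 0 < ord z.O y := by
            by_contra h5
            have : (p : ℤ) * ord z.O y ≤ 0 :=
              mul_nonpos_of_nonneg_of_nonpos (by omega) (not_lt.1 h5)
            omega
          obtain ⟨s, e, hs, hse, hsep⟩ := ih y hy h4 (by push_cast at h2; nlinarith)
          exact ⟨s, e + 1, hs, by rw [hse, ← pow_mul, ← pow_succ], hsep⟩
        · exact ⟨t, 0, ht, by simp,
            sepElt_sep_of_not_pow h hp.out ht fun y hy' => hy ⟨y, hy'⟩⟩
    have h1 : 0 < ord z.O t := (ho.val_lt_one_iff (hne ht)).1 hz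
    exact key (ord z.O t).toNat t ht h1 (by omega)

end Vale.Agent.P019
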