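import Vale.Agent.P019.Curve.Defs

/-! P019, curves: places are discrete with residue field the constants. -/

open IntermediateField Module

namespace Vale.Agent.P019

section aux

open Polynomial

variable {κ C : Type*} [Field κ] [Field C] [Algebra κ C]

theorem dvr_val_const {O : ValuationSubring C} (h : Triv κ O) {a : κ} (ha : a ≠ 0) :
    O.valuation (algebraMap κ C a) = 1 := by
  have h0 : O.valuation (algebraMap κ C a) ≠ 0 := by simpa using ha
  have h1 := (O.valuation_le_one_iff _).2 (h a)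
  have h2 := (O.valuation_le_one_iff _).2 (h a⁻¹)
  rw [map_inv₀, map_inv₀, inv_le_one₀ (zero_lt_iff.2 h0)] at h2
  exact le_antisymm h1 h2

theorem dvr_aeval_mem {O : ValuationSubring C} (h : Triv κ O) {t : C} (ht : t ∈ O) (p : κ[X]) :
    aeval t p ∈ O := by
  induction p using Polynomial.induction_on' with
  | add p q hp hq => rw [map_add]; exact O.add_mem _ _ hp hq
  | monomial n a =>
    rw [aeval_monomial]
    exact O.mul_mem _ _ (h a) (pow_mem ht n)

/-- two terms of an algebraic relation have the same value -/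
theorem dvr_exists_pow_eq (O : ValuationSubring C) (K : IntermediateField κ C)
    [FiniteDimensional K C] {y : C} (hy : y ≠ 0) :
    ∃ m : ℕ, 0 < m ∧ m ≤ finrank K C ∧ ∃ c : C, c ∈ K ∧ c ≠ 0 ∧
      O.valuation y ^ m = O.valuation c := by
  classical
  have hint : IsIntegral K y := IsIntegral.of_finite K y
  have hp0 : minpoly K y ≠ 0 := minpoly.ne_zero hint
  have hdeg : (minpoly K y).natDegree ≤ finrank K C := minpoly.natDegree_le y
  have hev : aeval y (minpoly K y) = 0 := minpoly.aeval K y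
  generalize minpoly K y = p at hp0 hdeg hev
  have hne : p.support.Nonempty := Polynomial.support_nonempty.2 hp0
  let f : ℕ → C := fun i => (p.coeff i : C) * y ^ i
  have hsum : ∑ i ∈ p.support, f i = 0 := by
    rw [← hev, aeval_def, eval₂_eq_sum, Polynomial.sum]
    rfl
  have hf0 : ∀ i ∈ p.support, (p.coeff i : C) ≠ 0 := by
    intro i hi h0
    exact (mem_support_iff.1 hi) (Subtype.ext h0)
  have hvy : O.valuation y ≠ 0 := by simpa using hy
  have key : ∀ i ∈ p.support, ∀ j ∈ p.support, i < j → O.valuation (f i) = O.valuation (f j) →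
      ∃ m : ℕ, 0 < m ∧ m ≤ finrank K C ∧ ∃ c : C, c ∈ K ∧ c ≠ 0 ∧
        O.valuation y ^ m = O.valuation c := by
    intro i hi j hj hij he
    obtain ⟨m, rfl⟩ := Nat.exists_eq_add_of_lt hij
    have hj' := le_natDegree_of_mem_supp _ hj
    refine ⟨m + 1, Nat.succ_pos m, by omega, (p.coeff i : C) / (p.coeff (i + m + 1) : C),
      K.div_mem (p.coeff i).2 (p.coeff _).2, div_ne_zero (hf0 i hi) (hf0 _ hj), ?_⟩
    have hc : O.valuation (p.coeff (i + m + 1) : C) ≠ 0 := by simpa using hf0 _ hj
    simp only [f, map_mul, map_pow] at he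
    rw [map_div₀, eq_div_iff hc]
    apply mul_right_cancel₀ (pow_ne_zero i hvy)
    rw [he, add_assoc, pow_add (O.valuation y) i (m + 1)]
    ac_rfl
  obtain ⟨i, hi, hmax⟩ := Finset.exists_max_image p.support (fun i => O.valuation (f i)) hne
  by_contra hcon
  have hlt : ∀ j ∈ p.support \ {i}, O.valuation (f j) < O.valuation (f i) := by
    intro j hj
    rw [Finset.mem_sdiff, Finset.mem_singleton] at hj
    refine lt_of_le_of_ne (hmax j hj.1) fun he => hcon ?_
    rcases lt_or_gt_of_ne hj.2 with h | h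
    · exact key j hj.1 i hi h he
    · exact key i hi j hj.1 h he.symm
  have := O.valuation.map_sum_eq_of_lt hi hlt
  rw [hsum, map_zero] at this
  have h2 : f i ≠ 0 := mul_ne_zero (hf0 i hi) (pow_ne_zero _ hy)
  exact h2 (by simpa using this.symm)

/-- values of polynomials in an element of the maximal ideal -/
theorem dvr_val_aeval {O : ValuationSubring C} (h : Triv κ O) {π : C} (hπ : O.valuation π < 1)
    {p : κ[X]} (hp : p ≠ 0) : ∃ k : ℕ, O.valuation (aeval π p) = O.valuation π ^ k := by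
  obtain ⟨q, hq, hnd⟩ := exists_eq_pow_rootMultiplicity_mul_and_not_dvd p hp 0
  refine ⟨rootMultiplicity 0 p, ?_⟩
  generalize rootMultiplicity 0 p = k at hq
  rw [map_zero, sub_zero] at hq hnd
  rw [X_dvd_iff] at hnd
  have hπO : π ∈ O := (O.valuation_le_one_iff _).1 hπ.le
  have h1 : O.valuation (aeval π q) = 1 := by
    rw [← X_mul_divX_add q, map_add, map_mul, aeval_X, aeval_C]
    have h2 : O.valuation (π * aeval π (divX q)) < O.valuation (algebraMap κ C (q.coeff 0)) := by
      rw [dvr_val_const h hnd, map_mul]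
      have h3 := (O.valuation_le_one_iff _).2 (dvr_aeval_mem h hπO (divX q))
      exact lt_of_le_of_lt (mul_le_of_le_one_right' h3) hπ
    rw [O.valuation.map_add_eq_of_lt_right h2, dvr_val_const h hnd]
  rw [hq, map_mul, map_mul, h1, mul_one, map_pow, aeval_X, map_pow]

theorem dvr_val_adjoin {O : ValuationSubring C} (h : Triv κ O) {π : C} (hπ : O.valuation π < 1)
    {c : C} (hc : c ∈ κ⟮π⟯) (h0 : c ≠ 0) : ∃ j : ℤ, O.valuation c = O.valuation π ^ j := by
  obtain ⟨r, s, rfl⟩ := (mem_adjoin_simple_iff κ c).1 hc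
  have hr : r ≠ 0 := by rintro rfl; simp at h0
  have hs : s ≠ 0 := by rintro rfl; simp at h0
  obtain ⟨k, hk⟩ := dvr_val_aeval h hπ hr
  obtain ⟨l, hl⟩ := dvr_val_aeval h hπ hs
  refine ⟨(k : ℤ) - l, ?_⟩
  by_cases hv : O.valuation π = 0
  · have hπ0 : π = 0 := by simpa using hv
    have hr' : aeval π r ≠ 0 := fun h1 => h0 (by rw [h1, zero_div])
    have hs' : aeval π s ≠ 0 := fun h1 => h0 (by rw [h1, div_zero])
    have hk0 : k = 0 := by
      by_contra hk0
      rw [hv, zero_pow hk0] at hk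
      exact hr' (by simpa using hk)
    have hl0 : l = 0 := by
      by_contra hl0
      rw [hv, zero_pow hl0] at hl
      exact hs' (by simpa using hl)
    rw [map_div₀, hk, hl, hk0, hl0]
    simp
  · rw [map_div₀, hk, hl, zpow_sub₀ hv, zpow_natCast, zpow_natCast]

/-- normalizing an integer valued order function -/
theorem dvr_of_hom {F : Type*} [Field F] (O : ValuationSubring F) (j : F → ℤ)
    (hmul : ∀ x y, x ≠ 0 → y ≠ 0 → j (x * y) = j x + j y)
    (hmem : ∀ x, x ≠ 0 → (x ∈ O ↔ 0 ≤ j x)) {π : F} (h0 : π ≠ 0) (hπ : 0 < j π) : IsDVR O := by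
  classical
  have h1 : j 1 = 0 := by
    have := hmul 1 1 one_ne_zero one_ne_zero
    rw [mul_one] at this
    omega
  have hinv : ∀ x, x ≠ 0 → j x⁻¹ = -j x := by
    intro x hx
    have := hmul _ _ (inv_ne_zero hx) hx
    rw [inv_mul_cancel₀ hx, h1] at this
    omega
  let H : AddSubgroup ℤ :=
    { carrier := {n | ∃ x, x ≠ 0 ∧ j x = n}
      zero_mem' := ⟨1, one_ne_zero, h1⟩
      add_mem' := by
        rintro _ _ ⟨x, hx, rfl⟩ ⟨y, hy, rfl⟩
        exact ⟨x * y, mul_ne_zero hx hy, hmul x y hx hy⟩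
      neg_mem' := by
        rintro _ ⟨x, hx, rfl⟩
        exact ⟨x⁻¹, inv_ne_zero hx, hinv x hx⟩ }
  obtain ⟨a, ha⟩ := Int.subgroup_cyclic H
  have hdvd : ∀ x, x ≠ 0 → |a| ∣ j x := by
    intro x hx
    have : j x ∈ H := ⟨x, hx, rfl⟩
    rw [ha, AddSubgroup.mem_closure_singleton] at this
    obtain ⟨n, hn⟩ := this
    rw [abs_dvd, ← hn, smul_eq_mul]
    exact Dvd.intro_left n rfl
  have haH : a ∈ H := by rw [ha]; exact AddSubgroup.mem_closure_singleton_self a
  have habs : |a| ∈ H := by
    rcases abs_choice a with h | h <;> rw [h]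
    · exact haH
    · exact H.neg_mem haH
  have hpos : 0 < |a| := by
    rw [abs_pos]
    rintro rfl
    have := hdvd π h0
    rw [abs_zero, zero_dvd_iff] at this
    omega
  generalize |a| = e at hdvd habs hpos
  obtain ⟨ϖ, hϖ, hϖe⟩ := habs
  refine ⟨fun x => if x = 0 then 0 else j x / e, by simp, fun x y hx hy => ?_, fun x hx => ?_,
    ϖ, hϖ, ?_⟩
  · simp only [hx, hy, mul_ne_zero hx hy, if_false]
    rw [hmul x y hx hy, Int.add_ediv_of_dvd_left (hdvd x hx)]
  · simp only [hx, if_false]
    rw [hmem x hx]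
    obtain ⟨n, hn⟩ := hdvd x hx
    rw [hn, Int.mul_ediv_cancel_left _ hpos.ne']
    exact mul_nonneg_iff_of_pos_left hpos
  · simp only [hϖ, if_false]
    rw [hϖe, Int.ediv_self hpos.ne']

end aux

variable {κ C : Type*} [Field κ] [Field C] [Algebra κ C] [IsAlgClosed κ]

theorem transcendental_iff_not_mem_range {t : C} :
    Transcendental κ t ↔ t ∉ Set.range (algebraMap κ C) := by
  constructor
  · rintro h ⟨a, rfl⟩
    exact h (isAlgebraic_algebraMap a)
  · intro h hal
    apply h
    have hint : IsIntegral κ t := hal.isIntegral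
    have hd := IsAlgClosed.degree_eq_one_of_irreducible κ (minpoly.irreducible hint)
    exact minpoly.mem_range_of_degree_eq_one κ t hd

omit [IsAlgClosed κ] in
theorem IsCurve.exists_transcendental (h : IsCurve κ C) : ∃ t : C, Transcendental κ t := by
  have : Algebra.Transcendental κ C := trdeg_ne_zero_iff.1 (by rw [h.trdeg]; exact one_ne_zero)
  exact Algebra.Transcendental.transcendental

omit [IsAlgClosed κ] in
theorem IsCurve.finiteDimensional (h : IsCurve κ C) {t : C} (ht : Transcendental κ t) :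
    FiniteDimensional κ⟮t⟯ C := by
  have hi : AlgebraicIndependent κ (fun _ : PUnit.{1} => t) :=
    algebraicIndependent_unique_type_iff.2 ht
  have hb : IsTranscendenceBasis κ (fun _ : PUnit.{1} => t) :=
    hi.isTranscendenceBasis_of_lift_trdeg_le_of_finite (by rw [h.trdeg]; simp)
  have hal := hb.isAlgebraic_field
  rw [Set.range_const] at hal
  have := h.fg
  have : Algebra.EssFiniteType κ⟮t⟯ C := Algebra.EssFiniteType.of_comp κ _ _
  exact Algebra.finite_of_essFiniteType_of_isAlgebraic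

omit [IsAlgClosed κ] in
theorem isCurve_of_finite {t : C} (ht : Transcendental κ t) [FiniteDimensional κ⟮t⟯ C] :
    IsCurve κ C := by
  constructor
  · have : Algebra.EssFiniteType κ κ⟮t⟯ :=
      essFiniteType_iff.2 (fg_adjoin_of_finite (Set.finite_singleton t))
    exact Algebra.EssFiniteType.comp κ κ⟮t⟯ C
  · have hi : AlgebraicIndependent κ (fun _ : PUnit.{1} => t) :=
      algebraicIndependent_unique_type_iff.2 ht
    have hal : Algebra.IsAlgebraic (Algebra.adjoin κ (Set.range fun _ : PUnit.{1} => t)) C := by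
      rw [Set.range_const, ← isAlgebraic_adjoin_iff_top]
      infer_instance
    have hb : IsTranscendenceBasis κ (fun _ : PUnit.{1} => t) :=
      hi.isTranscendenceBasis_iff_isAlgebraic.2 hal
    have := hb.lift_cardinalMk_eq_trdeg
    simpa using this.symm

theorem place_exists_val (h : IsCurve κ C) (z : Place κ C) {x : C} (hx : x ∈ z.O) :
    ∃ a : κ, z.O.valuation (x - algebraMap κ C a) < 1 := by
  by_cases hc : x ∈ Set.range (algebraMap κ C)
  · obtain ⟨a, rfl⟩ := hc
    exact ⟨a, by simp⟩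
  have ht : Transcendental κ x := transcendental_iff_not_mem_range.2 hc
  by_contra hcon
  have h1 : ∀ a : κ, z.O.valuation (x - algebraMap κ C a) = 1 := fun a =>
    le_antisymm ((z.O.valuation_le_one_iff _).2 (z.O.sub_mem hx (z.triv a)))
      (not_lt.1 fun h => hcon ⟨a, h⟩)
  have h2 : ∀ p : Polynomial κ, p ≠ 0 → z.O.valuation (Polynomial.aeval x p) = 1 := by
    intro p hp
    rw [(IsAlgClosed.splits p).eq_prod_roots, map_mul, map_mul, Polynomial.aeval_C,
      dvr_val_const z.triv (Polynomial.leadingCoeff_ne_zero.2 hp), one_mul]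
    induction p.roots using Multiset.induction_on with
    | empty => simp
    | cons a s ih =>
      rw [Multiset.map_cons, Multiset.prod_cons, map_mul, map_mul, ih, map_sub,
        Polynomial.aeval_X, Polynomial.aeval_C, h1, one_mul]
  have := h.finiteDimensional ht
  apply z.ne_top
  refine top_unique fun y _ => ?_
  by_cases hy : y = 0
  · rw [hy]; exact z.O.zero_mem
  obtain ⟨m, hm, -, c, hcK, hc0, he⟩ := dvr_exists_pow_eq z.O κ⟮x⟯ hy
  obtain ⟨r, s, rfl⟩ := (mem_adjoin_simple_iff κ c).1 hcK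
  have hr : r ≠ 0 := by rintro rfl; simp at hc0
  have hs : s ≠ 0 := by rintro rfl; simp at hc0
  rw [map_div₀, h2 r hr, h2 s hs, div_one] at he
  rw [← z.O.valuation_le_one_iff]
  exact (pow_le_one_iff hm.ne').1 he.le

theorem place_isDVR (h : IsCurve κ C) (z : Place κ C) : IsDVR z.O := by
  obtain ⟨t, ht, htO⟩ : ∃ t : C, Transcendental κ t ∧ t ∈ z.O := by
    obtain ⟨t, ht⟩ := h.exists_transcendental
    rcases z.O.mem_or_inv_mem t with h1 | h1
    · exact ⟨t, ht, h1⟩
    · exact ⟨t⁻¹, fun hal => ht (IsAlgebraic.inv_iff.1 hal), h1⟩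
  obtain ⟨a, ha⟩ := place_exists_val h z htO
  have hπt : Transcendental κ (t - algebraMap κ C a) := by
    rw [transcendental_iff_not_mem_range] at ht ⊢
    rintro ⟨b, hb⟩
    exact ht ⟨b + a, by rw [map_add, hb, sub_add_cancel]⟩
  generalize t - algebraMap κ C a = π at ha hπt
  have hπ0 : π ≠ 0 := by
    rintro rfl
    exact hπt isAlgebraic_zero
  have hv0 : 0 < z.O.valuation π := zero_lt_iff.2 (by simpa using hπ0)
  have := h.finiteDimensional hπt
  obtain ⟨N, hN, hex⟩ : ∃ N : ℕ, 0 < N ∧ ∀ x : C, x ≠ 0 →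
      ∃ j : ℤ, z.O.valuation x ^ N = z.O.valuation π ^ j := by
    refine ⟨(finrank κ⟮π⟯ C).factorial, Nat.factorial_pos _, fun x hx => ?_⟩
    obtain ⟨m, hm, hm', c, hcK, hc0, he⟩ := dvr_exists_pow_eq z.O κ⟮π⟯ hx
    obtain ⟨j, hj⟩ := dvr_val_adjoin z.triv ha hcK hc0
    obtain ⟨k, hk⟩ := Nat.dvd_factorial hm hm'
    exact ⟨j * k, by rw [hk, pow_mul, he, hj, zpow_mul, zpow_natCast]⟩
  choose! j hj using hex
  have hanti : StrictAnti fun n : ℤ => z.O.valuation π ^ n := zpow_right_strictAnti₀ hv0 ha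
  refine dvr_of_hom z.O j (fun x y hx hy => ?_) (fun x hx => ?_) hπ0 ?_
  · apply hanti.injective
    beta_reduce
    rw [← hj _ (mul_ne_zero hx hy), zpow_add₀ hv0.ne', ← hj x hx, ← hj y hy, map_mul, mul_pow]
  · rw [← z.O.valuation_le_one_iff, ← pow_le_one_iff hN.ne', hj x hx,
      ← hanti.le_iff_ge]
    simp
  · have h1 := hj π hπ0
    rw [← zpow_natCast] at h1
    rw [← hanti.injective h1]
    exact_mod_cast hN

omit [IsAlgClosed κ] in
theorem place_exists_zero {t : C} (ht : Transcendental κ t) :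
    ∃ z : Place κ C, z.O.valuation t < 1 := by
  let A : Subring C := (Polynomial.aeval (R := κ) t).range.toSubring
  have htA : t ∈ A := ⟨Polynomial.X, Polynomial.aeval_X t⟩
  have hI : Ideal.span {(⟨t, htA⟩ : A)} ≠ ⊤ := by
    rw [Ne, Ideal.span_singleton_eq_top]
    intro hu
    obtain ⟨⟨_, p, rfl⟩, hp⟩ := hu.exists_right_inv
    have h1 : t * Polynomial.aeval t p = 1 := congrArg Subtype.val hp
    have h2 : Polynomial.X * p - 1 = 0 := by
      apply transcendental_iff.1 ht
      rw [map_sub, map_mul, Polynomial.aeval_X, h1, map_one, sub_self]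
    have h3 := congrArg (Polynomial.eval 0) h2
    simp at h3
  obtain ⟨B, hAB, hB⟩ := Ideal.image_subset_nonunits_valuationSubring _ hI
  have hv : B.valuation t < 1 :=
    (B.mem_nonunits_iff).1 (hB ⟨⟨t, htA⟩, Ideal.mem_span_singleton_self _, rfl⟩)
  have ht0 : t ≠ 0 := by
    rintro rfl
    exact ht isAlgebraic_zero
  refine ⟨⟨B, fun hT => ?_, fun a => hAB ⟨Polynomial.C a, Polynomial.aeval_C t a⟩⟩, hv⟩
  have h1 : t⁻¹ ∈ B := by rw [hT]; trivial
  rw [← B.valuation_le_one_iff, map_inv₀, inv_le_one₀ (zero_lt_iff.2 (by simpa using ht0))] at h1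
  exact absurd hv (not_lt.2 h1)

end Vale.Agent.P019
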