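import Vale.Agent.P019.Curve.Defs

/-! P019, curves: fixed vectors of a Frobenius-semilinear bijection. -/

open IntermediateField Module Polynomial

namespace Vale.Agent.P019

variable {κ C : Type*} [Field κ] [Field C] [Algebra κ C] [IsAlgClosed κ]

namespace Semilin

theorem card_fix {p m : ℕ} (hp : p.Prime) [CharP κ p] (hm : m ≠ 0) :
    {c : κ | c ^ p ^ m = c}.Finite ∧ {c : κ | c ^ p ^ m = c}.ncard = p ^ m := by
  have h0 := FiniteField.X_pow_card_pow_sub_X_ne_zero κ hm hp.one_lt
  have e : {c : κ | c ^ p ^ m = c} = (X ^ p ^ m - X : κ[X]).rootSet κ := by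
    ext c
    simp [mem_rootSet_of_ne h0, sub_eq_zero]
  have h1 := card_rootSet_eq_natDegree (K := κ)
    (galois_poly_separable (K := κ) p (p ^ m) (dvd_pow_self p hm)) (IsAlgClosed.splits _)
  rw [e, ← Nat.card_coe_set_eq, Nat.card_eq_fintype_card, h1,
    FiniteField.X_pow_card_pow_sub_X_natDegree_eq κ hm hp.one_lt]
  exact ⟨rootSet_finite _ _, rfl⟩

theorem periodic {α : Type*} {f : α → α} (hf : Function.Injective f) {S : Set α} (hS : S.Finite)
    (hm : Set.MapsTo f S S) {a : α} (ha : a ∈ S) : ∃ m, m ≠ 0 ∧ f^[m] a = a := by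
  obtain ⟨i, j, hij, e⟩ := hS.exists_lt_map_eq_of_forall_mem (f := fun n : ℕ => f^[n] a)
    fun n => hm.iterate n ha
  obtain ⟨k, rfl⟩ := Nat.exists_eq_add_of_lt hij
  refine ⟨k + 1, k.succ_ne_zero, hf.iterate i ?_⟩
  rw [← Function.iterate_add_apply, ← add_assoc]
  exact e.symm

omit [IsAlgClosed κ] in
theorem periodic_const (hκ : FinAlg κ) {p : ℕ} (hp : p.Prime) [CharP κ p] (a : κ) :
    ∃ m, m ≠ 0 ∧ a ^ p ^ m = a := by
  have := Fact.mk hp
  by_cases ha : a = 0
  · exact ⟨1, one_ne_zero, by rw [ha, zero_pow (pow_ne_zero _ hp.ne_zero)]⟩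
  obtain ⟨n, hn, han⟩ := hκ a ha
  have h1 : {x : κ | x ^ n = 1}.Finite :=
    ((nthRoots n (1 : κ)).finite_toSet).subset fun x hx => (mem_nthRoots hn).2 hx
  obtain ⟨m, hm, e⟩ := periodic (frobenius κ p).injective h1 (fun x hx => by
    rw [Set.mem_ofPred_eq, ← map_pow, hx, map_one]) han
  exact ⟨m, hm, by rwa [iterate_frobenius] at e⟩

omit [IsAlgClosed κ] in
theorem pow_mul_fix {p m : ℕ} {a : κ} (h : a ^ p ^ m = a) (k : ℕ) : a ^ p ^ (m * k) = a := by
  induction k with
  | zero => simp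
  | succ k ih => rw [mul_add, mul_one, pow_add, pow_mul, ih, h]

variable {W : Type*} [AddCommGroup W] [Module κ W]

theorem coord_fin {ι : Type*} [Fintype ι] (b : Basis ι κ W) {p m : ℕ} (hp : p.Prime) [CharP κ p]
    (hm : m ≠ 0) : {w | ∀ i, b.repr w i ^ p ^ m = b.repr w i}.Finite ∧
      {w | ∀ i, b.repr w i ^ p ^ m = b.repr w i}.ncard = (p ^ m) ^ Fintype.card ι := by
  obtain ⟨h1, h2⟩ := card_fix (κ := κ) hp hm
  have e : {w | ∀ i, b.repr w i ^ p ^ m = b.repr w i}
      = b.equivFun.symm '' Set.univ.pi fun _ => {c : κ | c ^ p ^ m = c} := by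
    ext w
    rw [LinearEquiv.image_eq_preimage_symm]
    simp
  rw [e, Set.ncard_image_of_injective _ b.equivFun.symm.injective, ← Nat.card_coe_set_eq,
    Nat.card_congr (Equiv.Set.univPi _), Nat.card_pi, Finset.prod_const, Nat.card_coe_set_eq, h2]
  exact ⟨(Set.Finite.pi fun _ => h1).image _, rfl⟩

theorem span_fixed (hκ : FinAlg κ) [FiniteDimensional κ W] {p e : ℕ} (hp : p.Prime) [CharP κ p]
    (he : 1 ≤ e) (φ : W →+ W) (hinj : Function.Injective φ)
    (hφ : ∀ (c : κ) (v : W), φ (c • v) = c ^ p ^ e • φ v) :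
    Submodule.span κ {v | φ v = v} = ⊤ := by
  have := Fact.mk hp
  let b := finBasis κ W
  choose m hm0 hm using fun x : Fin (finrank κ W) × Fin (finrank κ W) =>
    periodic_const hκ hp (b.repr (φ (b x.1)) x.2)
  have hM : ∏ x, m x ≠ 0 := Finset.prod_ne_zero_iff.2 fun x _ => hm0 x
  have h1 : ∀ i j, b.repr (φ (b i)) j ^ p ^ ∏ x, m x = b.repr (φ (b i)) j := fun i j => by
    obtain ⟨k, hk⟩ := Finset.dvd_prod_of_mem m (Finset.mem_univ (i, j))
    rw [hk]
    exact pow_mul_fix (hm (i, j)) k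
  generalize ∏ x, m x = M at hM h1
  have h2 : Set.MapsTo φ {w | ∀ i, b.repr w i ^ p ^ M = b.repr w i}
      {w | ∀ i, b.repr w i ^ p ^ M = b.repr w i} := by
    intro w hw j
    have e1 : b.repr (φ w) j = ∑ i, b.repr w i ^ p ^ e * b.repr (φ (b i)) j := by
      have e3 : φ w = ∑ i, b.repr w i ^ p ^ e • φ (b i) := by
        conv_lhs => rw [← b.sum_repr w]
        simp only [map_sum, hφ]
      rw [e3]
      simp
    rw [e1, sum_pow_char_pow]
    refine Finset.sum_congr rfl fun i _ => ?_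
    rw [mul_pow, h1, ← pow_mul, mul_comm (p ^ e), pow_mul, hw i]
  by_contra hne
  obtain ⟨l, hl0, hl⟩ := Submodule.exists_le_ker_of_lt_top _ (lt_top_iff_ne_top.2 hne)
  obtain ⟨i, hi⟩ : ∃ i, l (b i) ≠ 0 := by
    by_contra hc
    push Not at hc
    exact hl0 (b.ext hc)
  obtain ⟨N, hN, hv⟩ := periodic hinj (coord_fin b hp hM).1 h2 (a := b i) fun j => by
    rw [b.repr_self, Finsupp.single_apply]
    split_ifs
    · exact one_pow _
    · exact zero_pow (pow_ne_zero _ hp.ne_zero)
  have h3 : ∀ (j : ℕ) (c : κ), φ^[j] (c • b i) = c ^ p ^ (e * j) • φ^[j] (b i) := by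
    intro j c
    induction j with
    | zero => simp
    | succ j ih =>
      rw [Function.iterate_succ_apply', Function.iterate_succ_apply', ih, hφ, ← pow_mul, ← pow_add,
        mul_add, mul_one]
  obtain ⟨h4, h5⟩ := card_fix (κ := κ) hp (mul_ne_zero (by omega : e ≠ 0) hN)
  have h6 := eq_zero_of_natDegree_lt_card_of_eval_eq_zero'
    (∑ j ∈ Finset.range N, monomial (p ^ (e * j)) (l (φ^[j] (b i)))) h4.toFinset (by
      intro c hc
      have hc' : c ^ p ^ (e * N) = c := h4.mem_toFinset.1 hc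
      have h7 : φ (∑ j ∈ Finset.range N, φ^[j] (c • b i)) = ∑ j ∈ Finset.range N, φ^[j] (c • b i) := by
        have h8 := Finset.sum_range_succ' (fun j => φ^[j] (c • b i)) N
        rw [Finset.sum_range_succ, h3 N, hc', hv, Function.iterate_zero_apply, add_left_inj] at h8
        rw [map_sum]
        simpa only [Function.iterate_succ_apply'] using h8.symm
      have h9 := hl (Submodule.subset_span h7)
      rw [LinearMap.mem_ker, map_sum] at h9
      rw [eval_finsetSum, ← h9]
      refine Finset.sum_congr rfl fun j _ => ?_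
      rw [eval_monomial, h3, map_smul, smul_eq_mul, mul_comm]) (by
      rw [← Set.ncard_eq_toFinset_card _ h4, h5]
      refine lt_of_le_of_lt (natDegree_sum_le_of_forall_le _ _ (n := p ^ (e * (N - 1)))
        fun j hj => (natDegree_monomial_le _).trans ?_) ?_
      · have := Finset.mem_range.1 hj
        exact Nat.pow_le_pow_right hp.pos (Nat.mul_le_mul_left _ (by omega))
      · exact Nat.pow_lt_pow_right hp.one_lt (Nat.mul_lt_mul_of_pos_left (by omega) (by omega)))
  have h7 := congrArg (fun P : κ[X] => P.coeff 1) h6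
  simp only [finsetSum_coeff, coeff_monomial, coeff_zero] at h7
  rw [Finset.sum_eq_single 0] at h7
  · exact hi (by simpa using h7)
  · intro j _ hj
    exact if_neg (Nat.one_lt_pow (mul_ne_zero (by omega) hj) hp.one_lt).ne'
  · intro h
    exact absurd (Finset.mem_range.2 (Nat.pos_of_ne_zero hN)) h

end Semilin

theorem card_fixed_semilinear (hκ : FinAlg κ) {W : Type*} [AddCommGroup W] [Module κ W]
    [FiniteDimensional κ W] {p e : ℕ} (hp : p.Prime) [CharP κ p] (he : 1 ≤ e) (φ : W →+ W)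
    (hinj : Function.Injective φ) (hφ : ∀ (c : κ) (v : W), φ (c • v) = c ^ p ^ e • φ v) :
    {v | φ v = v}.Finite ∧ {v | φ v = v}.ncard = (p ^ e) ^ finrank κ W := by
  obtain ⟨s, hs, h1, h2⟩ := exists_linearIndependent κ {v | φ v = v}
  rw [Semilin.span_fixed hκ hp he φ hinj hφ] at h1
  let b : Basis s κ W := Basis.mk h2 (by rw [Subtype.range_coe, h1])
  have := FiniteDimensional.fintypeBasisIndex b
  have h3 : ∀ i, φ (b i) = b i := fun i => by
    rw [Basis.mk_apply]
    exact hs i.2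
  have e1 : {v | φ v = v} = {w | ∀ i, b.repr w i ^ p ^ e = b.repr w i} := by
    ext w
    have e2 : ∀ j, b.repr (φ w) j = b.repr w j ^ p ^ e := fun j => by
      have e3 : φ w = ∑ i, b.repr w i ^ p ^ e • b i := by
        conv_lhs => rw [← b.sum_repr w]
        simp only [map_sum, hφ, h3]
      rw [e3, b.repr_sum_self]
    simp only [Set.mem_ofPred_eq, b.ext_elem_iff, e2]
  rw [e1, finrank_eq_card_basis b]
  exact Semilin.coord_fin b hp (by omega)

end Vale.Agent.P019
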