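import Vale.Agent.P019.Curve.LL
import Vale.Agent.P019.Curve.Semilin

/-! P019, curves: invariant effective divisors in an invariant class. -/

open IntermediateField Module

namespace Vale.Agent.P019

variable {κ C : Type*} [Field κ] [Field C] [Algebra κ C] [IsAlgClosed κ]

namespace ClassCount

theorem mem_LL_smul (h : IsCurve κ C) (F : SAut κ C) (D : Dv κ C) (f : C) :
    (F : RingAut C) f ∈ LL (F • D) ↔ f ∈ LL D := by
  by_cases hf : f = 0
  · simp [hf]
  rw [mem_LL' h hf, mem_LL' h (by simpa using hf), ← smul_pdiv, ← smul_add]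
  constructor
  · intro h1 z
    have := h1 (F • z)
    rwa [smul_Dv_apply_smul] at this
  · intro h1 z
    rw [smul_Dv_apply]
    exact h1 _

theorem card_fibres {α β : Type*} {S : Set α} (hS : S.Finite) (g : α → β) {k : ℕ}
    (hk : ∀ v ∈ S, {w | w ∈ S ∧ g w = g v}.ncard = k) : S.ncard = k * (g '' S).ncard := by
  classical
  lift S to Finset α using hS
  rw [← Finset.coe_image, Set.ncard_coe_finset, Set.ncard_coe_finset,
    Finset.card_eq_sum_card_image g S, mul_comm, ← smul_eq_mul, ← Finset.sum_const]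
  refine Finset.sum_congr rfl fun b hb => ?_
  obtain ⟨v, hv, rfl⟩ := Finset.mem_image.1 hb
  rw [← hk v hv, ← Set.ncard_coe_finset, Finset.coe_filter]
  rfl

end ClassCount

theorem ell_smul (h : IsCurve κ C) (F : SAut κ C) (D : Dv κ C) : ell (F • D) = ell D := by
  choose i hi using fun c : κ => (F.2 (algebraMap κ C c)).2 ⟨c, rfl⟩
  have hinj := (algebraMap κ C).injective
  have hb : Function.Bijective i := by
    refine ⟨fun a b e => hinj ((F : RingAut C).injective ?_), fun b => ?_⟩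
    · rw [← hi, ← hi, e]
    · obtain ⟨a, ha⟩ := (F.2 ((F : RingAut C).symm (algebraMap κ C b))).1
        ⟨b, ((F : RingAut C).apply_symm_apply _).symm⟩
      exact ⟨a, hinj (by rw [hi, ha, RingEquiv.apply_symm_apply])⟩
  let j : LL D ≃+ LL (F • D) :=
    { toEquiv := (F : RingAut C).toEquiv.subtypeEquiv fun f => (ClassCount.mem_LL_smul h F D f).symm
      map_add' := fun x y => Subtype.ext (map_add (F : RingAut C) x.1 y.1) }
  have h1 := rank_eq_of_equiv_equiv i j hb fun c v => Subtype.ext (by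
    change (F : RingAut C) (c • v.1) = i c • (F : RingAut C) v.1
    rw [Algebra.smul_def, Algebra.smul_def, map_mul, hi])
  rw [ell, ell, finrank, finrank, h1]

theorem class_count (h : IsCurve κ C) (hκ : FinAlg κ) {q : ℕ} {F : SAut κ C} (hF : IsFrob q F)
    (D : Dv κ C) (hD : F • (D : Pic κ C) = D) :
    {E : Dv κ C | 0 ≤ E ∧ F • E = E ∧ (E : Pic κ C) = D}.Finite ∧
      ((q : ℤ) - 1) * {E : Dv κ C | 0 ≤ E ∧ F • E = E ∧ (E : Pic κ C) = D}.ncard =
        (q : ℤ) ^ ell D - 1 := by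
  obtain ⟨p, e, hp, hc, he, rfl⟩ := hF.char
  have hq : 1 < p ^ e := Nat.one_lt_pow (by omega) hp.one_lt
  obtain ⟨f, hf, hfD⟩ := (mk_eq_mk h).1 ((smul_Pic_mk F D).symm.trans hD).symm
  have hF0 : ∀ {v : C}, v ≠ 0 → (F : RingAut C) v ≠ 0 := fun hv => by simpa using hv
  have hs : ∀ {v : C}, v ≠ 0 → F • (D + pdiv κ v) = D + pdiv κ (f * (F : RingAut C) v) :=
    fun hv => by rw [smul_add, smul_pdiv, hfD, pdiv_mul h hf (hF0 hv), add_assoc]
  have hsm : ∀ (c : κ) (v : C),
      f * (F : RingAut C) (c • v) = c ^ p ^ e • (f * (F : RingAut C) v) := fun c v => by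
    rw [Algebra.smul_def, Algebra.smul_def, map_mul, hF.const, mul_left_comm]
  have hmem : ∀ v ∈ LL D, f * (F : RingAut C) v ∈ LL D := fun v hv => by
    by_cases h0 : v = 0
    · simp [h0]
    have h1 := (mem_LL' h (hF0 h0)).1 ((ClassCount.mem_LL_smul h F D v).2 hv)
    rw [mem_LL' h (mul_ne_zero hf (hF0 h0)), pdiv_mul h hf (hF0 h0), ← add_assoc, ← hfD]
    exact h1
  let φ : LL D →+ LL D :=
    { toFun := fun v => ⟨f * (F : RingAut C) v.1, hmem _ v.2⟩
      map_zero' := Subtype.ext (by simp)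
      map_add' := fun x y => Subtype.ext (by simp [mul_add]) }
  have hφ : ∀ v, (φ v : C) = f * (F : RingAut C) v.1 := fun _ => rfl
  have := finiteDimensional_LL h D
  obtain ⟨h1, h2⟩ := card_fixed_semilinear hκ hp he φ
    (fun x y hxy => Subtype.ext ((F : RingAut C).injective
      (mul_left_cancel₀ hf (congrArg Subtype.val hxy))))
    fun c v => Subtype.ext (hsm c v.1)
  obtain ⟨-, h4⟩ := Semilin.card_fix (κ := κ) hp (by omega : e ≠ 0)
  have hne : ∀ {v : LL D}, v ≠ 0 → (v : C) ≠ 0 := fun hv h0 => hv (Subtype.ext h0)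
  have e1 : {E : Dv κ C | 0 ≤ E ∧ F • E = E ∧ (E : Pic κ C) = D}
      = (fun v : LL D => D + pdiv κ (v : C)) '' ({v | φ v = v} \ {0}) := by
    ext E
    constructor
    · rintro ⟨a1, a2, a3⟩
      obtain ⟨v, hv, rfl⟩ := (mk_eq_mk h).1 a3.symm
      rw [hs hv, add_right_inj, pdiv_eq_iff h (mul_ne_zero hf (hF0 hv)) hv] at a2
      obtain ⟨c, hc0, a2⟩ := a2
      obtain ⟨μ, hμ⟩ := IsAlgClosed.exists_pow_nat_eq c⁻¹ (by omega : 0 < p ^ e - 1)
      have hμ0 : μ ≠ 0 := fun h0 => inv_ne_zero hc0 (by rw [← hμ, h0, zero_pow (by omega)])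
      have hv' : μ • v ≠ 0 := smul_ne_zero hμ0 hv
      refine ⟨μ • ⟨v, (mem_LL' h hv).2 a1⟩, ⟨Subtype.ext ?_, fun h0 => hv' (congrArg Subtype.val h0)⟩,
        congrArg _ ((pdiv_eq_iff h hv' hv).2 ⟨μ, hμ0, rfl⟩)⟩
      change f * (F : RingAut C) (μ • v) = μ • v
      rw [hsm, a2, smul_smul, ← Nat.sub_add_cancel hq.le, pow_succ, hμ, mul_right_comm,
        inv_mul_cancel₀ hc0, one_mul]
    · rintro ⟨v, ⟨a1, a2⟩, rfl⟩
      refine ⟨(mem_LL' h (hne a2)).1 v.2, ?_, ((mk_eq_mk h).2 ⟨_, hne a2, rfl⟩).symm⟩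
      rw [hs (hne a2), ← hφ, a1]
  have h5 := ClassCount.card_fibres (h1.sdiff (t := {0})) (fun v : LL D => D + pdiv κ (v : C))
    (k := p ^ e - 1) fun v hv => by
      have e2 : {w : LL D | w ∈ {v | φ v = v} \ {0} ∧ D + pdiv κ (w : C) = D + pdiv κ (v : C)}
          = (fun c : κ => c • v) '' ({c : κ | c ^ p ^ e = c} \ {0}) := by
        have e3 : ∀ c : κ, φ (c • v) = c ^ p ^ e • v := fun c =>
          (Subtype.ext (hsm c v.1) : φ (c • v) = c ^ p ^ e • φ v).trans (congrArg _ hv.1)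
        ext w
        constructor
        · rintro ⟨⟨a1, a2⟩, a3⟩
          obtain ⟨c, hc0, a4⟩ := (pdiv_eq_iff h (hne a2) (hne hv.2)).1 (add_left_cancel a3)
          obtain rfl : w = c • v := Subtype.ext a4
          exact ⟨c, ⟨smul_left_injective κ hv.2 ((e3 c).symm.trans a1), hc0⟩, rfl⟩
        · rintro ⟨c, ⟨a1, a2⟩, rfl⟩
          have a3 : c • v ≠ 0 := smul_ne_zero a2 hv.2
          exact ⟨⟨(e3 c).trans (congrArg (· • v) a1), a3⟩,
            congrArg _ ((pdiv_eq_iff h (hne a3) (hne hv.2)).2 ⟨c, a2, rfl⟩)⟩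
      rw [e2, Set.ncard_image_of_injective _ (smul_left_injective κ hv.2),
        Set.ncard_sdiff_singleton_of_mem (s := {c : κ | c ^ p ^ e = c}) (zero_pow (by omega)), h4]
  rw [Set.ncard_sdiff_singleton_of_mem (s := {v | φ v = v}) (map_zero φ), h2] at h5
  rw [e1]
  refine ⟨(h1.sdiff).image _, ?_⟩
  have h6 : 1 ≤ (p ^ e) ^ finrank κ (LL D) := Nat.one_le_pow _ _ (by omega)
  zify [h6, hq.le] at h5
  rw [ell]
  push_cast
  exact h5.symm

end Vale.Agent.P019
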