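import Vale.Agent.P019.Curve.Defs

/-! P019, curves: the Euler product as a recursion (pure combinatorics). -/

namespace Vale.Agent.P019

variable {G X : Type*} [Group G] [MulAction G X]

theorem cnt_inv_pow {F : G} {D : X →₀ ℤ} (h : ∀ x, D (F • x) = D x) (j : ℕ) (x : X) :
    D (F ^ j • x) = D x := by
  induction j with
  | zero => rw [pow_zero, one_smul]
  | succ j ih => rw [pow_succ', mul_smul, h, ih]

open Classical in
theorem cnt_orb_apply (F : G) (k : ℕ) (x y : X) :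
    orbSum F k x y = ∑ j ∈ Finset.range k, if F ^ j • x = y then 1 else 0 := by
  rw [orbSum, Finsupp.finsetSum_apply]
  exact Finset.sum_congr rfl fun j _ => Finsupp.single_apply

theorem cnt_orb_nonneg (F : G) (k : ℕ) (x : X) : 0 ≤ orbSum F k x :=
  Finset.sum_nonneg fun _ _ => Finsupp.single_nonneg.2 zero_le_one

theorem cnt_orb_degree (F : G) (k : ℕ) (x : X) : (orbSum F k x).degree = k := by
  rw [orbSum, map_sum]
  simp

theorem cnt_orb_inv {F : G} {k : ℕ} {x : X} (h : F ^ k • x = x) (y : X) :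
    orbSum F k x (F • y) = orbSum F k x y := by
  classical
  rw [cnt_orb_apply, cnt_orb_apply]
  have h1 := Finset.sum_range_succ (fun j => if F ^ j • x = F • y then (1 : ℤ) else 0) k
  have h2 := Finset.sum_range_succ' (fun j => if F ^ j • x = F • y then (1 : ℤ) else 0) k
  simp only [pow_succ', mul_smul, smul_left_cancel_iff, pow_zero, one_smul, h] at h1 h2
  exact add_right_cancel (h1.symm.trans h2)

theorem cnt_degree_nonneg {D : X →₀ ℤ} (h : 0 ≤ D) : 0 ≤ D.degree :=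
  Finset.sum_nonneg fun x _ => h x

theorem cnt_le_degree {D : X →₀ ℤ} (h : 0 ≤ D) (x : X) : D x ≤ D.degree := by
  by_cases hx : x ∈ D.support
  · exact Finset.single_le_sum (fun y _ => h y) hx
  · rw [Finsupp.notMem_support_iff.1 hx]
    exact cnt_degree_nonneg h

open Classical in
theorem cnt_orb_self (F : G) (k : ℕ) (x : X) :
    orbSum F k x x = (Nat.count (fun j => F ^ j • x = x) k : ℕ) := by
  rw [cnt_orb_apply, Nat.count_eq_card_filter_range, Finset.sum_boole]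

theorem cnt_orb_le {F : G} {k : ℕ} {x : X} (h : F ^ k • x = x) {D : X →₀ ℤ} (h0 : 0 ≤ D)
    (hD : ∀ x, D (F • x) = D x) : orbSum F k x ≤ D ↔ orbSum F k x x ≤ D x := by
  classical
  refine ⟨fun H => H x, fun H y => ?_⟩
  by_cases hy : ∃ j : ℕ, F ^ j • x = y
  · obtain ⟨j, rfl⟩ := hy
    rw [cnt_inv_pow hD, cnt_inv_pow (cnt_orb_inv h)]
    exact H
  · rw [cnt_orb_apply, Finset.sum_eq_zero fun j _ => if_neg fun hj => hy ⟨j, hj⟩]
    exact h0 y

theorem cnt_periodic {F : G} {D : X →₀ ℤ} (hD : ∀ x, D (F • x) = D x) {x : X} (hx : D x ≠ 0) :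
    {j : ℕ | F ^ j • x = x}.Infinite := by
  have h1 : ∀ j : ℕ, F ^ j • x ∈ (D.support : Set X) := fun j => by
    rw [Finset.mem_coe, Finsupp.mem_support_iff, cnt_inv_pow hD]
    exact hx
  obtain ⟨i, j, hij, he⟩ := Set.Finite.exists_lt_map_eq_of_forall_mem h1 D.support.finite_toSet
  obtain ⟨k, rfl⟩ := Nat.exists_eq_add_of_lt hij
  rw [add_assoc, pow_add, mul_smul, smul_left_cancel_iff] at he
  have h2 : ∀ n : ℕ, F ^ ((k + 1) * n) • x = x := by
    intro n
    induction n with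
    | zero => rw [mul_zero, pow_zero, one_smul]
    | succ n ih => rw [mul_add, mul_one, pow_add, mul_smul, ← he, ih]
  exact Set.infinite_of_injective_forall_mem (f := fun n : ℕ => (k + 1) * n)
    (mul_right_injective₀ (Nat.succ_ne_zero k)) h2

open Classical in
theorem cnt_key {F : G} {m : ℕ} {D : X →₀ ℤ} (hD : D ∈ Eff X F m) (x : X) :
    D x = (((Finset.Icc 1 m).filter fun k => F ^ k • x = x ∧ orbSum F k x ≤ D).card : ℕ) := by
  obtain ⟨h0, hi, hm⟩ := hD
  have hp0 : F ^ 0 • x = x := by rw [pow_zero, one_smul]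
  have hpos : ∀ k, 1 ≤ k → 1 ≤ Nat.count (fun j => F ^ j • x = x) k := fun k hk => by
    have h1 := Nat.count_monotone (fun j => F ^ j • x = x) hk
    rwa [Nat.count_one, if_pos hp0] at h1
  by_cases hx : D x = 0
  · rw [hx, Finset.filter_eq_empty_iff.2, Finset.card_empty, Nat.cast_zero]
    rintro k hk ⟨-, h2⟩
    have h3 := h2 x
    rw [cnt_orb_self, hx] at h3
    have h4 := hpos k (Finset.mem_Icc.1 hk).1
    omega
  have hinf := cnt_periodic hi hx
  obtain ⟨n, hn⟩ := Int.eq_ofNat_of_zero_le (show (0 : ℤ) ≤ D x from h0 x)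
  rw [hn, Nat.cast_inj]
  have h1 : (Finset.Icc 1 n).card = n := by simp
  rw [← h1]
  refine Finset.card_nbij' (Nat.nth fun j => F ^ j • x = x) (Nat.count fun j => F ^ j • x = x)
    ?_ ?_ ?_ ?_
  · intro i hi'
    rw [Finset.mem_coe, Finset.mem_Icc] at hi'
    have h2 := Nat.nth_mem_of_infinite hinf i
    have h3 : orbSum F (Nat.nth (fun j => F ^ j • x = x) i) x ≤ D := by
      rw [cnt_orb_le h2 h0 hi, cnt_orb_self, Nat.count_nth_of_infinite hinf, hn]
      exact_mod_cast hi'.2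
    have h4 := cnt_degree_nonneg (sub_nonneg.2 h3)
    rw [map_sub, cnt_orb_degree, hm] at h4
    have h5 := (Nat.nth_strictMono hinf).le_apply (x := i)
    rw [Finset.mem_coe, Finset.mem_filter, Finset.mem_Icc]
    exact ⟨⟨by omega, by omega⟩, h2, h3⟩
  · intro k hk
    rw [Finset.mem_coe, Finset.mem_filter, Finset.mem_Icc] at hk
    have h2 := hk.2.2 x
    rw [cnt_orb_self, hn] at h2
    rw [Finset.mem_coe, Finset.mem_Icc]
    exact ⟨hpos k hk.1.1, by exact_mod_cast h2⟩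
  · intro i _
    exact Nat.count_nth_of_infinite hinf i
  · intro k hk
    rw [Finset.mem_coe, Finset.mem_filter] at hk
    exact Nat.nth_count hk.2.1

theorem cnt_fix_finite (F : G) (hfix : ∀ k : ℕ, 1 ≤ k → {x : X | F ^ k • x = x}.Finite) (m : ℕ) :
    ∃ S : Finset X, (∀ k ∈ Finset.Icc 1 m, ∀ x, F ^ k • x = x → x ∈ S) ∧
      ∀ D ∈ Eff X F m, D.support ⊆ S := by
  classical
  have h1 : (⋃ k ∈ Finset.Icc 1 m, {x : X | F ^ k • x = x}).Finite :=
    Set.Finite.biUnion (Finset.finite_toSet _) fun k hk => hfix k (Finset.mem_Icc.1 hk).1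
  have h2 : ∀ k ∈ Finset.Icc 1 m, ∀ x, F ^ k • x = x → x ∈ h1.toFinset := fun k hk x hx => by
    rw [Set.Finite.mem_toFinset]
    exact Set.mem_biUnion hk hx
  refine ⟨h1.toFinset, h2, fun D hD x hx => ?_⟩
  have h3 := Finsupp.mem_support_iff.1 hx
  rw [cnt_key hD x, Nat.cast_ne_zero, Finset.card_ne_zero] at h3
  obtain ⟨k, hk⟩ := h3
  rw [Finset.mem_filter] at hk
  exact h2 k hk.1 x hk.2.1

theorem eff_finite (F : G) (hfix : ∀ k : ℕ, 1 ≤ k → {x : X | F ^ k • x = x}.Finite) (m : ℕ) :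
    (Eff X F m).Finite := by
  classical
  obtain ⟨S, -, hS⟩ := cnt_fix_finite F hfix m
  refine (Set.finite_Icc (0 : X →₀ ℤ) (Finsupp.indicator S fun _ _ => (m : ℤ))).subset ?_
  intro D hD
  refine ⟨hD.1, fun x => ?_⟩
  by_cases hx : x ∈ S
  · rw [Finsupp.indicator_of_mem hx, ← hD.2.2]
    exact cnt_le_degree hD.1 x
  · rw [Finsupp.indicator_of_notMem hx, Finsupp.notMem_support_iff.1 fun h => hx (hS D hD h)]

theorem cnt_eff_zero (F : G) : Eff X F 0 = {0} := by
  ext D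
  constructor
  · rintro ⟨h0, -, hm⟩
    ext x
    have h1 := cnt_le_degree h0 x
    rw [hm] at h1
    exact le_antisymm h1 (h0 x)
  · rintro rfl
    exact ⟨le_rfl, fun _ => rfl, by simp⟩

open Classical in
theorem cnt_shift (F : G) (hfix : ∀ k : ℕ, 1 ≤ k → {x : X | F ^ k • x = x}.Finite)
    (w : (X →₀ ℤ) → ℂ)
    (hw : ∀ D D' : X →₀ ℤ, (∀ x, D (F • x) = D x) → (∀ x, D' (F • x) = D' x) →
      w (D + D') = w D * w D') {k m : ℕ} (hk : k ≤ m) {x : X} (hx : F ^ k • x = x) :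
    ∑ D ∈ (eff_finite F hfix m).toFinset, (if orbSum F k x ≤ D then w D else 0)
      = w (orbSum F k x) * ∑ D ∈ (eff_finite F hfix (m - k)).toFinset, w D := by
  rw [← Finset.sum_filter, Finset.mul_sum]
  symm
  refine Finset.sum_nbij' (fun D => orbSum F k x + D) (fun D => D - orbSum F k x) ?_ ?_ ?_ ?_ ?_
  · intro D hD
    rw [Set.Finite.mem_toFinset] at hD
    rw [Finset.mem_filter, Set.Finite.mem_toFinset]
    refine ⟨⟨add_nonneg (cnt_orb_nonneg F k x) hD.1, fun y => ?_, ?_⟩,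
      le_add_of_nonneg_right hD.1⟩
    · rw [Finsupp.add_apply, Finsupp.add_apply, cnt_orb_inv hx, hD.2.1]
    · rw [map_add, cnt_orb_degree, hD.2.2, Nat.cast_sub hk]
      ring
  · intro D hD
    rw [Finset.mem_filter, Set.Finite.mem_toFinset] at hD
    rw [Set.Finite.mem_toFinset]
    refine ⟨sub_nonneg.2 hD.2, fun y => ?_, ?_⟩
    · rw [Finsupp.sub_apply, Finsupp.sub_apply, cnt_orb_inv hx, hD.1.2.1]
    · rw [map_sub, cnt_orb_degree, hD.1.2.2, Nat.cast_sub hk]
  · intro D _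
    exact add_sub_cancel_left _ _
  · intro D _
    exact add_sub_cancel _ _
  · intro D hD
    rw [Set.Finite.mem_toFinset] at hD
    exact (hw _ _ (cnt_orb_inv hx) hD.2.1).symm

theorem count_rec (F : G) (hfix : ∀ k : ℕ, 1 ≤ k → {x : X | F ^ k • x = x}.Finite)
    (w : (X →₀ ℤ) → ℂ) (hw0 : w 0 = 1)
    (hw : ∀ D D' : X →₀ ℤ, (∀ x, D (F • x) = D x) → (∀ x, D' (F • x) = D' x) →
      w (D + D') = w D * w D') :
    LogRec (fun m => ∑ᶠ D ∈ Eff X F m, w D)
      (fun k => ∑ᶠ x ∈ {x : X | F ^ k • x = x}, w (orbSum F k x)) := by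
  classical
  refine ⟨?_, fun m _ => ?_⟩
  · show ∑ᶠ D ∈ Eff X F 0, w D = 1
    rw [cnt_eff_zero, finsum_mem_singleton, hw0]
  obtain ⟨S, hS1, hS2⟩ := cnt_fix_finite F hfix m
  have ha : ∀ n, ∑ᶠ D ∈ Eff X F n, w D = ∑ D ∈ (eff_finite F hfix n).toFinset, w D := fun n =>
    finsum_mem_eq_finite_toFinset_sum _ _
  have hb : ∀ k ∈ Finset.Icc 1 m, ∑ᶠ x ∈ {x : X | F ^ k • x = x}, w (orbSum F k x)
      = ∑ x ∈ S, if F ^ k • x = x then w (orbSum F k x) else 0 := fun k hk => by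
    rw [← Finset.sum_filter, ← finsum_mem_coe_finset]
    refine finsum_mem_congr (Set.ext fun x => ?_) fun _ _ => rfl
    rw [Finset.mem_coe, Finset.mem_filter]
    exact ⟨fun h => ⟨hS1 k hk x h, h⟩, fun h => h.2⟩
  have hc : ∀ D ∈ (eff_finite F hfix m).toFinset, (m : ℂ) * w D = ∑ x ∈ S,
      ∑ k ∈ Finset.Icc 1 m, if F ^ k • x = x ∧ orbSum F k x ≤ D then w D else 0 := by
    intro D hD
    rw [Set.Finite.mem_toFinset] at hD
    have h1 : (m : ℤ) = ∑ x ∈ S, D x := by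
      rw [← hD.2.2, Finsupp.degree_apply]
      exact Finset.sum_subset (hS2 D hD) fun x _ hx => Finsupp.notMem_support_iff.1 hx
    have h2 : (m : ℂ) = ∑ x ∈ S, ((D x : ℤ) : ℂ) := by exact_mod_cast h1
    rw [h2, Finset.sum_mul]
    refine Finset.sum_congr rfl fun x _ => ?_
    rw [cnt_key hD x, ← Finset.sum_filter, Finset.sum_const, nsmul_eq_mul, Int.cast_natCast]
  simp only [ha]
  rw [Finset.mul_sum, Finset.sum_congr rfl hc, Finset.sum_comm]
  simp only [Finset.sum_comm (s := (eff_finite F hfix m).toFinset)]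
  rw [Finset.sum_comm]
  refine Finset.sum_congr rfl fun k hk => ?_
  rw [hb k hk, Finset.sum_mul]
  refine Finset.sum_congr rfl fun x _ => ?_
  by_cases hx : F ^ k • x = x
  · simp only [hx, true_and, if_true]
    exact cnt_shift F hfix w hw (Finset.mem_Icc.1 hk).2 hx
  · simp only [hx, false_and, if_false, Finset.sum_const_zero, zero_mul]

theorem count_rec_card (F : G) (hfix : ∀ k : ℕ, 1 ≤ k → {x : X | F ^ k • x = x}.Finite) :
    LogRec (fun m => ((Eff X F m).ncard : ℂ)) (fun k => ({x : X | F ^ k • x = x}.ncard : ℂ)) := by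
  have h1 : ∀ {Y : Type _} (s : Set Y), s.Finite → ∑ᶠ _y ∈ s, (1 : ℂ) = s.ncard := by
    intro Y s hs
    rw [finsum_mem_eq_finite_toFinset_sum _ hs, Set.ncard_eq_toFinset_card _ hs]
    simp
  obtain ⟨h0, h⟩ := count_rec F hfix (fun _ => 1) rfl fun _ _ _ _ => (mul_one _).symm
  refine ⟨?_, fun m hm => ?_⟩
  · rw [← h0]
    exact (h1 _ (eff_finite F hfix 0)).symm
  · have h2 := h m hm
    simp only [h1 _ (eff_finite F hfix _)] at h2
    rw [h2]
    exact Finset.sum_congr rfl fun k hk => by rw [h1 _ (hfix k (Finset.mem_Icc.1 hk).1)]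

end Vale.Agent.P019
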