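import Vale.Agent.P019.Curve.Ord

/-! P019, curves: divisors, Riemann-Roch spaces, Picard group, semilinear automorphisms. -/

open Pointwise

namespace Vale.Agent.P019

section defs

variable (κ C : Type*) [Field κ] [Field C] [Algebra κ C]

/-- divisors -/
abbrev Dv : Type _ := Place κ C →₀ ℤ

variable {C}

open Classical in
/-- principal divisor of `f` (junk `0` if the support is infinite) -/
noncomputable def pdiv (f : C) : Dv κ C :=
  if h : (Function.support fun z : Place κ C => ord z.O f).Finite then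
    Finsupp.ofSupportFinite _ h else 0

/-- pole divisor -/
noncomputable def poleDv (f : C) : Dv κ C := (-pdiv κ f) ⊔ 0

variable {κ}

/-- elements of order at least `n` at `z` -/
def Iv (z : Place κ C) (n : ℤ) : Submodule κ C where
  carrier := {f | IsDVR z.O → f = 0 ∨ n ≤ ord z.O f}
  zero_mem' := fun _ => Or.inl rfl
  add_mem' := fun {x y} hx hy h => by
    by_cases hxy : x + y = 0
    · exact Or.inl hxy
    rcases hx h with rfl | hx
    · simpa using hy h
    rcases hy h with rfl | hy
    · exact Or.inr (by simpa using hx)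
    by_cases hx0 : x = 0
    · subst hx0; exact Or.inr (by simpa using hy)
    by_cases hy0 : y = 0
    · subst hy0; exact Or.inr (by simpa using hx)
    exact Or.inr ((le_min hx hy).trans (h.isOrd.min_le_add hx0 hy0 hxy))
  smul_mem' := fun c x hx h => by
    by_cases hc : c = 0
    · exact Or.inl (by simp [hc])
    by_cases hx0 : x = 0
    · exact Or.inl (by simp [hx0])
    rcases hx h with hx | hx
    · exact absurd hx hx0
    refine Or.inr ?_
    rw [Algebra.smul_def, h.isOrd.mul (by simpa using hc) hx0, h.isOrd.const z.triv, zero_add]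
    exact hx

theorem mem_Iv {z : Place κ C} (h : IsDVR z.O) {n : ℤ} {f : C} :
    f ∈ Iv z n ↔ f = 0 ∨ n ≤ ord z.O f :=
  ⟨fun hf => hf h, fun hf _ => hf⟩

/-- the Riemann-Roch space `L(D)` -/
def LL (D : Dv κ C) : Submodule κ C := ⨅ z, Iv z (-D z)

/-- `ℓ(D)` -/
noncomputable def ell (D : Dv κ C) : ℕ := Module.finrank κ (LL D)

variable (κ C)

/-- `g` is the genus: Riemann's inequality, with equality in degree at least `2 g - 1` -/
def IsGenus (g : ℕ) : Prop :=
  (∀ D : Dv κ C, D.degree + 1 ≤ ell D + g) ∧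
    ∀ D : Dv κ C, 2 * (g : ℤ) - 1 ≤ D.degree → (ell D : ℤ) + g = D.degree + 1

/-- principal divisors -/
noncomputable def Prin : AddSubgroup (Dv κ C) := AddSubgroup.closure {D | ∃ f : C, f ≠ 0 ∧ D = pdiv κ f}

/-- divisor class group -/
abbrev Pic : Type _ := Dv κ C ⧸ Prin κ C

/-- classes of degree zero -/
noncomputable def Pic0 : AddSubgroup (Pic κ C) :=
  (Finsupp.degree : Dv κ C →+ ℤ).ker.map (QuotientAddGroup.mk' (Prin κ C))

variable {κ C}

/-- `W` is the unique special class of maximal degree -/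
structure IsCanon (g : ℕ) (W : Dv κ C) : Prop where
  lower : (g : ℤ) - 1 ≤ W.degree
  upper : W.degree ≤ 2 * (g : ℤ) - 2
  ell_eq : (ell W : ℤ) + g = W.degree + 2
  uniq : ∀ D : Dv κ C, W.degree ≤ D.degree → (D : Pic κ C) ≠ (W : Pic κ C) →
    (ell D : ℤ) + g = D.degree + 1

variable (κ C)

/-- ring automorphisms of `C` preserving the constants -/
def SAut : Subgroup (RingAut C) where
  carrier := {F | ∀ x : C, F x ∈ Set.range (algebraMap κ C) ↔ x ∈ Set.range (algebraMap κ C)}
  one_mem' := fun _ => Iff.rfl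
  mul_mem' := fun {F G} hF hG x => by
    change F (G x) ∈ _ ↔ _
    rw [hF, hG]
  inv_mem' := fun {F} hF x => by
    have := hF (F.symm x)
    rw [F.apply_symm_apply] at this
    exact this.symm

variable {κ C}

instance : MulAction (SAut κ C) (Place κ C) where
  smul F z :=
    { O := z.O.comap ((F : RingAut C)⁻¹ : RingAut C)
      ne_top := fun h => z.ne_top (by
        refine top_unique fun x _ => ?_
        have : (F : RingAut C) x ∈ z.O.comap ((F : RingAut C)⁻¹ : RingAut C) := by
          rw [h]; trivial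
        rw [ValuationSubring.mem_comap] at this
        change (F : RingAut C).symm ((F : RingAut C) x) ∈ _ at this
        rwa [RingEquiv.symm_apply_apply] at this)
      triv := fun a => by
        rw [ValuationSubring.mem_comap]
        obtain ⟨b, hb⟩ := (F⁻¹.2 (algebraMap κ C a)).2 ⟨a, rfl⟩
        change ((F⁻¹ : SAut κ C) : RingAut C) (algebraMap κ C a) ∈ _
        rw [← hb]
        exact z.triv b }
  one_smul z := by ext x; rfl
  mul_smul F G z := by ext x; rfl

theorem mem_smul_O (F : SAut κ C) (z : Place κ C) (x : C) :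
    x ∈ (F • z).O ↔ (F : RingAut C).symm x ∈ z.O := Iff.rfl

theorem apply_mem_smul_O (F : SAut κ C) (z : Place κ C) (x : C) :
    (F : RingAut C) x ∈ (F • z).O ↔ x ∈ z.O := by
  rw [mem_smul_O, RingEquiv.symm_apply_apply]

theorem ord_smul' (F : SAut κ C) (z : Place κ C) (x : C) :
    ord (F • z).O x = ord z.O ((F : RingAut C).symm x) :=
  ord_comap z.O (F : RingAut C).symm x

theorem ord_smul (F : SAut κ C) (z : Place κ C) (x : C) :
    ord (F • z).O ((F : RingAut C) x) = ord z.O x := by
  rw [ord_smul', RingEquiv.symm_apply_apply]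

noncomputable instance : DistribMulAction (SAut κ C) (Dv κ C) := Finsupp.comapDistribMulAction

theorem smul_Dv_def (F : SAut κ C) (D : Dv κ C) : F • D = D.mapDomain (F • ·) := rfl

theorem smul_Dv_apply (F : SAut κ C) (D : Dv κ C) (z : Place κ C) : (F • D) z = D (F⁻¹ • z) :=
  Finsupp.comapSMul_apply F D z

theorem smul_Dv_apply_smul (F : SAut κ C) (D : Dv κ C) (z : Place κ C) :
    (F • D) (F • z) = D z := by
  rw [smul_Dv_apply, inv_smul_smul]

theorem smul_Dv_single (F : SAut κ C) (z : Place κ C) (n : ℤ) :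
    F • (Finsupp.single z n : Dv κ C) = Finsupp.single (F • z) n :=
  Finsupp.comapSMul_single F z n

theorem degree_smul_Dv (F : SAut κ C) (D : Dv κ C) : (F • D).degree = D.degree :=
  Finsupp.degree_mapDomain _ _

theorem smul_Dv_eq_iff (F : SAut κ C) (D : Dv κ C) : F • D = D ↔ ∀ z, D (F • z) = D z := by
  constructor
  · intro h z
    rw [← smul_Dv_apply_smul F D z, h]
  · intro h
    ext z
    rw [smul_Dv_apply, ← h, smul_inv_smul]

theorem pdiv_apply_of_finite {f : C}
    (h : (Function.support fun z : Place κ C => ord z.O f).Finite) (z : Place κ C) :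
    pdiv κ f z = ord z.O f := by
  rw [pdiv, dif_pos h]; rfl

theorem smul_pdiv (F : SAut κ C) (f : C) : F • pdiv κ f = pdiv κ ((F : RingAut C) f) := by
  have key : (Function.support fun z : Place κ C => ord z.O ((F : RingAut C) f)) =
      (F • ·) '' (Function.support fun z : Place κ C => ord z.O f) := by
    ext z
    simp only [Function.mem_support, Set.mem_image]
    constructor
    · intro h
      refine ⟨F⁻¹ • z, ?_, smul_inv_smul _ _⟩
      rwa [← ord_smul F, smul_inv_smul]
    · rintro ⟨z, hz, rfl⟩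
      rwa [ord_smul]
  by_cases h : (Function.support fun z : Place κ C => ord z.O f).Finite
  · have h' : (Function.support fun z : Place κ C => ord z.O ((F : RingAut C) f)).Finite := by
      rw [key]; exact h.image _
    ext z
    rw [smul_Dv_apply, pdiv_apply_of_finite h, pdiv_apply_of_finite h', ← ord_smul F,
      smul_inv_smul]
  · have h' : ¬ (Function.support fun z : Place κ C => ord z.O ((F : RingAut C) f)).Finite := by
      rw [key]
      exact fun h2 => h (h2.of_finite_image (MulAction.injective F).injOn)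
    rw [pdiv, dif_neg h, pdiv, dif_neg h', smul_zero]

theorem smul_mem_Prin (F : SAut κ C) {D : Dv κ C} (hD : D ∈ Prin κ C) : F • D ∈ Prin κ C := by
  induction hD using AddSubgroup.closure_induction with
  | mem x hx =>
    obtain ⟨f, hf, rfl⟩ := hx
    exact AddSubgroup.subset_closure ⟨_, by simpa using hf, smul_pdiv F f⟩
  | zero => rw [smul_zero]; exact zero_mem _
  | add x y _ _ hx hy => rw [smul_add]; exact add_mem hx hy
  | neg x _ hx => rw [smul_neg]; exact neg_mem hx

noncomputable instance : DistribMulAction (SAut κ C) (Pic κ C) where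
  smul F := QuotientAddGroup.map (Prin κ C) (Prin κ C) (DistribSMul.toAddMonoidHom (Dv κ C) F)
    fun _ hD => smul_mem_Prin F hD
  one_smul a := by
    obtain ⟨D, rfl⟩ := QuotientAddGroup.mk_surjective a
    change (((1 : SAut κ C) • D : Dv κ C) : Pic κ C) = _
    rw [one_smul]
  mul_smul F G a := by
    obtain ⟨D, rfl⟩ := QuotientAddGroup.mk_surjective a
    change (((F * G) • D : Dv κ C) : Pic κ C) = ((F • G • D : Dv κ C) : Pic κ C)
    rw [mul_smul]
  smul_zero F := map_zero (QuotientAddGroup.map (Prin κ C) (Prin κ C) (DistribSMul.toAddMonoidHom (Dv κ C) F)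
    fun _ hD => smul_mem_Prin F hD)
  smul_add F := map_add (QuotientAddGroup.map (Prin κ C) (Prin κ C) (DistribSMul.toAddMonoidHom (Dv κ C) F)
    fun _ hD => smul_mem_Prin F hD)

theorem smul_Pic_mk (F : SAut κ C) (D : Dv κ C) :
    F • (D : Pic κ C) = ((F • D : Dv κ C) : Pic κ C) := rfl

theorem mem_Pic0 {a : Pic κ C} : a ∈ Pic0 κ C ↔ ∃ D : Dv κ C, D.degree = 0 ∧ (D : Pic κ C) = a :=
  Iff.rfl

theorem smul_mem_Pic0 (F : SAut κ C) {a : Pic κ C} (ha : a ∈ Pic0 κ C) : F • a ∈ Pic0 κ C := by
  obtain ⟨D, hD, rfl⟩ := mem_Pic0.1 ha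
  exact mem_Pic0.2 ⟨F • D, by rw [degree_smul_Dv, hD], rfl⟩

/-- invariant classes of degree zero -/
def FixPic0 (F : SAut κ C) : Set (Pic κ C) := {a | a ∈ Pic0 κ C ∧ F • a = a}

/-- a Frobenius automorphism: `c ↦ c ^ q` on the constants, locally of finite order -/
structure IsFrob (q : ℕ) (F : SAut κ C) : Prop where
  char : ∃ p e : ℕ, p.Prime ∧ CharP κ p ∧ 1 ≤ e ∧ q = p ^ e
  const : ∀ c : κ, (F : RingAut C) (algebraMap κ C c) = algebraMap κ C (c ^ q)
  per : ∀ f : C, ∃ n : ℕ, 1 ≤ n ∧ ((F ^ n : SAut κ C) : RingAut C) f = f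
  perP : ∀ z : Place κ C, ∃ n : ℕ, 1 ≤ n ∧ F ^ n • z = z
  fin : ∀ n : ℕ, 1 ≤ n → {z : Place κ C | F ^ n • z = z}.Finite
  base : ∃ z : Place κ C, F • z = z

end defs

section abstract

variable {G X : Type*} [Group G] [MulAction G X]

/-- invariant effective divisors of degree `m` -/
def Eff (X : Type*) [MulAction G X] (F : G) (m : ℕ) : Set (X →₀ ℤ) :=
  {D | 0 ≤ D ∧ (∀ x, D (F • x) = D x) ∧ D.degree = m}

/-- `x + F x + ... + F ^ (k - 1) x` -/
noncomputable def orbSum (F : G) (k : ℕ) (x : X) : X →₀ ℤ :=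
  ∑ j ∈ Finset.range k, Finsupp.single (F ^ j • x) 1

/-- the logarithmic derivative recursion `t A' = B A`, `A 0 = 1` -/
def LogRec (a b : ℕ → ℂ) : Prop :=
  a 0 = 1 ∧ ∀ m : ℕ, 1 ≤ m → (m : ℂ) * a m = ∑ k ∈ Finset.Icc 1 m, b k * a (m - k)

end abstract

end Vale.Agent.P019
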