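import Vale.Agent.P019.Curve.LL

/-! P019, curves: the degree formula. -/

open IntermediateField Module

namespace Vale.Agent.P019

variable {κ C : Type*} [Field κ] [Field C] [Algebra κ C] [IsAlgClosed κ]

theorem poleDv_nonneg (f : C) : (0 : Dv κ C) ≤ poleDv κ f := le_sup_right

omit [IsAlgClosed κ] in
theorem linearIndependent_pow_adjoin {t : C} (ht : Transcendental κ t) (m : ℕ) :
    LinearIndependent κ fun i : Fin m => (AdjoinSimple.gen κ t) ^ (i : ℕ) := by
  have h1 : LinearIndependent κ fun i : Fin m => t ^ (i : ℕ) := by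
    have h2 : LinearIndependent κ fun i : ℕ => t ^ i := by
      have h3 := (Polynomial.basisMonomials κ).linearIndependent.map'
        (Polynomial.aeval t : Polynomial κ →ₐ[κ] C).toLinearMap
        (LinearMap.ker_eq_bot.2 (transcendental_iff_injective.1 ht))
      have e : (⇑(Polynomial.aeval t : Polynomial κ →ₐ[κ] C).toLinearMap ∘
          ⇑(Polynomial.basisMonomials κ)) = fun i : ℕ => t ^ i := by
        ext i
        simp
      rwa [e] at h3
    exact h2.comp _ Fin.val_injective
  apply LinearIndependent.of_comp (κ⟮t⟯.val.toLinearMap)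
  exact h1

theorem ell_poleDv_lower (h : IsCurve κ C) {t : C} (ht : Transcendental κ t) :
    ∃ c : ℤ, ∀ m : ℕ, (m : ℤ) * finrank κ⟮t⟯ C - c ≤ ell (m • poleDv κ t) := by
  have := h.finiteDimensional ht
  let u := Module.finBasis κ⟮t⟯ C
  set E : Dv κ C := ∑ j, poleDv κ (u j) with hE
  have hE0 : 0 ≤ E := Finset.sum_nonneg fun j _ => poleDv_nonneg _
  refine ⟨E.degree, fun m => ?_⟩
  have hli := linearIndependent_smul (linearIndependent_pow_adjoin ht (m + 1)) u.linearIndependent
  have hmem : ∀ p : Fin (m + 1) × Fin (finrank κ⟮t⟯ C),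
      (AdjoinSimple.gen κ t) ^ (p.1 : ℕ) • u p.2 ∈ LL (m • poleDv κ t + E) := by
    intro p
    have e : (AdjoinSimple.gen κ t) ^ (p.1 : ℕ) • u p.2 = t ^ (p.1 : ℕ) * u p.2 := by
      rw [Algebra.smul_def, map_pow]; rfl
    rw [e]
    refine mul_mem_LL h (LL_mono h ?_ (pow_mem_LL h (mem_LL_poleDv h t) _))
      (LL_mono h ?_ (mem_LL_poleDv h _))
    · exact nsmul_le_nsmul_left (poleDv_nonneg t) (Nat.lt_succ_iff.1 p.1.2)
    · exact Finset.single_le_sum (f := fun j => poleDv κ (u j)) (fun j _ => poleDv_nonneg _)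
        (Finset.mem_univ _)
  have := finiteDimensional_LL h (m • poleDv κ t + E)
  have hli' : LinearIndependent κ fun p : Fin (m + 1) × Fin (finrank κ⟮t⟯ C) =>
      (⟨_, hmem p⟩ : LL (m • poleDv κ t + E)) :=
    LinearIndependent.of_comp (LL (m • poleDv κ t + E)).subtype hli
  have h1 := hli'.fintype_card_le_finrank
  rw [Fintype.card_prod, Fintype.card_fin, Fintype.card_fin] at h1
  have h2 := ell_le_add h (le_add_of_nonneg_right hE0 : m • poleDv κ t ≤ m • poleDv κ t + E)
  rw [map_add, add_sub_cancel_left] at h2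
  have h3 : (((m + 1) * finrank κ⟮t⟯ C : ℕ) : ℤ) ≤ ell (m • poleDv κ t + E) := by
    exact_mod_cast h1
  push_cast at h3
  nlinarith [Int.natCast_nonneg (finrank κ⟮t⟯ C)]

omit [IsAlgClosed κ] in
theorem adjoin_inv_eq (s : C) : κ⟮s⁻¹⟯ = κ⟮s⟯ := by
  apply le_antisymm
  · rw [adjoin_simple_le_iff]
    exact inv_mem (mem_adjoin_simple_self κ s)
  · rw [adjoin_simple_le_iff]
    have := inv_mem (mem_adjoin_simple_self κ s⁻¹)
    simpa using this

omit [IsAlgClosed κ] in
theorem adjoin_sub_eq (s : C) (b : κ) : κ⟮s - algebraMap κ C b⟯ = κ⟮s⟯ := by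
  apply le_antisymm
  · rw [adjoin_simple_le_iff]
    exact sub_mem (mem_adjoin_simple_self κ s) (IntermediateField.algebraMap_mem _ b)
  · rw [adjoin_simple_le_iff]
    have := add_mem (mem_adjoin_simple_self κ (s - algebraMap κ C b))
      (IntermediateField.algebraMap_mem κ⟮s - algebraMap κ C b⟯ b)
    simpa using this

theorem degree_poleDv (h : IsCurve κ C) {t : C} (ht : Transcendental κ t) :
    (poleDv κ t).degree = finrank κ⟮t⟯ C := by
  apply le_antisymm
  · have ht' : Transcendental κ t⁻¹ := fun h' => ht (by simpa using h'.inv)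
    have hpos : ∀ z ∈ (poleDv κ t).support, 0 < ord z.O t⁻¹ ∧ poleDv κ t z = ord z.O t⁻¹ := by
      intro z hz
      rw [Finsupp.mem_support_iff] at hz
      rw [poleDv_apply h] at hz ⊢
      rw [(place_isDVR h z).isOrd.inv]
      omega
    have h1 := sum_ord_zeros_le h ht' (poleDv κ t).support fun z hz => (hpos z hz).1
    rw [adjoin_inv_eq] at h1
    rw [Finsupp.degree_apply, Finset.sum_congr rfl fun z hz => (hpos z hz).2]
    exact h1
  · obtain ⟨c, hc⟩ := ell_poleDv_lower h ht
    by_contra hlt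
    push Not at hlt
    have h1 := hc (c.toNat + 2)
    have h2 := ell_le_add h (nsmul_nonneg (poleDv_nonneg (κ := κ) t) (c.toNat + 2))
    rw [ell_zero h, map_nsmul, map_zero, nsmul_eq_mul] at h2
    have h3 := Int.self_le_toNat c
    have h4 : (0 : ℤ) ≤ c.toNat := Int.natCast_nonneg _
    push_cast at h1 h2
    nlinarith

/-- the zeros of `t - a` counted with multiplicity -/
theorem degree_zeroDv (h : IsCurve κ C) {t : C} (ht : Transcendental κ t) (a : κ) :
    (poleDv κ (t - algebraMap κ C a)⁻¹).degree = finrank κ⟮t⟯ C := by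
  have ht' : Transcendental κ (t - algebraMap κ C a)⁻¹ := by
    intro h'
    apply ht
    have := h'.inv.add (isAlgebraic_algebraMap a)
    simpa using this
  rw [degree_poleDv h ht', adjoin_inv_eq, adjoin_sub_eq]

theorem degree_pdiv (h : IsCurve κ C) (f : C) : (pdiv κ f).degree = 0 := by
  by_cases hf : Transcendental κ f
  · have hf' : Transcendental κ f⁻¹ := fun h' => hf (by simpa using h'.inv)
    rw [pdiv_eq_sub h, map_sub, degree_poleDv h hf, degree_poleDv h hf', adjoin_inv_eq, sub_self]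
  · rw [transcendental_iff_not_mem_range, not_not] at hf
    rw [(pdiv_eq_zero_iff h).2 hf, map_zero]

theorem degree_congr (h : IsCurve κ C) {D D' : Dv κ C} (hD : (D : Pic κ C) = (D' : Pic κ C)) :
    D.degree = D'.degree := by
  obtain ⟨f, -, rfl⟩ := (mk_eq_mk h).1 hD
  rw [map_add, degree_pdiv h, add_zero]

theorem ell_eq_zero_of_neg (h : IsCurve κ C) {D : Dv κ C} (hD : D.degree < 0) : ell D = 0 := by
  by_contra hne
  obtain ⟨f, hf, hf0⟩ := exists_mem_LL_of_ell_pos (Nat.pos_of_ne_zero hne)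
  have := degree_nonneg ((mem_LL' h hf0).1 hf)
  rw [map_add, degree_pdiv h] at this
  omega

theorem mk_mem_Pic0 (h : IsCurve κ C) {D : Dv κ C} :
    (D : Pic κ C) ∈ Pic0 κ C ↔ D.degree = 0 := by
  rw [mem_Pic0]
  constructor
  · rintro ⟨D', h0, e⟩
    rw [← degree_congr h e, h0]
  · exact fun h0 => ⟨D, h0, rfl⟩

end Vale.Agent.P019
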