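import Vale.Agent.P019.Curve.Approx

/-! P019, curves: Frobenius automorphisms. -/

open IntermediateField Module

namespace Vale.Agent.P019

section aux

variable {E : Type*} [Field E]

theorem frob_pow_mul_fix (G : RingAut E) {n : ℕ} {x : E} (h : (G ^ n) x = x) (m : ℕ) :
    (G ^ (n * m)) x = x := by
  induction m with
  | zero => simp
  | succ m ih => rw [Nat.mul_succ, pow_add, RingAut.mul_apply, h, ih]

/-- the elements of finite order under a ring automorphism form a subfield -/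
def frobPer (G : RingAut E) : Subfield E where
  carrier := {x | ∃ n : ℕ, 1 ≤ n ∧ (G ^ n) x = x}
  mul_mem' := by
    rintro x y ⟨n, hn, hx⟩ ⟨m, hm, hy⟩
    refine ⟨n * m, Nat.mul_pos hn hm, ?_⟩
    rw [map_mul, frob_pow_mul_fix G hx, mul_comm n m, frob_pow_mul_fix G hy]
  one_mem' := ⟨1, le_rfl, map_one _⟩
  add_mem' := by
    rintro x y ⟨n, hn, hx⟩ ⟨m, hm, hy⟩
    refine ⟨n * m, Nat.mul_pos hn hm, ?_⟩
    rw [map_add, frob_pow_mul_fix G hx, mul_comm n m, frob_pow_mul_fix G hy]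
  zero_mem' := ⟨1, le_rfl, map_zero _⟩
  neg_mem' := by
    rintro x ⟨n, hn, hx⟩
    exact ⟨n, hn, by rw [map_neg, hx]⟩
  inv_mem' := by
    rintro x ⟨n, hn, hx⟩
    exact ⟨n, hn, by rw [map_inv₀, hx]⟩

theorem frob_mem_per {G : RingAut E} {x : E} :
    x ∈ frobPer G ↔ ∃ n : ℕ, 1 ≤ n ∧ (G ^ n) x = x := Iff.rfl

theorem frob_exists_fix_finset (G : RingAut E) (hG : ∀ x, x ∈ frobPer G) {ι : Type*}
    (s : Finset ι) (x : ι → E) : ∃ n : ℕ, 1 ≤ n ∧ ∀ i ∈ s, (G ^ n) (x i) = x i := by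
  classical
  induction s using Finset.induction_on with
  | empty => exact ⟨1, le_rfl, by simp⟩
  | insert a s _ ih =>
    obtain ⟨n, hn, h1⟩ := ih
    obtain ⟨m, hm, h2⟩ := hG (x a)
    refine ⟨n * m, Nat.mul_pos hn hm, fun i hi => ?_⟩
    rcases Finset.mem_insert.1 hi with rfl | hi
    · rw [mul_comm]; exact frob_pow_mul_fix G h2 n
    · exact frob_pow_mul_fix G (h1 i hi) m

/-- extension of an automorphism fixing the structure constants of a basis -/
theorem frob_extend {K C : Type*} [Field K] [Field C] [Algebra K C] {ι : Type*} [Fintype ι]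
    (b : Basis ι K C) (σ : RingAut K) (h1 : ∀ k, σ (b.repr 1 k) = b.repr 1 k)
    (h2 : ∀ i j k, σ (b.repr (b i * b j) k) = b.repr (b i * b j) k) :
    ∃ F : RingAut C, (∀ a : K, F (algebraMap K C a) = algebraMap K C (σ a)) ∧
      ∀ i, F (b i) = b i := by
  classical
  let f : RingAut K → C → C := fun τ x => ∑ i, τ (b.repr x i) • b i
  have hrepr : ∀ τ x i, b.repr (f τ x) i = τ (b.repr x i) := fun τ x i => by
    simp only [f]
    rw [b.repr_sum_self]
  have hadd : ∀ x y, f σ (x + y) = f σ x + f σ y := fun x y => by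
    refine b.ext_elem fun i => ?_
    simp [hrepr]
  have hsmul : ∀ (a : K) x, f σ (a • x) = σ a • f σ x := fun a x => by
    refine b.ext_elem fun i => ?_
    simp [hrepr]
  have hfix : ∀ x, (∀ k, σ (b.repr x k) = b.repr x k) → f σ x = x := fun x hx => by
    refine b.ext_elem fun i => ?_
    rw [hrepr, hx]
  have hb : ∀ i, f σ (b i) = b i := fun i => hfix _ fun k => by
    rw [b.repr_self, Finsupp.single_apply]
    split_ifs <;> simp
  let g : C →+ C := AddMonoidHom.mk' (f σ) hadd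
  have hg : ∀ x, g x = f σ x := fun _ => rfl
  have hmul : ∀ x y, f σ (x * y) = f σ x * f σ y := fun x y => by
    rw [← hg, ← hg, ← hg, ← b.sum_repr x, ← b.sum_repr y, Finset.sum_mul_sum]
    simp only [map_sum]
    rw [Finset.sum_mul_sum]
    refine Finset.sum_congr rfl fun i _ => Finset.sum_congr rfl fun j _ => ?_
    rw [hg, hg, hg, smul_mul_smul_comm, hsmul, hsmul, hsmul, hb, hb, hfix _ (h2 i j), map_mul,
      smul_mul_smul_comm]
  refine ⟨{ toFun := f σ
            invFun := f σ.symm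
            left_inv := fun x => b.ext_elem fun i => by rw [hrepr, hrepr, σ.symm_apply_apply]
            right_inv := fun x => b.ext_elem fun i => by rw [hrepr, hrepr, σ.apply_symm_apply]
            map_mul' := hmul
            map_add' := hadd }, fun a => ?_, hb⟩
  change f σ (algebraMap K C a) = _
  rw [Algebra.algebraMap_eq_smul_one, hsmul, hfix _ h1, ← Algebra.algebraMap_eq_smul_one]

/-- the coefficientwise action on a rational function field -/
theorem frob_ratfunc {κ C : Type*} [Field κ] [Field C] [Algebra κ C] {t : C}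
    (ht : Transcendental κ t) (φ : RingAut κ) :
    ∃ σ : RingAut κ⟮t⟯, (∀ c : κ, σ (algebraMap κ κ⟮t⟯ c) = algebraMap κ κ⟮t⟯ (φ c)) ∧
      σ (AdjoinSimple.gen κ t) = AdjoinSimple.gen κ t := by
  let e := RatFunc.algEquivOfTranscendental t ht
  let ψ : RatFunc κ ≃+* RatFunc κ := IsFractionRing.ringEquivOfRingEquiv (Polynomial.mapEquiv φ)
  have hψ : ∀ g : Polynomial κ, ψ (algebraMap _ _ g) = algebraMap _ _ (g.map (φ : κ →+* κ)) :=
    fun g => IsFractionRing.ringEquivOfRingEquiv_algebraMap _ g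
  refine ⟨(e.symm.toRingEquiv.trans ψ).trans e.toRingEquiv, fun c => ?_, ?_⟩
  · change e (ψ (e.symm (algebraMap κ κ⟮t⟯ c))) = _
    rw [AlgEquiv.commutes, IsScalarTower.algebraMap_apply κ (Polynomial κ) (RatFunc κ), hψ,
      Polynomial.algebraMap_apply, Polynomial.map_C, RatFunc.algEquivOfTranscendental_algebraMap,
      Polynomial.aeval_C]
    rfl
  · change e (ψ (e.symm (AdjoinSimple.gen κ t))) = _
    rw [RatFunc.algEquivOfTranscendental_symm_gen, ← RatFunc.algebraMap_X, hψ, Polynomial.map_X,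
      RatFunc.algEquivOfTranscendental_algebraMap, Polynomial.aeval_X]

theorem frob_char {κ : Type*} [Field κ] (hκ : FinAlg κ) : ∃ p : ℕ, p.Prime ∧ CharP κ p := by
  obtain h | ⟨p, hp, hpk⟩ := CharP.exists' κ
  · exfalso
    obtain ⟨n, hn, h2⟩ := hκ 2 two_ne_zero
    have : (2 : ℕ) ^ n = 1 := by exact_mod_cast h2
    have := Nat.one_lt_two_pow hn.ne'
    omega
  · exact ⟨p, hp.out, hpk⟩

theorem frob_const_per {κ : Type*} [Field κ] (hκ : FinAlg κ) {p : ℕ} (hp : p.Prime) [CharP κ p]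
    (c : κ) : ∃ n : ℕ, 1 ≤ n ∧ c ^ p ^ n = c := by
  have : ExpChar κ p := ExpChar.prime hp
  by_cases hc : c = 0
  · exact ⟨1, le_rfl, by simp [hc, hp.ne_zero]⟩
  obtain ⟨N, hN, h⟩ := hκ c hc
  have hfin := (isOfFinOrder_iff_pow_eq_one.2 ⟨N, hN, h⟩).finite_powers
  have hmem : ∀ k : ℕ, c ^ p ^ k ∈ (Submonoid.powers c : Set κ) := fun k => ⟨p ^ k, rfl⟩
  obtain ⟨i, j, hij, h2⟩ := hfin.exists_lt_map_eq_of_forall_mem hmem
  refine ⟨j - i, by omega, ?_⟩
  apply iterateFrobenius_inj κ p i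
  rw [iterateFrobenius_def, iterateFrobenius_def, ← pow_mul, ← pow_add, Nat.sub_add_cancel hij.le]
  exact h2.symm

end aux

variable {κ C : Type*} [Field κ] [Field C] [Algebra κ C] [IsAlgClosed κ]

omit [IsAlgClosed κ] in
theorem frob_const_pow {q : ℕ} {F : RingAut C}
    (hF : ∀ c : κ, F (algebraMap κ C c) = algebraMap κ C (c ^ q)) (n : ℕ) (c : κ) :
    (F ^ n) (algebraMap κ C c) = algebraMap κ C (c ^ q ^ n) := by
  induction n with
  | zero => simp
  | succ n ih => rw [pow_succ', RingAut.mul_apply, ih, hF, ← pow_mul, ← pow_succ]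

omit [IsAlgClosed κ] in
theorem frob_smul_pow_mul {G X : Type*} [Group G] [MulAction G X] (F : G) {n : ℕ} {x : X}
    (h : F ^ n • x = x) (m : ℕ) : F ^ (n * m) • x = x := by
  induction m with
  | zero => simp
  | succ m ih => rw [Nat.mul_succ, pow_add, mul_smul, h, ih]

omit [IsAlgClosed κ] in
/-- powers of a Frobenius map, with a base point for the power only -/
theorem frob_pow_aux {q : ℕ} {F : SAut κ C}
    (h1 : ∃ p e : ℕ, p.Prime ∧ CharP κ p ∧ 1 ≤ e ∧ q = p ^ e)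
    (h2 : ∀ c : κ, (F : RingAut C) (algebraMap κ C c) = algebraMap κ C (c ^ q))
    (h3 : ∀ f : C, ∃ n : ℕ, 1 ≤ n ∧ ((F ^ n : SAut κ C) : RingAut C) f = f)
    (h4 : ∀ z : Place κ C, ∃ n : ℕ, 1 ≤ n ∧ F ^ n • z = z)
    (h5 : ∀ n : ℕ, 1 ≤ n → {z : Place κ C | F ^ n • z = z}.Finite)
    {n : ℕ} (hn : 1 ≤ n) (h6 : ∃ z : Place κ C, F ^ n • z = z) : IsFrob (q ^ n) (F ^ n) where
  char := by
    obtain ⟨p, e, hp, hc, he, rfl⟩ := h1
    exact ⟨p, e * n, hp, hc, Nat.mul_pos he hn, by rw [pow_mul]⟩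
  const := fun c => by
    rw [Subgroup.coe_pow]
    exact frob_const_pow h2 n c
  per := fun f => by
    obtain ⟨m, hm, h⟩ := h3 f
    refine ⟨m, hm, ?_⟩
    rw [← pow_mul, mul_comm, Subgroup.coe_pow]
    rw [Subgroup.coe_pow] at h
    exact frob_pow_mul_fix _ h n
  perP := fun z => by
    obtain ⟨m, hm, h⟩ := h4 z
    refine ⟨m, hm, ?_⟩
    rw [← pow_mul, mul_comm]
    exact frob_smul_pow_mul F h n
  fin := fun m hm => by
    rw [← pow_mul]
    exact h5 _ (Nat.mul_pos hn hm)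
  base := h6

theorem frob_perP (h : IsCurve κ C) {F : SAut κ C}
    (h3 : ∀ f : C, ∃ n : ℕ, 1 ≤ n ∧ ((F ^ n : SAut κ C) : RingAut C) f = f) (z : Place κ C) :
    ∃ n : ℕ, 1 ≤ n ∧ F ^ n • z = z := by
  obtain ⟨g, -, hg⟩ := (place_isDVR h z).isOrd.exists_eq 1
  obtain ⟨n, hn, hf⟩ := h3 g
  have hmem : ∀ k : ℕ, F ^ (n * k) • z ∈ Function.support fun w : Place κ C => ord w.O g := by
    intro k
    have h1 : ((F ^ (n * k) : SAut κ C) : RingAut C) g = g := by
      rw [Subgroup.coe_pow] at hf ⊢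
      exact frob_pow_mul_fix _ hf k
    have h2 := ord_smul (F ^ (n * k)) z g
    rw [h1, hg] at h2
    rw [Function.mem_support, h2]
    exact one_ne_zero
  obtain ⟨i, j, hij, h2⟩ := (ord_support_finite h g).exists_lt_map_eq_of_forall_mem hmem
  refine ⟨n * (j - i), Nat.mul_pos hn (by omega), ?_⟩
  apply MulAction.injective (F ^ (n * i))
  change F ^ (n * i) • F ^ (n * (j - i)) • z = F ^ (n * i) • z
  rw [← mul_smul, ← pow_add, ← mul_add, Nat.add_sub_cancel' hij.le]
  exact h2.symm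

theorem frob_fin (h : IsCurve κ C) {t : C} (ht : Transcendental κ t) {p e : ℕ} (hp : p.Prime)
    [CharP κ p] (he : 1 ≤ e) {G : SAut κ C}
    (h2 : ∀ c : κ, (G : RingAut C) (algebraMap κ C c) = algebraMap κ C (c ^ p ^ e))
    (hGt : (G : RingAut C) t = t) : {z : Place κ C | G • z = z}.Finite := by
  have : Fact p.Prime := ⟨hp⟩
  have : CharP C p := charP_of_injective_algebraMap (algebraMap κ C).injective p
  have hQ : 2 ≤ p ^ e := hp.two_le.trans (by simpa using Nat.pow_le_pow_right hp.pos he)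
  have hg : t ^ p ^ e - t ≠ 0 := by
    intro h0
    refine ht ⟨Polynomial.X ^ p ^ e - Polynomial.X, ?_, by simpa using h0⟩
    exact FiniteField.X_pow_card_sub_X_ne_zero κ (by omega)
  have ht0 : t ≠ 0 := fun h0 => ht (h0 ▸ isAlgebraic_zero)
  refine ((ord_support_finite h t).union (ord_support_finite h (t ^ p ^ e - t))).subset
    fun z hz => ?_
  have ho := (place_isDVR h z).isOrd
  by_cases htz : t ∈ z.O
  · right
    obtain ⟨c, hc⟩ := place_exists_val h z htz
    have hne : ∀ a : κ, t - algebraMap κ C a ≠ 0 := fun a h0 =>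
      ht (by rw [sub_eq_zero.1 h0]; exact isAlgebraic_algebraMap a)
    have h3 := ord_smul G z (t - algebraMap κ C c)
    rw [show G • z = z from hz, map_sub, hGt, h2] at h3
    have h4 : z.O.valuation (t - algebraMap κ C (c ^ p ^ e)) < 1 := by
      rw [ho.val_lt_one_iff (hne _), h3, ← ho.val_lt_one_iff (hne _)]
      exact hc
    have h5 : t ^ p ^ e - t = (t - algebraMap κ C c) ^ p ^ e - (t - algebraMap κ C (c ^ p ^ e)) := by
      rw [sub_pow_char_pow, map_pow]; ring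
    have h6 : z.O.valuation (t ^ p ^ e - t) < 1 := by
      rw [h5]
      refine Valuation.map_sub_lt _ ?_ h4
      rw [map_pow]
      exact pow_lt_one₀ zero_le hc (by omega)
    rw [ho.val_lt_one_iff hg] at h6
    exact h6.ne'
  · left
    rw [ho.mem_iff ht0] at htz
    rw [Function.mem_support]
    omega

theorem exists_isFrob (h : IsCurve κ C) (hκ : FinAlg κ) :
    ∃ (q : ℕ) (F : SAut κ C), IsFrob q F := by
  obtain ⟨p, hp, hc⟩ := frob_char hκ
  have : ExpChar κ p := ExpChar.prime hp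
  obtain ⟨t, ht⟩ := h.exists_transcendental
  have := h.finiteDimensional ht
  obtain ⟨σ, hσ1, hσ2⟩ := frob_ratfunc ht (frobeniusEquiv κ p)
  have hσc : ∀ c : κ, σ (algebraMap κ κ⟮t⟯ c) = algebraMap κ κ⟮t⟯ (c ^ p) := hσ1
  have hσper : ∀ a, a ∈ frobPer σ := by
    have hk : ∀ c : κ, algebraMap κ κ⟮t⟯ c ∈ frobPer σ := fun c => by
      obtain ⟨n, hn, h1⟩ := frob_const_per hκ hp c
      exact ⟨n, hn, by rw [frob_const_pow hσc, h1]⟩
    rintro ⟨a, ha⟩
    induction ha using adjoin_induction with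
    | mem x hx =>
      obtain rfl : x = t := hx
      exact ⟨1, le_rfl, by rw [pow_one]; exact hσ2⟩
    | algebraMap c => exact hk c
    | add x y hx hy h1 h2 => exact add_mem h1 h2
    | inv x hx h1 => exact inv_mem h1
    | mul x y hx hy h1 h2 => exact mul_mem h1 h2
  let b := Module.finBasis κ⟮t⟯ C
  obtain ⟨N1, hN1, h1⟩ := frob_exists_fix_finset σ hσper Finset.univ fun k => b.repr 1 k
  obtain ⟨N2, hN2, h2⟩ := frob_exists_fix_finset σ hσper Finset.univ
    fun k : _ × _ × _ => b.repr (b k.1 * b k.2.1) k.2.2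
  obtain ⟨F, hF1, hF2⟩ := frob_extend b (σ ^ (N1 * N2))
    (fun k => frob_pow_mul_fix σ (h1 k (Finset.mem_univ _)) N2)
    fun i j k => by
      rw [mul_comm N1]
      exact frob_pow_mul_fix σ (h2 (i, j, k) (Finset.mem_univ _)) N1
  set N := N1 * N2 with hN
  have hN0 : 1 ≤ N := Nat.mul_pos hN1 hN2
  have hFc : ∀ c : κ, F (algebraMap κ C c) = algebraMap κ C (c ^ p ^ N) := fun c => by
    rw [IsScalarTower.algebraMap_apply κ κ⟮t⟯ C, hF1, frob_const_pow hσc,
      ← IsScalarTower.algebraMap_apply]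
  have hFt : F t = t := by
    have h3 : (σ ^ N) (AdjoinSimple.gen κ t) = AdjoinSimple.gen κ t := by
      have := frob_pow_mul_fix σ (n := 1) (by rw [pow_one]; exact hσ2) N
      rwa [one_mul] at this
    have := hF1 (AdjoinSimple.gen κ t)
    rwa [h3] at this
  have hFS : F ∈ SAut κ C := fun x => by
    constructor
    · rintro ⟨d, hd⟩
      obtain ⟨c, rfl⟩ := IsAlgClosed.exists_pow_nat_eq d (pow_pos hp.pos N)
      rw [← hFc] at hd
      exact ⟨c, F.injective hd⟩
    · rintro ⟨c, rfl⟩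
      exact ⟨_, (hFc c).symm⟩
  have hFK : ∀ (n : ℕ) (a : κ⟮t⟯),
      (F ^ n) (algebraMap κ⟮t⟯ C a) = algebraMap κ⟮t⟯ C ((σ ^ (N * n)) a) := by
    intro n a
    induction n with
    | zero => simp
    | succ n ih =>
      rw [pow_succ', RingAut.mul_apply, ih, hF1, ← RingAut.mul_apply, ← pow_add, Nat.mul_succ,
        add_comm]
  have hper : ∀ f, f ∈ frobPer F := fun f => by
    rw [← b.sum_repr f]
    refine sum_mem fun i _ => ?_
    rw [Algebra.smul_def]
    refine mul_mem ?_ ⟨1, le_rfl, by rw [pow_one]; exact hF2 i⟩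
    obtain ⟨n, hn, h3⟩ := hσper (b.repr f i)
    exact ⟨n, hn, by rw [hFK, mul_comm N, frob_pow_mul_fix σ h3]⟩
  have h3 : ∀ f : C, ∃ n : ℕ, 1 ≤ n ∧ (((⟨F, hFS⟩ : SAut κ C) ^ n : SAut κ C) : RingAut C) f = f :=
    fun f => by
      obtain ⟨n, hn, h3⟩ := hper f
      exact ⟨n, hn, by rw [Subgroup.coe_pow]; exact h3⟩
  have h4 := frob_perP h h3
  have h5 : ∀ n : ℕ, 1 ≤ n → {z : Place κ C | (⟨F, hFS⟩ : SAut κ C) ^ n • z = z}.Finite := by
    intro n hn
    refine frob_fin h ht hp (e := N * n) (Nat.mul_pos hN0 hn) (fun c => ?_) ?_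
    · rw [Subgroup.coe_pow, pow_mul]
      exact frob_const_pow hFc n c
    · rw [Subgroup.coe_pow]
      have := frob_pow_mul_fix F (n := 1) (by rw [pow_one]; exact hFt) n
      rwa [one_mul] at this
  obtain ⟨z, -⟩ := place_exists_zero ht
  obtain ⟨n, hn, hz⟩ := h4 z
  exact ⟨_, _, frob_pow_aux ⟨p, N, hp, hc, hN0, rfl⟩ hFc h3 h4 h5 hn ⟨z, hz⟩⟩

omit [IsAlgClosed κ] in
theorem IsFrob.pow {q : ℕ} {F : SAut κ C} (hF : IsFrob q F) {n : ℕ} (hn : 1 ≤ n) :
    IsFrob (q ^ n) (F ^ n) := by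
  refine frob_pow_aux hF.char hF.const hF.per hF.perP hF.fin hn ?_
  obtain ⟨z, hz⟩ := hF.base
  have := frob_smul_pow_mul F (n := 1) (by rw [pow_one]; exact hz) n
  exact ⟨z, by rwa [one_mul] at this⟩

omit [IsAlgClosed κ] in
theorem IsFrob.perDv {q : ℕ} {F : SAut κ C} (hF : IsFrob q F) (D : Dv κ C) :
    ∃ n : ℕ, 1 ≤ n ∧ F ^ n • D = D := by
  induction D using Finsupp.induction_linear with
  | zero => exact ⟨1, le_rfl, smul_zero _⟩
  | add D D' h1 h2 =>
    obtain ⟨n, hn, h1⟩ := h1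
    obtain ⟨m, hm, h2⟩ := h2
    refine ⟨n * m, Nat.mul_pos hn hm, ?_⟩
    rw [smul_add, frob_smul_pow_mul F h1, mul_comm, frob_smul_pow_mul F h2]
  | single z a =>
    obtain ⟨n, hn, h⟩ := hF.perP z
    exact ⟨n, hn, by rw [smul_Dv_single, h]⟩

omit [IsAlgClosed κ] in
theorem IsFrob.two_le {q : ℕ} {F : SAut κ C} (hF : IsFrob q F) : 2 ≤ q := by
  obtain ⟨p, e, hp, -, he, rfl⟩ := hF.char
  exact hp.two_le.trans (by simpa using Nat.pow_le_pow_right hp.pos he)

omit [IsAlgClosed κ] in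
theorem IsFrob.coprime {q : ℕ} {F : SAut κ C} (hF : IsFrob q F) {ℓ : ℕ} (hℓ : ℓ.Prime)
    (hℓκ : (ℓ : κ) ≠ 0) : ℓ.Coprime q := by
  obtain ⟨p, e, hp, hc, -, rfl⟩ := hF.char
  refine Nat.Coprime.pow_right _ ((Nat.coprime_primes hℓ hp).2 ?_)
  rintro rfl
  exact hℓκ (CharP.cast_eq_zero κ ℓ)

end Vale.Agent.P019
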