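import Vale.Agent.P019.Curve.Degree

/-! P019, curves: upper bound for the genus of a plane model. -/

open IntermediateField Module

namespace Vale.Agent.P019

variable {κ C : Type*} [Field κ] [Field C] [Algebra κ C] [IsAlgClosed κ]

open Polynomial

omit [IsAlgClosed κ] in
theorem genusUp_model {σ θ : C} {f : κ[X][X]} (hf : f.Monic)
    (hroot : f.eval₂ (aeval σ : κ[X] →ₐ[κ] C).toRingHom θ = 0) (htop : adjoin κ {σ, θ} = ⊤) :
    IsIntegral κ⟮σ⟯ θ ∧ κ⟮σ⟯⟮θ⟯ = ⊤ ∧ (minpoly κ⟮σ⟯ θ).natDegree ≤ f.natDegree := by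
  let φ : κ[X] →+* κ⟮σ⟯ := (aeval (AdjoinSimple.gen κ σ) : κ[X] →ₐ[κ] κ⟮σ⟯).toRingHom
  have h1 : (algebraMap κ⟮σ⟯ C).comp φ = (aeval σ : κ[X] →ₐ[κ] C).toRingHom := by
    refine RingHom.ext fun p => ?_
    change algebraMap κ⟮σ⟯ C (aeval (AdjoinSimple.gen κ σ) p) = aeval σ p
    rw [← aeval_algebraMap_apply, AdjoinSimple.algebraMap_gen]
  have h2 : aeval θ (f.map φ) = 0 := by rw [aeval_def, eval₂_map, h1, hroot]
  refine ⟨⟨f.map φ, hf.map φ, h2⟩, ?_, ?_⟩
  · apply restrictScalars_injective κ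
    rw [adjoin_simple_adjoin_simple, htop, restrictScalars_top]
  · exact (natDegree_le_natDegree (minpoly.min _ θ (hf.map φ) h2)).trans natDegree_map_le

omit [IsAlgClosed κ] in
theorem isCurve_of_model {σ θ : C} {f : κ[X][X]} (hσ : Transcendental κ σ) (hf : f.Monic)
    (hroot : f.eval₂ (aeval σ : κ[X] →ₐ[κ] C).toRingHom θ = 0) (htop : adjoin κ {σ, θ} = ⊤) :
    IsCurve κ C := by
  obtain ⟨h1, h2, -⟩ := genusUp_model hf hroot htop
  have h3 := adjoin.finiteDimensional h1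
  rw [h2] at h3
  have : FiniteDimensional κ⟮σ⟯ C := topEquiv.toLinearEquiv.finiteDimensional
  exact isCurve_of_finite hσ

theorem genusUp_nonneg (h : IsCurve κ C) (t : C) : (0 : Dv κ C) ≤ poleDv κ t := fun z => by
  rw [poleDv_apply h]
  exact le_max_right _ _

theorem genusUp_mono (h : IsCurve κ C) (t : C) {a b : ℕ} (hab : a ≤ b) :
    LL (a • poleDv κ t) ≤ LL (b • poleDv κ t) :=
  LL_mono h (nsmul_le_nsmul_left (genusUp_nonneg h t) hab)

theorem genusUp_aeval (h : IsCurve κ C) (t : C) {δ : ℕ} {q : κ[X]} (hq : q.natDegree ≤ δ) :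
    aeval t q ∈ LL (δ • poleDv κ t) := by
  rw [aeval_eq_sum_range]
  exact Submodule.sum_mem _ fun i hi => Submodule.smul_mem _ _ (genusUp_mono h t
    ((Nat.lt_succ_iff.1 (Finset.mem_range.1 hi)).trans hq) (pow_mem_LL h (mem_LL_poleDv h t) i))

theorem genusUp_mem (h : IsCurve κ C) {δ : ℕ} {σ θ : C} {f : κ[X][X]} (hf : f.Monic)
    (hδ : ∀ i, (f.coeff i).natDegree ≤ δ)
    (hroot : f.eval₂ (aeval σ : κ[X] →ₐ[κ] C).toRingHom θ = 0) : θ ∈ LL (δ • poleDv κ σ) := by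
  by_cases h0 : θ = 0
  · rw [h0]; exact zero_mem _
  rw [mem_LL h]
  refine Or.inr fun z => ?_
  by_contra hlt
  have hd := place_isDVR h z
  have ho := hd.isOrd
  have h1 : 0 ≤ (δ • poleDv κ σ) z := nsmul_nonneg (genusUp_nonneg h σ) δ z
  obtain ⟨A, hA⟩ : ∃ A, A = (δ • poleDv κ σ) z := ⟨_, rfl⟩
  rw [eval₂_eq_sum_range, Finset.sum_range_succ, hf.coeff_natDegree, map_one, one_mul] at hroot
  have h2 : -θ ^ f.natDegree ∈ Iv z (-A + (f.natDegree - 1) * ord z.O θ) := by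
    rw [← eq_neg_of_add_eq_zero_left hroot]
    refine Submodule.sum_mem _ fun i hi => (mem_Iv hd).2 ?_
    by_cases h3 : aeval σ (f.coeff i) = 0
    · exact Or.inl (mul_eq_zero_of_left h3 _)
    have h4 := ((mem_LL h).1 (genusUp_aeval h σ (hδ i))).resolve_left h3 z
    have h5 : (i : ℤ) + 1 ≤ f.natDegree := by exact_mod_cast Finset.mem_range.1 hi
    refine Or.inr (le_of_le_of_eq ?_ (ho.mul h3 (pow_ne_zero i h0)).symm)
    rw [ho.pow]
    rw [← hA] at h4 hlt h1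
    nlinarith
  have h3 := ((mem_Iv hd).1 h2).resolve_left (neg_ne_zero.2 (pow_ne_zero _ h0))
  rw [ho.neg, ho.pow] at h3
  rw [← hA] at hlt
  exact hlt (by linarith)

omit [IsAlgClosed κ] in
theorem genusUp_indep {σ : C} (hσ : Transcendental κ σ) (θ : C) (r : ℕ) :
    LinearIndependent κ fun p : Fin r × Fin (minpoly κ⟮σ⟯ θ).natDegree =>
      σ ^ (p.1 : ℕ) * θ ^ (p.2 : ℕ) := by
  have hb : LinearIndependent κ fun i : Fin r => AdjoinSimple.gen κ σ ^ (i : ℕ) := by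
    refine LinearIndependent.of_comp κ⟮σ⟯.val.toLinearMap ?_
    have h6 := ((Polynomial.basisMonomials κ).linearIndependent.map' (aeval σ).toLinearMap
      (LinearMap.ker_eq_bot.2 (transcendental_iff_injective.1 hσ))).comp
      (fun i : Fin r => (i : ℕ)) Fin.val_injective
    refine (congrArg (fun v => LinearIndependent κ v) (funext fun i => ?_)).mp h6
    simp
  refine (congrArg (fun v => LinearIndependent κ v) (funext fun p => ?_)).mp
    (linearIndependent_smul hb (linearIndependent_pow (K := κ⟮σ⟯) θ))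
  simp [Algebra.smul_def]

theorem genusUp_ell (h : IsCurve κ C) {σ θ : C} {r N δ : ℕ} (hθ : θ ∈ LL (δ • poleDv κ σ))
    (hi : LinearIndependent κ fun p : Fin (r + 1) × Fin N => σ ^ (p.1 : ℕ) * θ ^ (p.2 : ℕ)) :
    (r + 1) * N ≤ ell ((r + N * δ) • poleDv κ σ) := by
  have h7 : ∀ p, (fun p : Fin (r + 1) × Fin N => σ ^ (p.1 : ℕ) * θ ^ (p.2 : ℕ)) p
      ∈ LL ((r + N * δ) • poleDv κ σ) := by
    intro p
    have h8 := mul_mem_LL h (pow_mem_LL h (mem_LL_poleDv h σ) p.1) (pow_mem_LL h hθ p.2)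
    rw [smul_smul, ← add_nsmul] at h8
    exact genusUp_mono h σ (add_le_add (Nat.lt_succ_iff.1 p.1.2)
      (Nat.mul_le_mul_right δ p.2.2.le)) h8
  have hfin := finiteDimensional_LL h ((r + N * δ) • poleDv κ σ)
  unfold ell
  generalize LL ((r + N * δ) • poleDv κ σ) = U at h7 hfin
  generalize (fun p : Fin (r + 1) × Fin N => σ ^ (p.1 : ℕ) * θ ^ (p.2 : ℕ)) = v at hi h7
  have h9 : LinearIndependent κ fun p => (⟨v p, h7 p⟩ : U) :=
    LinearIndependent.of_comp U.subtype hi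
  have h8 := h9.fintype_card_le_finrank
  rwa [Fintype.card_prod, Fintype.card_fin, Fintype.card_fin] at h8

theorem genus_le (h : IsCurve κ C) {g : ℕ} (hg : IsGenus κ C g) {n δ : ℕ} {σ θ : C} {f : κ[X][X]}
    (hσ : Transcendental κ σ) (hf : f.Monic) (hn : f.natDegree ≤ n)
    (hδ : ∀ i, (f.coeff i).natDegree ≤ δ)
    (hroot : f.eval₂ (aeval σ : κ[X] →ₐ[κ] C).toRingHom θ = 0) (htop : adjoin κ {σ, θ} = ⊤) :
    g ≤ n * n * δ := by
  obtain ⟨h1, h2, h3⟩ := genusUp_model hf hroot htop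
  have h4 := adjoin.finrank h1
  rw [h2, finrank_top'] at h4
  have h5 := minpoly.natDegree_pos h1
  have h8 := genusUp_ell h (genusUp_mem h hf hδ hroot) (genusUp_indep hσ θ (2 * g + 1))
  generalize (minpoly κ⟮σ⟯ θ).natDegree = N at h3 h4 h5 h8
  have h9 := hg.2 ((2 * g + N * δ) • poleDv κ σ)
  rw [map_nsmul, degree_poleDv h hσ, nsmul_eq_mul, h4] at h9
  generalize ell ((2 * g + N * δ) • poleDv κ σ) = l at h8 h9
  have h10 : ((2 * g + 1) * N : ℤ) ≤ l := by exact_mod_cast h8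
  have h11 : (1 : ℤ) ≤ N := by exact_mod_cast h5
  have h12 : (0 : ℤ) ≤ (2 * g + N * δ) * (N - 1) := mul_nonneg (by positivity) (by linarith)
  have h13 : (0 : ℤ) ≤ N * δ := by positivity
  have h14 := h9 (by push_cast; linarith)
  have h15 : g ≤ N * N * δ := by
    zify
    push_cast at h14
    linarith
  exact h15.trans (by gcongr <;> exact h3.trans hn)

end Vale.Agent.P019
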