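import Vale.Agent.P019.Curve.Approx

/-! P019, curves: principal divisors and Riemann-Roch spaces. -/

open IntermediateField Module

namespace Vale.Agent.P019

variable {κ C : Type*} [Field κ] [Field C] [Algebra κ C] [IsAlgClosed κ]

theorem pdiv_apply (h : IsCurve κ C) (f : C) (z : Place κ C) : pdiv κ f z = ord z.O f :=
  pdiv_apply_of_finite (ord_support_finite h f) z

theorem poleDv_apply (h : IsCurve κ C) (f : C) (z : Place κ C) :
    poleDv κ f z = max (-ord z.O f) 0 := by
  rw [poleDv, Finsupp.sup_apply, Finsupp.neg_apply, pdiv_apply h]; rfl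

theorem pdiv_mul (h : IsCurve κ C) {f g : C} (hf : f ≠ 0) (hg : g ≠ 0) :
    pdiv κ (f * g) = pdiv κ f + pdiv κ g := by
  ext z
  simp only [Finsupp.add_apply, pdiv_apply h, (place_isDVR h z).isOrd.mul hf hg]

theorem pdiv_inv (h : IsCurve κ C) (f : C) : pdiv κ f⁻¹ = -pdiv κ f := by
  ext z
  simp only [Finsupp.neg_apply, pdiv_apply h, (place_isDVR h z).isOrd.inv]

theorem pdiv_pow (h : IsCurve κ C) (f : C) (n : ℕ) : pdiv κ (f ^ n) = n • pdiv κ f := by
  ext z
  simp only [Finsupp.smul_apply, pdiv_apply h, (place_isDVR h z).isOrd.pow, nsmul_eq_mul]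

theorem pdiv_const (h : IsCurve κ C) (c : κ) : pdiv κ (algebraMap κ C c) = 0 := by
  ext z
  simp only [pdiv_apply h, (place_isDVR h z).isOrd.const z.triv, Finsupp.coe_zero, Pi.zero_apply]

theorem pdiv_eq_zero_iff (h : IsCurve κ C) {f : C} :
    pdiv κ f = 0 ↔ f ∈ Set.range (algebraMap κ C) := by
  constructor
  · intro h0
    refine const_of_no_pole h fun z => ?_
    by_cases hf : f = 0
    · rw [hf]; exact zero_mem _
    rw [(place_isDVR h z).isOrd.mem_iff hf, ← pdiv_apply h, h0]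
    exact le_rfl
  · rintro ⟨c, rfl⟩
    exact pdiv_const h c

theorem pdiv_eq_iff (h : IsCurve κ C) {f g : C} (hf : f ≠ 0) (hg : g ≠ 0) :
    pdiv κ f = pdiv κ g ↔ ∃ c : κ, c ≠ 0 ∧ f = c • g := by
  constructor
  · intro e
    have : pdiv κ (f * g⁻¹) = 0 := by
      rw [pdiv_mul h hf (inv_ne_zero hg), pdiv_inv h, e, add_neg_cancel]
    obtain ⟨c, hc⟩ := (pdiv_eq_zero_iff h).1 this
    have e2 : f = c • g := by rw [Algebra.smul_def, hc, inv_mul_cancel_right₀ hg]
    refine ⟨c, ?_, e2⟩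
    rintro rfl
    exact hf (by rw [e2, zero_smul])
  · rintro ⟨c, hc, rfl⟩
    rw [Algebra.smul_def, pdiv_mul h (by simpa using hc) hg, pdiv_const h, zero_add]

theorem pdiv_eq_sub (h : IsCurve κ C) (f : C) : pdiv κ f = poleDv κ f⁻¹ - poleDv κ f := by
  ext z
  simp only [Finsupp.sub_apply, poleDv_apply h, pdiv_apply h, (place_isDVR h z).isOrd.inv]
  omega

theorem mem_Prin (h : IsCurve κ C) {D : Dv κ C} :
    D ∈ Prin κ C ↔ ∃ f : C, f ≠ 0 ∧ D = pdiv κ f := by
  constructor
  · intro hD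
    induction hD using AddSubgroup.closure_induction with
    | mem x hx => exact hx
    | zero => exact ⟨1, one_ne_zero, by rw [← map_one (algebraMap κ C), pdiv_const h]⟩
    | add x y _ _ hx hy =>
      obtain ⟨f, hf, rfl⟩ := hx
      obtain ⟨g, hg, rfl⟩ := hy
      exact ⟨f * g, mul_ne_zero hf hg, (pdiv_mul h hf hg).symm⟩
    | neg x _ hx =>
      obtain ⟨f, hf, rfl⟩ := hx
      exact ⟨f⁻¹, inv_ne_zero hf, (pdiv_inv h f).symm⟩
  · exact fun hD => AddSubgroup.subset_closure hD

theorem mk_eq_mk (h : IsCurve κ C) {D D' : Dv κ C} :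
    (D : Pic κ C) = (D' : Pic κ C) ↔ ∃ f : C, f ≠ 0 ∧ D' = D + pdiv κ f := by
  rw [QuotientAddGroup.eq, mem_Prin h]
  refine exists_congr fun f => and_congr_right fun _ => ?_
  rw [neg_add_eq_iff_eq_add]

theorem mem_LL (h : IsCurve κ C) {D : Dv κ C} {f : C} :
    f ∈ LL D ↔ f = 0 ∨ ∀ z, -D z ≤ ord z.O f := by
  rw [LL, Submodule.mem_iInf]
  constructor
  · intro hf
    by_cases h0 : f = 0
    · exact Or.inl h0
    · exact Or.inr fun z => ((mem_Iv (place_isDVR h z)).1 (hf z)).resolve_left h0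
  · rintro (rfl | hf) z
    · exact zero_mem _
    · exact (mem_Iv (place_isDVR h z)).2 (Or.inr (hf z))

theorem mem_LL' (h : IsCurve κ C) {D : Dv κ C} {f : C} (hf : f ≠ 0) :
    f ∈ LL D ↔ 0 ≤ D + pdiv κ f := by
  rw [mem_LL h, or_iff_right hf, Finsupp.le_def]
  refine forall_congr' fun z => ?_
  simp only [Finsupp.add_apply, pdiv_apply h, Finsupp.coe_zero, Pi.zero_apply]
  omega

theorem LL_mono (h : IsCurve κ C) {D D' : Dv κ C} (hD : D ≤ D') : LL D ≤ LL D' := by
  intro f hf
  rw [mem_LL h] at hf ⊢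
  exact hf.imp_right fun hf z => (neg_le_neg (hD z)).trans (hf z)

theorem LL_inf (h : IsCurve κ C) (D D' : Dv κ C) : LL (D ⊓ D') = LL D ⊓ LL D' := by
  refine le_antisymm (le_inf (LL_mono h inf_le_left) (LL_mono h inf_le_right)) fun f hf => ?_
  obtain ⟨h1, h2⟩ := Submodule.mem_inf.1 hf
  rw [mem_LL h] at h1 h2 ⊢
  by_cases h0 : f = 0
  · exact Or.inl h0
  refine Or.inr fun z => ?_
  have h3 := h1.resolve_left h0 z
  have h4 := h2.resolve_left h0 z
  rw [Finsupp.inf_apply]
  omega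

theorem mul_mem_LL (h : IsCurve κ C) {D D' : Dv κ C} {f g : C} (hf : f ∈ LL D) (hg : g ∈ LL D') :
    f * g ∈ LL (D + D') := by
  by_cases hf0 : f = 0
  · rw [hf0, zero_mul]; exact zero_mem _
  by_cases hg0 : g = 0
  · rw [hg0, mul_zero]; exact zero_mem _
  rw [mem_LL' h hf0] at hf
  rw [mem_LL' h hg0] at hg
  rw [mem_LL' h (mul_ne_zero hf0 hg0), pdiv_mul h hf0 hg0, add_add_add_comm]
  exact add_nonneg hf hg

theorem const_mem_LL_zero (h : IsCurve κ C) (c : κ) : algebraMap κ C c ∈ LL (0 : Dv κ C) := by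
  rw [mem_LL h]
  refine Or.inr fun z => ?_
  rw [(place_isDVR h z).isOrd.const z.triv]
  simp

theorem pow_mem_LL (h : IsCurve κ C) {D : Dv κ C} {f : C} (hf : f ∈ LL D) (n : ℕ) :
    f ^ n ∈ LL (n • D) := by
  induction n with
  | zero => simpa using const_mem_LL_zero h 1
  | succ n ih => rw [pow_succ, succ_nsmul]; exact mul_mem_LL h ih hf

theorem mem_LL_poleDv (h : IsCurve κ C) (f : C) : f ∈ LL (poleDv κ f) := by
  rw [mem_LL h]
  refine Or.inr fun z => ?_
  rw [poleDv_apply h]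
  omega

theorem LL_zero (h : IsCurve κ C) : LL (0 : Dv κ C) = Submodule.span κ {(1 : C)} := by
  ext f
  rw [Submodule.mem_span_singleton]
  constructor
  · intro hf
    obtain ⟨c, hc⟩ : f ∈ Set.range (algebraMap κ C) := by
      refine const_of_no_pole h fun z => ?_
      by_cases h0 : f = 0
      · rw [h0]; exact zero_mem _
      rw [(place_isDVR h z).isOrd.mem_iff h0]
      simpa using ((mem_LL h).1 hf).resolve_left h0 z
    exact ⟨c, by rw [← hc, Algebra.smul_def, mul_one]⟩
  · rintro ⟨c, rfl⟩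
    rw [Algebra.smul_def, mul_one]
    exact const_mem_LL_zero h c

theorem LL_add_single (h : IsCurve κ C) (D : Dv κ C) (P : Place κ C) :
    ∃ y : C, LL (D + Finsupp.single P 1) ≤ LL D ⊔ Submodule.span κ {y} := by
  by_cases hle : LL (D + Finsupp.single P 1) ≤ LL D
  · exact ⟨0, hle.trans le_sup_left⟩
  obtain ⟨y, hy, hy'⟩ := Set.not_subset.1 hle
  have ho := (place_isDVR h P).isOrd
  have hy0 : y ≠ 0 := by rintro rfl; exact hy' (zero_mem _)
  have key : ∀ x ∈ LL (D + Finsupp.single P 1), x ≠ 0 → -D P ≤ ord P.O x → x ∈ LL D := by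
    intro x hx hx0 hP
    rw [mem_LL h]
    refine Or.inr fun z => ?_
    by_cases hz : z = P
    · rwa [hz]
    · have := ((mem_LL h).1 hx).resolve_left hx0 z
      rwa [Finsupp.add_apply, Finsupp.single_eq_of_ne hz, add_zero] at this
  have hlow : ∀ x ∈ LL (D + Finsupp.single P 1), x ≠ 0 → -D P - 1 ≤ ord P.O x := by
    intro x hx hx0
    have := ((mem_LL h).1 hx).resolve_left hx0 P
    rw [Finsupp.add_apply, Finsupp.single_eq_same] at this
    omega
  have hyo : ord P.O y = -D P - 1 := by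
    have h1 := hlow y hy hy0
    have h2 : ¬ -D P ≤ ord P.O y := fun h2 => hy' (key y hy hy0 h2)
    omega
  refine ⟨y, fun x hx => ?_⟩
  by_cases hx0 : x = 0
  · rw [hx0]; exact zero_mem _
  have hq : x / y ∈ P.O := by
    have := hlow x hx hx0
    rw [ho.mem_iff (div_ne_zero hx0 hy0), ho.div hx0 hy0]; omega
  obtain ⟨c, hc⟩ := place_exists_val h P hq
  have e : x - c • y = y * (x / y - algebraMap κ C c) := by
    rw [Algebra.smul_def]; field_simp
  have e2 : x = (x - c • y) + c • y := by ring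
  rw [e2]
  refine Submodule.add_mem_sup ?_ (Submodule.smul_mem _ _ (Submodule.mem_span_singleton_self y))
  by_cases h0 : x / y - algebraMap κ C c = 0
  · rw [e, h0, mul_zero]; exact zero_mem _
  refine key _ (sub_mem hx (Submodule.smul_mem _ _ hy)) (by rw [e]; exact mul_ne_zero hy0 h0) ?_
  rw [e, ho.mul hy0 h0]
  have := (ho.val_lt_one_iff h0).1 hc
  omega

theorem LL_add_nonneg (h : IsCurve κ C) (D : Dv κ C) (n : ℕ) :
    ∀ E : Dv κ C, 0 ≤ E → E.degree = n →
      ∃ T : Finset C, T.card ≤ n ∧ LL (D + E) ≤ LL D ⊔ Submodule.span κ (T : Set C) := by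
  classical
  induction n with
  | zero =>
    intro E hE hd
    have h0 : ∀ i ∈ E.support, 0 ≤ E i := fun i _ => hE i
    have h1 : ∑ i ∈ E.support, E i = 0 := hd
    rw [Finset.sum_eq_zero_iff_of_nonneg h0] at h1
    have : E = 0 := by
      ext i
      by_contra hi
      exact hi (h1 i (Finsupp.mem_support_iff.2 hi))
    exact ⟨∅, le_rfl, by rw [this, add_zero]; exact le_sup_left⟩
  | succ n ih =>
    intro E hE hd
    obtain ⟨P, hP⟩ : ∃ P, E P ≠ 0 := by
      by_contra hc
      push Not at hc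
      have : E = 0 := Finsupp.ext hc
      rw [this, map_zero] at hd
      omega
    have hE' : 0 ≤ E - Finsupp.single P 1 := by
      intro z
      have h1 : 0 ≤ E z := hE z
      simp only [Finsupp.coe_zero, Pi.zero_apply, Finsupp.sub_apply, Finsupp.single_apply]
      split_ifs with hz
      · subst hz; omega
      · omega
    obtain ⟨T, hT, hT'⟩ := ih _ hE' (by rw [map_sub, Finsupp.degree_single, hd]; push_cast; ring)
    obtain ⟨y, hy⟩ := LL_add_single h (D + (E - Finsupp.single P 1)) P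
    rw [add_assoc, sub_add_cancel] at hy
    refine ⟨insert y T, (Finset.card_insert_le _ _).trans (by omega), hy.trans (sup_le
      (hT'.trans (sup_le_sup_left (Submodule.span_mono (by simp)) _))
      (le_sup_of_le_right (Submodule.span_mono (by simp))))⟩

omit [IsAlgClosed κ] in
theorem degree_nonneg {E : Dv κ C} (hE : 0 ≤ E) : 0 ≤ E.degree :=
  Finset.sum_nonneg fun i _ => hE i

theorem finiteDimensional_LL (h : IsCurve κ C) (D : Dv κ C) : FiniteDimensional κ (LL D) := by
  have hE : (0 : Dv κ C) ≤ D ⊔ 0 := le_sup_right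
  obtain ⟨T, -, hT⟩ := LL_add_nonneg h 0 (D ⊔ 0).degree.toNat _ hE
    (Int.toNat_of_nonneg (degree_nonneg hE)).symm
  rw [zero_add, LL_zero h] at hT
  exact Submodule.finiteDimensional_of_le ((LL_mono h le_sup_left).trans hT)

theorem ell_zero (h : IsCurve κ C) : ell (0 : Dv κ C) = 1 := by
  rw [ell, LL_zero h, finrank_span_singleton one_ne_zero]

theorem ell_mono (h : IsCurve κ C) {D D' : Dv κ C} (hD : D ≤ D') : ell D ≤ ell D' := by
  have := finiteDimensional_LL h D'
  exact Submodule.finrank_mono (LL_mono h hD)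

theorem ell_le_add (h : IsCurve κ C) {D D' : Dv κ C} (hD : D ≤ D') :
    (ell D' : ℤ) ≤ ell D + (D'.degree - D.degree) := by
  have hE : (0 : Dv κ C) ≤ D' - D := sub_nonneg.2 hD
  have hn := Int.toNat_of_nonneg (degree_nonneg hE)
  obtain ⟨T, hT, hT'⟩ := LL_add_nonneg h D (D' - D).degree.toNat _ hE hn.symm
  rw [add_sub_cancel] at hT'
  have := finiteDimensional_LL h D
  have h1 : ell D' ≤ finrank κ (LL D ⊔ Submodule.span κ (T : Set C) : Submodule κ C) :=
    Submodule.finrank_mono hT'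
  have h2 := Submodule.finrank_add_le_finrank_add_finrank (LL D) (Submodule.span κ (T : Set C))
  have h3 : finrank κ (Submodule.span κ (T : Set C)) ≤ T.card := finrank_span_finset_le_card T
  rw [map_sub] at hn hT
  unfold ell at *
  omega

theorem ell_add_pdiv (h : IsCurve κ C) (D : Dv κ C) {f : C} (hf : f ≠ 0) :
    ell (D + pdiv κ f) = ell D := by
  have key : (LL (D + pdiv κ f)).map
      ((LinearEquiv.ofBijective (LinearMap.mulLeft κ f) (mulLeft_bijective₀ f hf) :
        C ≃ₗ[κ] C) : C →ₗ[κ] C) = LL D := by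
    ext x
    rw [Submodule.mem_map]
    constructor
    · rintro ⟨y, hy, rfl⟩
      change f * y ∈ _
      by_cases h0 : y = 0
      · rw [h0, mul_zero]; exact zero_mem _
      rw [mem_LL' h h0] at hy
      rwa [mem_LL' h (mul_ne_zero hf h0), pdiv_mul h hf h0, ← add_assoc]
    · intro hx
      refine ⟨f⁻¹ * x, ?_, mul_inv_cancel_left₀ hf x⟩
      by_cases h0 : x = 0
      · rw [h0, mul_zero]; exact zero_mem _
      rw [mem_LL' h h0] at hx
      rwa [mem_LL' h (mul_ne_zero (inv_ne_zero hf) h0), pdiv_mul h (inv_ne_zero hf) h0, pdiv_inv h,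
        add_assoc, add_neg_cancel_left]
  rw [ell, ell, ← key, LinearEquiv.finrank_map_eq]

theorem ell_congr (h : IsCurve κ C) {D D' : Dv κ C} (hD : (D : Pic κ C) = (D' : Pic κ C)) :
    ell D = ell D' := by
  obtain ⟨f, hf, rfl⟩ := (mk_eq_mk h).1 hD
  rw [ell_add_pdiv h D hf]

omit [IsAlgClosed κ] in
theorem exists_mem_LL_of_ell_pos {D : Dv κ C} (hD : 0 < ell D) : ∃ f ∈ LL D, f ≠ 0 := by
  apply Submodule.exists_mem_ne_zero_of_ne_bot
  intro h0
  rw [ell, h0, finrank_bot] at hD
  exact lt_irrefl _ hD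

end Vale.Agent.P019
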