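import Vale.Agent.P019.Curve.Defs

/-! P019, curves: the algebra of zeta functions. -/

namespace Vale.Agent.P019

theorem LogRec.unique {a a' b b' : ℕ → ℂ} (h : LogRec a b) (h' : LogRec a' b')
    (hb : ∀ k, 1 ≤ k → b k = b' k) : a = a' := by
  funext m
  induction m using Nat.strong_induction_on with
  | _ m ih =>
    rcases Nat.eq_zero_or_pos m with rfl | hm
    · rw [h.1, h'.1]
    · refine mul_left_cancel₀ (Nat.cast_ne_zero.2 hm.ne' : (m : ℂ) ≠ 0) ?_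
      rw [h.2 m hm, h'.2 m hm]
      refine Finset.sum_congr rfl fun k hk => ?_
      have hk1 := (Finset.mem_Icc.1 hk).1
      rw [hb k hk1, ih (m - k) (by omega)]

namespace ZA

open Polynomial

theorem unique_b {a b b' : ℕ → ℂ} (h : LogRec a b) (h' : LogRec a b') (k : ℕ) (hk : 1 ≤ k) :
    b k = b' k := by
  induction k using Nat.strong_induction_on with
  | _ k ih =>
    have h1 := (h.2 k hk).symm.trans (h'.2 k hk)
    obtain ⟨j, rfl⟩ : ∃ j, k = j + 1 := ⟨k - 1, by omega⟩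
    rw [Finset.sum_Icc_succ_top hk, Finset.sum_Icc_succ_top hk, Nat.sub_self, h.1,
      Finset.sum_congr rfl (g := fun k => b' k * a (j + 1 - k)) fun k hk => by
        rw [ih k (by have := (Finset.mem_Icc.1 hk).2; omega) (Finset.mem_Icc.1 hk).1]] at h1
    simpa using h1

/-- the series without constant term -/
noncomputable def sb (b : ℕ → ℂ) : PowerSeries ℂ := PowerSeries.mk fun k => if k = 0 then 0 else b k

theorem coeff_sb_mul (a b : ℕ → ℂ) (m : ℕ) :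
    PowerSeries.coeff m (sb b * PowerSeries.mk a) = ∑ k ∈ Finset.Icc 1 m, b k * a (m - k) := by
  rw [PowerSeries.coeff_mul, Finset.Nat.sum_antidiagonal_eq_sum_range_succ_mk,
    Finset.range_eq_Ico, Finset.sum_eq_sum_Ico_succ_bot (Nat.succ_pos m)]
  simp only [sb, PowerSeries.coeff_mk, if_true, zero_mul, zero_add]
  refine Finset.sum_congr rfl fun k hk => ?_
  rw [if_neg (by have := (Finset.mem_Ico.1 hk).1; omega)]

theorem coeff_X_d (a : ℕ → ℂ) (m : ℕ) :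
    PowerSeries.coeff m (PowerSeries.X * PowerSeries.derivative ℂ (PowerSeries.mk a)) =
      m * a m := by
  cases m with
  | zero => simp
  | succ m =>
    rw [PowerSeries.coeff_succ_X_mul, PowerSeries.coeff_derivative, PowerSeries.coeff_mk]
    push_cast
    ring

theorem lr_iff {a b : ℕ → ℂ} : LogRec a b ↔ a 0 = 1 ∧
    PowerSeries.X * PowerSeries.derivative ℂ (PowerSeries.mk a) = sb b * PowerSeries.mk a := by
  refine and_congr_right fun _ => ⟨fun h => ?_, fun h m _ => ?_⟩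
  · ext m
    rw [coeff_X_d, coeff_sb_mul]
    rcases Nat.eq_zero_or_pos m with rfl | hm
    · simp
    · exact h m hm
  · rw [← coeff_X_d, h, coeff_sb_mul]

/-- multiplication of a series by `1 - α X` -/
def dl (α : ℂ) (a : ℕ → ℂ) : ℕ → ℂ
  | 0 => a 0
  | m + 1 => a (m + 1) - α * a m

theorem mk_dl (α : ℂ) (a : ℕ → ℂ) :
    PowerSeries.mk (dl α a) = (1 - PowerSeries.C α * PowerSeries.X) * PowerSeries.mk a := by
  ext m
  rw [sub_mul, one_mul, map_sub, mul_assoc, PowerSeries.coeff_C_mul]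
  cases m with
  | zero => simp [dl]
  | succ m => simp [dl, PowerSeries.coeff_succ_X_mul]

theorem geo (α : ℂ) : (1 - PowerSeries.C α * PowerSeries.X) * sb (fun k => α ^ k) =
    PowerSeries.C α * PowerSeries.X := by
  rw [sb, ← mk_dl]
  ext m
  rw [PowerSeries.coeff_C_mul, PowerSeries.coeff_X, PowerSeries.coeff_mk]
  match m with
  | 0 => simp [dl]
  | 1 => simp [dl]
  | m + 2 => simp [dl, pow_succ']

theorem lr_dl {a b : ℕ → ℂ} (h : LogRec a b) (α : ℂ) : LogRec (dl α a) fun k => b k - α ^ k := by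
  obtain ⟨h0, h1⟩ := lr_iff.1 h
  refine lr_iff.2 ⟨h0, ?_⟩
  have h2 : sb (fun k => b k - α ^ k) = sb b - sb fun k => α ^ k := by
    ext m
    simp only [sb, map_sub, PowerSeries.coeff_mk]
    split_ifs <;> simp
  have h3 : PowerSeries.derivative ℂ (1 - PowerSeries.C α * PowerSeries.X : PowerSeries ℂ) =
      -PowerSeries.C α := by
    simp [Derivation.leibniz]
  rw [mk_dl, h2, Derivation.leibniz, h3, smul_eq_mul, smul_eq_mul]
  linear_combination (1 - PowerSeries.C α * PowerSeries.X) * h1 + PowerSeries.mk a * geo α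

/-- `∏ (1 - α X)` -/
noncomputable def pp (s : Multiset ℂ) : ℂ[X] := (s.map fun α => 1 - C α * X).prod

/-- power sums -/
noncomputable def ps (s : Multiset ℂ) (k : ℕ) : ℂ := (s.map fun α => α ^ k).sum

theorem pp_cons (α : ℂ) (s : Multiset ℂ) : pp (α ::ₘ s) = (1 - C α * X) * pp s := by
  simp [pp]

theorem coeff_pp_cons (α : ℂ) (s : Multiset ℂ) : (pp (α ::ₘ s)).coeff = dl α (pp s).coeff := by
  funext m
  rw [pp_cons, sub_mul, one_mul, coeff_sub, mul_assoc, coeff_C_mul]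
  cases m with
  | zero => simp [dl]
  | succ m => simp [dl, coeff_X_mul]

theorem lr_congr {a b b' : ℕ → ℂ} (h : LogRec a b) (hb : ∀ k, 1 ≤ k → b k = b' k) : LogRec a b' :=
  ⟨h.1, fun m hm => (h.2 m hm).trans (Finset.sum_congr rfl fun k hk => by
    rw [hb k (Finset.mem_Icc.1 hk).1])⟩

theorem lr_pp (s : Multiset ℂ) : LogRec (pp s).coeff fun k => -ps s k := by
  induction s using Multiset.induction_on with
  | empty =>
    refine ⟨by simp [pp], fun m hm => ?_⟩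
    simp [pp, ps, coeff_one, show m ≠ 0 by omega]
  | cons α s ih =>
    rw [coeff_pp_cons]
    exact lr_congr (lr_dl ih α) fun k _ => by simp [ps]; ring

theorem pp_top (s : Multiset ℂ) : (∀ m, s.card < m → (pp s).coeff m = 0) ∧
    (pp s).coeff s.card = (s.map fun α => -α).prod := by
  induction s using Multiset.induction_on with
  | empty => exact ⟨fun m hm => by simp [pp, coeff_one, show m ≠ 0 by simpa using hm.ne'], by
      simp [pp]⟩
  | cons α s ih =>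
    rw [coeff_pp_cons, Multiset.card_cons]
    refine ⟨fun m hm => ?_, ?_⟩
    · obtain ⟨j, rfl⟩ : ∃ j, m = j + 1 := ⟨m - 1, by omega⟩
      rw [dl, ih.1 _ (by omega), ih.1 _ (by omega), mul_zero, sub_zero]
    · rw [dl, ih.1 _ (by omega), ih.2]
      simp

theorem exists_pp (ρ : ℕ) : ∀ P : ℂ[X], P.coeff 0 = 1 → P.natDegree ≤ ρ →
    ∃ s : Multiset ℂ, s.card = ρ ∧ pp s = P := by
  induction ρ with
  | zero =>
    intro P h0 h
    refine ⟨0, rfl, ?_⟩
    rw [eq_C_of_natDegree_le_zero h, h0]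
    simp [pp]
  | succ ρ ih =>
    intro P h0 h
    by_cases h1 : P.natDegree ≤ ρ
    · obtain ⟨s, hs, e⟩ := ih P h0 h1
      exact ⟨0 ::ₘ s, by simp [hs], by simp [pp_cons, e]⟩
    · have h2 : P.degree ≠ 0 := fun h2 => h1 (by rw [natDegree_eq_zero_iff_degree_le_zero.2 h2.le]; omega)
      obtain ⟨z, hz⟩ := IsAlgClosed.exists_root P h2
      have hz0 : z ≠ 0 := by
        rintro rfl
        rw [IsRoot, ← coeff_zero_eq_eval_zero, h0] at hz
        exact one_ne_zero hz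
      obtain ⟨R, rfl⟩ := dvd_iff_isRoot.2 hz
      have hR : R ≠ 0 := by
        rintro rfl
        simp at h0
      rw [natDegree_mul (X_sub_C_ne_zero z) hR, natDegree_X_sub_C] at h
      obtain ⟨s, hs, e⟩ := ih (C (-z) * R) (by simpa using h0)
        ((natDegree_C_mul_le _ _).trans (by omega))
      refine ⟨z⁻¹ ::ₘ s, by simp [hs], ?_⟩
      have h3 : C z⁻¹ * C z = (1 : ℂ[X]) := by rw [← C_mul, inv_mul_cancel₀ hz0, C_1]
      rw [pp_cons, e, C_neg]
      linear_combination X * R * h3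

theorem exists_pp' {a : ℕ → ℂ} {ρ : ℕ} (h0 : a 0 = 1) (h : ∀ m, ρ < m → a m = 0) :
    ∃ s : Multiset ℂ, s.card = ρ ∧ (pp s).coeff = a := by
  have h1 : (PowerSeries.trunc (ρ + 1) (PowerSeries.mk a)).coeff = a := by
    funext m
    rw [PowerSeries.coeff_trunc, PowerSeries.coeff_mk]
    split_ifs with hm
    · rfl
    · exact (h m (by omega)).symm
  obtain ⟨s, hs, e⟩ := exists_pp ρ (PowerSeries.trunc (ρ + 1) (PowerSeries.mk a)) (by rw [h1, h0])
    (natDegree_le_iff_coeff_eq_zero.2 fun m hm => by rw [h1, h m hm])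
  exact ⟨s, hs, by rw [e, h1]⟩

theorem ps_map (s : Multiset ℂ) (r k : ℕ) : ps (s.map fun α => α ^ r) k = ps s (r * k) := by
  simp [ps, pow_mul]

/-- passing to the `r`-th powers of the inverse roots -/
theorem pow_roots {a' b b' : ℕ → ℂ} {s : Multiset ℂ} (h : LogRec (pp s).coeff b)
    (h' : LogRec a' b') {r : ℕ} (hr : 1 ≤ r) (hb : ∀ k, 1 ≤ k → b (r * k) = b' k) :
    a' = (pp (s.map fun α => α ^ r)).coeff :=
  h'.unique (lr_pp _) fun k hk => by
    rw [← hb k hk, ps_map, unique_b h (lr_pp s) _ (Nat.mul_pos hr hk)]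

theorem integral_of_pp {s : Multiset ℂ} (h : ∀ m, ∃ z : ℤ, (z : ℂ) = (pp s).coeff m) {α : ℂ}
    (hα : α ∈ s) : IsIntegral ℤ α := by
  by_cases h0 : α = 0
  · rw [h0]
    exact isIntegral_zero
  obtain ⟨P, hP⟩ := (mem_lifts (f := algebraMap ℤ ℂ) (pp s)).1
    ((lifts_iff_coeff_lifts _).2 fun m => h m)
  have h1 : P.coeff 0 = 1 := by
    have h2 := (lr_pp s).1
    rw [← hP, coeff_map] at h2
    simpa using h2
  refine ⟨P.reverse, ?_, ?_⟩
  · rw [Monic, reverse_leadingCoeff, trailingCoeff, natTrailingDegree_eq_zero.2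
      (Or.inr (by rw [h1]; exact one_ne_zero)), h1]
  · let := invertibleOfNonzero (inv_ne_zero h0)
    have h2 := eval₂_reverse_eq_zero_iff (algebraMap ℤ ℂ) α⁻¹ P
    rw [invOf_eq_inv, inv_inv] at h2
    rw [h2, eval₂_eq_eval_map, hP]
    obtain ⟨t, rfl⟩ := Multiset.exists_cons_of_mem hα
    simp [pp_cons, h0]

theorem sum_dl (a : ℕ → ℂ) (M : ℕ) : ∑ m ∈ Finset.range (M + 1), dl 1 a m = a M := by
  induction M with
  | zero => simp [dl]
  | succ M ih => rw [Finset.sum_range_succ, ih, dl]; ring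

theorem eval_pp (s : Multiset ℂ) : ∑ m ∈ Finset.range (s.card + 1), (pp s).coeff m =
    (s.map fun α => 1 - α).prod := by
  have h1 := eval_eq_sum_range' (p := pp s) (n := s.card + 1)
    (Nat.lt_succ_of_le (natDegree_le_iff_coeff_eq_zero.2 (pp_top s).1)) 1
  simp only [one_pow, mul_one] at h1
  rw [← h1, pp, eval_multiset_prod]
  simp

/-- congruence to one modulo `c` in the algebraic integers -/
def One (c x : ℂ) : Prop := ∃ y, IsIntegral ℤ y ∧ x = 1 + c * y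

theorem One.one (c : ℂ) : One c 1 := ⟨0, isIntegral_zero, by simp⟩

theorem One.mul {c x x' : ℂ} (hc : IsIntegral ℤ c) (h : One c x) (h' : One c x') :
    One c (x * x') := by
  obtain ⟨y, hy, rfl⟩ := h
  obtain ⟨y', hy', rfl⟩ := h'
  exact ⟨y + y' + c * (y * y'), (hy.add hy').add (hc.mul (hy.mul hy')), by ring⟩

theorem One.pow {c x : ℂ} (hc : IsIntegral ℤ c) (h : One c x) (k : ℕ) : One c (x ^ k) := by
  induction k with
  | zero => simpa using One.one c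
  | succ k ih => rw [pow_succ]; exact ih.mul hc h

theorem int_nat (c : ℕ) : IsIntegral ℤ (c : ℂ) := by
  simpa using isIntegral_algebraMap (R := ℤ) (A := ℂ) (x := (c : ℤ))

theorem exists_pow_one {α β : ℂ} {c d : ℕ} (hα : IsIntegral ℤ α) (hβ : IsIntegral ℤ β)
    (h : α * β = d) (hc : c ≠ 0) (hcd : c.Coprime d) : ∃ n, 1 ≤ n ∧ One c (α ^ n) := by
  have := Algebra.finite_adjoin_simple_of_isIntegral hα
  have hne : Ideal.span {(c : Algebra.adjoin ℤ {α})} ≠ ⊥ := by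
    rw [Ne, Ideal.span_singleton_eq_bot]
    exact Nat.cast_ne_zero.2 hc
  have := Ideal.finiteQuotientOfFreeOfNeBot _ hne
  have key : ∀ i j : ℕ, i < j → Ideal.Quotient.mk (Ideal.span {(c : Algebra.adjoin ℤ {α})})
      (⟨α, Algebra.self_mem_adjoin_singleton ℤ α⟩ ^ j) = Ideal.Quotient.mk _
      (⟨α, Algebra.self_mem_adjoin_singleton ℤ α⟩ ^ i) → ∃ n, 1 ≤ n ∧ One c (α ^ n) := by
    intro i j hij e
    obtain ⟨y, hy⟩ := Ideal.mem_span_singleton'.1 (Ideal.Quotient.eq.1 e)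
    have hy' : (y : ℂ) * c = α ^ j - α ^ i := by simpa using congrArg Subtype.val hy
    have hyi : IsIntegral ℤ (y : ℂ) := adjoin_le_integralClosure hα y.2
    obtain ⟨n, rfl⟩ : ∃ n, j = i + n := ⟨j - i, by omega⟩
    obtain ⟨u, v, huv⟩ := Nat.isCoprime_iff_coprime.2 (hcd.pow_right i)
    have huv' : (u : ℂ) * c + v * (α * β) ^ i = 1 := by
      rw [h]
      exact_mod_cast huv
    have hu : IsIntegral ℤ (u : ℂ) := by simpa using isIntegral_algebraMap (R := ℤ) (A := ℂ) (x := u)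
    have hv : IsIntegral ℤ (v : ℂ) := by simpa using isIntegral_algebraMap (R := ℤ) (A := ℂ) (x := v)
    refine ⟨n, by omega, u * (α ^ n - 1) + v * (β ^ i * y),
      (hu.mul ((hα.pow n).sub isIntegral_one)).add (hv.mul ((hβ.pow i).mul hyi)), ?_⟩
    rw [mul_pow] at huv'
    rw [pow_add] at hy'
    linear_combination (1 - α ^ n) * huv' - v * β ^ i * hy'
  obtain ⟨i, j, hij, e⟩ := Finite.exists_ne_map_eq_of_infinite fun i : ℕ =>
    Ideal.Quotient.mk (Ideal.span {(c : Algebra.adjoin ℤ {α})})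
      (⟨α, Algebra.self_mem_adjoin_singleton ℤ α⟩ ^ i)
  rcases lt_or_gt_of_ne hij with h1 | h1
  · exact key i j h1 e.symm
  · exact key j i h1 e

theorem common {s : Multiset ℂ} {c : ℕ} (h : ∀ α ∈ s, ∃ n, 1 ≤ n ∧ One c (α ^ n)) :
    ∃ n₀, 1 ≤ n₀ ∧ ∀ n, n₀ ∣ n → ∀ α ∈ s, One c (α ^ n) := by
  induction s using Multiset.induction_on with
  | empty => exact ⟨1, le_rfl, fun _ _ _ h => absurd h (Multiset.notMem_zero _)⟩
  | cons β s ih =>
    obtain ⟨n₀, h0, h1⟩ := ih fun α hα => h α (Multiset.mem_cons_of_mem hα)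
    obtain ⟨n₁, h2, h3⟩ := h β (Multiset.mem_cons_self _ _)
    refine ⟨n₁ * n₀, Nat.mul_pos h2 h0, fun n hn α hα => ?_⟩
    rcases Multiset.mem_cons.1 hα with rfl | hα
    · obtain ⟨k, rfl⟩ := dvd_of_mul_right_dvd hn
      rw [pow_mul]
      exact h3.pow (int_nat c) k
    · exact h1 n (dvd_of_mul_left_dvd hn) α hα

theorem geom {ℓ : ℕ} {γ : ℂ} (h : One (ℓ ^ 2 : ℕ) γ) :
    ∃ x, One ℓ x ∧ 1 - γ ^ ℓ = (1 - γ) * (ℓ * x) := by
  have h1 : ∀ k : ℕ, ∃ y, IsIntegral ℤ y ∧ ∑ i ∈ Finset.range k, γ ^ i = k + ℓ ^ 2 * y := by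
    intro k
    induction k with
    | zero => exact ⟨0, isIntegral_zero, by simp⟩
    | succ k ih =>
      obtain ⟨y, hy, e⟩ := ih
      obtain ⟨y', hy', e'⟩ := h.pow (int_nat _) k
      refine ⟨y + y', hy.add hy', ?_⟩
      rw [Finset.sum_range_succ, e, e']
      push_cast
      ring
  obtain ⟨y, hy, e⟩ := h1 ℓ
  refine ⟨1 + ℓ * y, ⟨y, hy, rfl⟩, ?_⟩
  rw [← mul_neg_geom_sum, e]
  ring

theorem geom_prod {ℓ n : ℕ} {s : Multiset ℂ} (h : ∀ α ∈ s, One (ℓ ^ 2 : ℕ) (α ^ n)) :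
    ∃ x, One ℓ x ∧ (s.map fun α => 1 - α ^ (n * ℓ)).prod =
      (s.map fun α => 1 - α ^ n).prod * (ℓ ^ s.card * x) := by
  induction s using Multiset.induction_on with
  | empty => exact ⟨1, One.one _, by simp⟩
  | cons β s ih =>
    obtain ⟨x, hx, e⟩ := ih fun α hα => h α (Multiset.mem_cons_of_mem hα)
    obtain ⟨x', hx', e'⟩ := geom (h β (Multiset.mem_cons_self _ _))
    refine ⟨x * x', hx.mul (int_nat _) hx', ?_⟩
    rw [Multiset.map_cons, Multiset.prod_cons, Multiset.map_cons, Multiset.prod_cons, e, pow_mul,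
      e', Multiset.card_cons]
    ring

theorem val_eq {ℓ a b ρ : ℕ} (hℓ : ℓ.Prime) (hb : 0 < b) {x : ℂ} (hx : One ℓ x)
    (h : (a : ℂ) = b * (ℓ ^ ρ * x)) : padicValNat ℓ a = padicValNat ℓ b + ρ := by
  have := Fact.mk hℓ
  obtain ⟨y, hy, rfl⟩ := hx
  have hl : (ℓ : ℂ) ≠ 0 := Nat.cast_ne_zero.2 hℓ.ne_zero
  have hb' : (b : ℂ) ≠ 0 := Nat.cast_ne_zero.2 hb.ne'
  have e : y = algebraMap ℚ ℂ (((a : ℚ) / (b * ℓ ^ ρ) - 1) / ℓ) := by
    rw [eq_ratCast]
    push_cast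
    rw [h]
    field_simp
    ring
  rw [e, isIntegral_algebraMap_iff (algebraMap ℚ ℂ).injective] at hy
  obtain ⟨z, hz⟩ := IsIntegrallyClosed.isIntegral_iff.1 hy
  rw [← hz] at e
  have e2 : (a : ℤ) = b * (ℓ ^ ρ * (1 + ℓ * z)) := by
    have e3 : y = z := by simpa using e
    rw [e3] at h
    exact_mod_cast h
  have e3 : a = b * (ℓ ^ ρ * (1 + ℓ * z).natAbs) := by
    simpa [Int.natAbs_mul, Int.natAbs_pow] using congrArg Int.natAbs e2
  have h1 : ¬ℓ ∣ (1 + ℓ * z).natAbs := fun h1 => by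
    have h2 : (ℓ : ℤ) ∣ 1 := (dvd_add_left (dvd_mul_right _ _)).1 (Int.natCast_dvd.2 h1)
    exact hℓ.one_lt.ne' (by exact_mod_cast Int.eq_one_of_dvd_one (by positivity) h2)
  have h2 : (1 + ℓ * z).natAbs ≠ 0 := fun h2 => h1 (h2 ▸ dvd_zero _)
  have h3 : ℓ ^ ρ ≠ 0 := pow_ne_zero _ hℓ.ne_zero
  rw [e3, padicValNat.mul hb.ne' (mul_ne_zero h3 h2), padicValNat.mul h3 h2,
    padicValNat.prime_pow, padicValNat.eq_zero_of_not_dvd h1, add_zero]

end ZA

open ZA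

/-- if the series of `a` is a polynomial then so is the series attached to `k ↦ b (r k)` -/
theorem LogRec.eventually_zero {a b a' b' : ℕ → ℂ} (h : LogRec a b) (h' : LogRec a' b') {r : ℕ}
    (hr : 1 ≤ r) (hb : ∀ k, 1 ≤ k → b (r * k) = b' k) (ha : ∃ M, ∀ m, M < m → a m = 0) :
    ∃ M, ∀ m, M < m → a' m = 0 := by
  obtain ⟨M, hM⟩ := ha
  obtain ⟨s, -, rfl⟩ := exists_pp' h.1 hM
  rw [pow_roots h h' hr hb]
  exact ⟨_, (pp_top _).1⟩

theorem zeta_growth {ℓ q g m₀ : ℕ} (hℓ : ℓ.Prime) (hq : 2 ≤ q) (hℓq : ℓ.Coprime q)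
    (hg : g ≤ m₀ + 1) (N : ℕ → ℕ) (A : ℕ → ℕ → ℕ) (h : ℕ → ℕ)
    (hrec : ∀ n, 1 ≤ n → LogRec (fun m => (A n m : ℂ)) (fun k => (N (n * k) : ℂ)))
    (hpos : ∀ n, 1 ≤ n → 0 < h n)
    (hbig : ∀ n, 1 ≤ n → ∀ m, m₀ < m →
      (((q : ℤ) ^ n - 1) * A n m : ℤ) = h n * (((q : ℤ) ^ n) ^ (m + 1 - g) - 1))
    (hm₀ : ∀ n, 1 ≤ n → (((q : ℤ) ^ n - 1) * A n m₀ : ℤ) =
      h n * (((q : ℤ) ^ n) ^ (m₀ + 1 - g) - 1) + ((q : ℤ) ^ n) ^ (m₀ + 2 - g) -
        ((q : ℤ) ^ n) ^ (m₀ + 1 - g)) :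
    ∃ n₀, 1 ≤ n₀ ∧ ∀ n, 1 ≤ n → n₀ ∣ n →
      padicValNat ℓ (h (n * ℓ)) = padicValNat ℓ (h n) + (m₀ + 2) := by
  have hQ : ∀ n, 1 ≤ n → (q : ℂ) ^ n - 1 ≠ 0 := fun n hn h0 => by
    have h1 : q ^ n = 1 := by exact_mod_cast sub_eq_zero.1 h0
    have := Nat.one_lt_pow (by omega : n ≠ 0) (by omega : 1 < q)
    omega
  have hR : ∀ n, 1 ≤ n → ∀ m, m₀ < m → dl (q ^ n) (fun m => (A n m : ℂ)) (m + 1) = h n := by
    intro n hn m hm
    have h1 : ((q : ℂ) ^ n - 1) * A n m = h n * (((q : ℂ) ^ n) ^ (m + 1 - g) - 1) := by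
      exact_mod_cast hbig n hn m hm
    have h2 : ((q : ℂ) ^ n - 1) * A n (m + 1) =
        h n * (((q : ℂ) ^ n) ^ (m + 1 + 1 - g) - 1) := by
      exact_mod_cast hbig n hn (m + 1) (by omega)
    rw [show m + 1 + 1 - g = m + 1 - g + 1 by omega, pow_succ] at h2
    refine mul_left_cancel₀ (hQ n hn) ?_
    rw [dl]
    linear_combination h2 - q ^ n * h1
  have hW : ∀ n, 1 ≤ n → LogRec (dl 1 (dl (q ^ n) fun m => (A n m : ℂ)))
      fun k => (N (n * k) : ℂ) - (q ^ n) ^ k - 1 ^ k := fun n hn => lr_dl (lr_dl (hrec n hn) _) _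
  obtain ⟨s, hs, e⟩ := exists_pp' (ρ := m₀ + 2) (hW 1 le_rfl).1 fun m hm => by
    obtain ⟨j, rfl⟩ : ∃ j, m = j + 1 + 1 := ⟨m - 2, by omega⟩
    rw [dl, hR 1 le_rfl _ (by omega), hR 1 le_rfl _ (by omega)]
    ring
  have hh : ∀ n, 1 ≤ n → (h n : ℂ) = (s.map fun α => 1 - α ^ n).prod := fun n hn => by
    have h1 := pow_roots (e ▸ hW 1 le_rfl) (hW n hn) hn fun k _ => by
      simp [pow_mul]
    have h2 := eval_pp (s.map fun α => α ^ n)
    rw [← h1, sum_dl, Multiset.card_map, hs, hR n hn _ (by omega), Multiset.map_map] at h2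
    exact h2
  have hint : ∀ α ∈ s, IsIntegral ℤ α := fun α hα => by
    refine integral_of_pp (fun m => ?_) hα
    rw [e]
    match m with
    | 0 => exact ⟨A 1 0, by simp [dl]⟩
    | 1 => exact ⟨A 1 1 - q * A 1 0 - A 1 0, by simp [dl]⟩
    | m + 2 => exact ⟨A 1 (m + 2) - q * A 1 (m + 1) - (A 1 (m + 1) - q * A 1 m), by simp [dl]⟩
  have htop : (s.map fun α => -α).prod = (q ^ (m₀ + 2 - g) : ℕ) := by
    rw [← (pp_top s).2, hs, e, dl, hR 1 le_rfl _ (by omega), dl]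
    have h1 : ((q : ℂ) ^ 1 - 1) * A 1 (m₀ + 1) =
        h 1 * (((q : ℂ) ^ 1) ^ (m₀ + 1 + 1 - g) - 1) := by
      exact_mod_cast hbig 1 le_rfl (m₀ + 1) (by omega)
    have h2 : ((q : ℂ) ^ 1 - 1) * A 1 m₀ = h 1 * (((q : ℂ) ^ 1) ^ (m₀ + 1 - g) - 1) +
        ((q : ℂ) ^ 1) ^ (m₀ + 2 - g) - ((q : ℂ) ^ 1) ^ (m₀ + 1 - g) := by
      exact_mod_cast hm₀ 1 le_rfl
    refine mul_left_cancel₀ (hQ 1 le_rfl) ?_
    push_cast
    rw [show m₀ + 1 + 1 - g = m₀ + 1 - g + 1 by omega] at h1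
    rw [show m₀ + 2 - g = m₀ + 1 - g + 1 by omega] at h2 ⊢
    simp only [pow_one, pow_succ (q : ℂ) (m₀ + 1 - g)] at h1 h2 ⊢
    linear_combination q * h2 - h1
  obtain ⟨n₀, h0, h1⟩ := common (s := s) (c := ℓ ^ 2) fun α hα => by
    obtain ⟨t, rfl⟩ := Multiset.exists_cons_of_mem hα
    rw [Multiset.map_cons, Multiset.prod_cons, neg_mul, ← mul_neg] at htop
    refine exists_pow_one (hint α hα) (IsIntegral.neg (IsIntegral.multiset_prod fun x hx => ?_))
      htop (pow_ne_zero _ hℓ.ne_zero) (Nat.Coprime.pow _ _ hℓq)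
    obtain ⟨y, hy, rfl⟩ := Multiset.mem_map.1 hx
    exact (hint y (Multiset.mem_cons_of_mem hy)).neg
  refine ⟨n₀, h0, fun n hn hd => ?_⟩
  obtain ⟨x, hx, e2⟩ := geom_prod (h1 n hd)
  rw [← hh n hn, ← hh _ (Nat.mul_pos hn hℓ.pos), hs] at e2
  exact val_eq hℓ (hpos n hn) hx e2

end Vale.Agent.P019
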