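import Vale.Agent.P019.Curve.PicCount
import Vale.Agent.P019.Curve.ZetaAlg

/-! P019, curves: the norm between fixed class groups is onto. -/

open IntermediateField Module

namespace Vale.Agent.P019

variable {κ C : Type*} [Field κ] [Field C] [Algebra κ C] [IsAlgClosed κ]

namespace NormSurj

/-- invariant classes of degree zero, as a group -/
def fixG (F : SAut κ C) : AddSubgroup (Pic κ C) where
  carrier := FixPic0 F
  zero_mem' := ⟨zero_mem _, smul_zero _⟩
  add_mem' := fun ha hb => ⟨add_mem ha.1 hb.1, by rw [smul_add, ha.2, hb.2]⟩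
  neg_mem' := fun ha => ⟨neg_mem ha.1, by rw [smul_neg, ha.2]⟩

/-- the norm -/
noncomputable def nm (F : SAut κ C) (r : ℕ) : Pic κ C →+ Pic κ C :=
  ∑ j ∈ Finset.range r, DistribSMul.toAddMonoidHom (Pic κ C) (F ^ j)

omit [IsAlgClosed κ] in
theorem nm_apply (F : SAut κ C) (r : ℕ) (b : Pic κ C) :
    nm F r b = ∑ j ∈ Finset.range r, F ^ j • b := by
  rw [nm, AddMonoidHom.finsetSum_apply]
  rfl

omit [IsAlgClosed κ] in
theorem degree_orbSum (F : SAut κ C) (k : ℕ) (x : Place κ C) : (orbSum F k x).degree = k := by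
  simp [orbSum, map_sum]

omit [IsAlgClosed κ] in
theorem smul_orbSum {F : SAut κ C} {k : ℕ} {x : Place κ C} (hx : F ^ k • x = x) :
    F • (orbSum F k x : Dv κ C) = orbSum F k x := by
  have h1 := Finset.sum_range_succ (fun j => (Finsupp.single (F ^ j • x) 1 : Dv κ C)) k
  rw [Finset.sum_range_succ', pow_zero, one_smul, hx] at h1
  rw [orbSum, Finset.smul_sum, ← add_right_cancel h1]
  refine Finset.sum_congr rfl fun j _ => ?_
  rw [smul_Dv_single, pow_succ', mul_smul]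

omit [IsAlgClosed κ] in
theorem orbSum_mul (F : SAut κ C) (r k : ℕ) (x : Place κ C) :
    (orbSum F (r * k) x : Dv κ C) = ∑ j ∈ Finset.range r, F ^ j • (orbSum (F ^ r) k x : Dv κ C) := by
  induction k with
  | zero => simp [orbSum]
  | succ k ih =>
    unfold orbSum at ih ⊢
    rw [Nat.mul_succ, Finset.sum_range_add, ih, ← Finset.sum_add_distrib]
    refine Finset.sum_congr rfl fun j _ => ?_
    rw [Finset.sum_range_succ, smul_add, smul_Dv_single, ← pow_mul, ← mul_smul, ← pow_add,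
      add_comm j]

theorem mem_fix (h : IsCurve κ C) {F : SAut κ C} {z₀ : Place κ C} (hz : F • z₀ = z₀) {D : Dv κ C}
    (hD : F • D = D) : ((D - Finsupp.single z₀ D.degree : Dv κ C) : Pic κ C) ∈ fixG F := by
  refine ⟨(mk_mem_Pic0 h).2 (by simp), ?_⟩
  rw [smul_Pic_mk, smul_sub, hD, smul_Dv_single, hz]

omit [IsAlgClosed κ] in
theorem pow_fix {F : SAut κ C} {z₀ : Place κ C} (hz : F • z₀ = z₀) (j : ℕ) : F ^ j • z₀ = z₀ := by
  induction j with
  | zero => rw [pow_zero, one_smul]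
  | succ j ih => rw [pow_succ, mul_smul, hz, ih]

omit [IsAlgClosed κ] in
theorem nm_orb {F : SAut κ C} {z₀ : Place κ C} (hz : F • z₀ = z₀) (r k : ℕ) (x : Place κ C) :
    nm F r ((orbSum (F ^ r) k x - Finsupp.single z₀ (orbSum (F ^ r) k x).degree : Dv κ C) :
      Pic κ C) =
    ((orbSum F (r * k) x - Finsupp.single z₀ (orbSum F (r * k) x).degree : Dv κ C) : Pic κ C) := by
  rw [nm_apply, degree_orbSum, degree_orbSum, orbSum_mul]
  simp only [smul_Pic_mk]
  rw [← QuotientAddGroup.mk_sum]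
  congr 1
  simp only [smul_sub, smul_Dv_single, pow_fix hz, Finset.sum_sub_distrib, Finset.sum_const,
    Finset.card_range, Finsupp.smul_single, nsmul_eq_mul, Nat.cast_mul]

end NormSurj

open NormSurj in
theorem norm_surj (h : IsCurve κ C) (hκ : FinAlg κ) {g : ℕ} (hg : IsGenus κ C g) {q : ℕ}
    {F : SAut κ C} (hF : IsFrob q F) {r : ℕ} (hr : 1 ≤ r) {a : Pic κ C} (ha : a ∈ FixPic0 F) :
    ∃ b ∈ FixPic0 (F ^ r), ∑ j ∈ Finset.range r, F ^ j • b = a := by
  classical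
  by_contra hcon
  obtain ⟨z₀, hz⟩ := hF.base
  have hfin : Finite (fixG F) := (fixPic0_finite h hκ hg hF).to_subtype
  set N : AddSubgroup (fixG F) := ((fixG (F ^ r)).map (nm F r)).addSubgroupOf (fixG F) with hN
  have ha0 : ((⟨a, ha⟩ : fixG F) : fixG F ⧸ N) ≠ 0 := by
    rw [Ne, QuotientAddGroup.eq_zero_iff, hN, AddSubgroup.mem_addSubgroupOf]
    rintro ⟨b, hb, e⟩
    exact hcon ⟨b, hb, (nm_apply F r b).symm.trans e⟩
  obtain ⟨ψ, hψ⟩ := AddChar.exists_apply_ne_zero.2 ha0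
  set χ : Pic κ C → ℂ := fun x => if hx : x ∈ fixG F then ψ (⟨x, hx⟩ : fixG F) else 0 with hχ
  have hχ1 : ∀ x (hx : x ∈ fixG F), χ x = ψ (⟨x, hx⟩ : fixG F) := fun x hx => dif_pos hx
  have hχ2 : ∀ x ∈ fixG F, ∀ y ∈ fixG F, χ (x + y) = χ x * χ y := by
    intro x hx y hy
    rw [hχ1 _ (add_mem hx hy), hχ1 x hx, hχ1 y hy, ← AddChar.map_add_eq_mul]
    rfl
  have hχ3 : ∀ x ∈ fixG F, x ∈ (fixG (F ^ r)).map (nm F r) → χ x = 1 := by
    intro x hx hx'
    rw [hχ1 x hx, (QuotientAddGroup.eq_zero_iff (⟨x, hx⟩ : fixG F)).2 hx', AddChar.map_zero_eq_one]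
  have h1 := count_rec F hF.fin
    (fun D => χ ((D - Finsupp.single z₀ D.degree : Dv κ C) : Pic κ C))
    (by simpa using hχ3 0 (zero_mem _) (zero_mem _)) (by
      intro D D' hD hD'
      rw [← hχ2 _ (mem_fix h hz ((smul_Dv_eq_iff F D).2 hD)) _
        (mem_fix h hz ((smul_Dv_eq_iff F D').2 hD')), ← QuotientAddGroup.mk_add, map_add,
        Finsupp.single_add]
      congr 2
      abel)
  have hFr := hF.pow hr
  obtain ⟨M, hM⟩ := h1.eventually_zero (count_rec_card (F ^ r) hFr.fin) hr (by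
    intro k hk
    have h2 : ∀ x ∈ {x : Place κ C | F ^ (r * k) • x = x}, χ ((orbSum F (r * k) x -
        Finsupp.single z₀ (orbSum F (r * k) x).degree : Dv κ C) : Pic κ C) = 1 := by
      intro x hx
      refine hχ3 _ (mem_fix h hz (smul_orbSum hx)) ⟨_, ?_, nm_orb hz r k x⟩
      exact mem_fix h (pow_fix hz r) (smul_orbSum (by rw [← pow_mul]; exact hx))
    have h3 := hF.fin (r * k) (Nat.mul_pos hr hk)
    rw [finsum_mem_congr rfl h2, ← pow_mul, finsum_mem_eq_finite_toFinset_sum _ h3,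
      Set.ncard_eq_toFinset_card _ h3]
    simp) ⟨2 * g, fun m hm => eff_char_sum h hκ hg hF hz χ hχ2 ⟨a, ha, by rwa [hχ1 a ha]⟩ m hm.le⟩
  have h2 := hM (M + 1) (Nat.lt_succ_self M)
  rw [Nat.cast_eq_zero, Set.ncard_eq_zero (eff_finite _ hFr.fin _)] at h2
  have h3 : (Finsupp.single z₀ ((M + 1 : ℕ) : ℤ) : Dv κ C) ∈ Eff (Place κ C) (F ^ r) (M + 1) := by
    refine ⟨Finsupp.single_nonneg.2 (by positivity), (smul_Dv_eq_iff _ _).1 ?_, by simp⟩
    rw [smul_Dv_single, pow_fix hz]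
  rw [h2] at h3
  exact h3

end Vale.Agent.P019
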