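import Vale.Agent.P019.Base

/-! P019, curves: elementary API of normalized order functions. -/

namespace Vale.Agent.P019

variable {F : Type*} [Field F] {O : ValuationSubring F} {o : F → ℤ}

namespace IsOrd

theorem zero (h : IsOrd O o) : o 0 = 0 := h.1

theorem mul (h : IsOrd O o) {x y : F} (hx : x ≠ 0) (hy : y ≠ 0) : o (x * y) = o x + o y :=
  h.2.1 x y hx hy

theorem mem_iff (h : IsOrd O o) {x : F} (hx : x ≠ 0) : x ∈ O ↔ 0 ≤ o x := h.2.2.1 x hx

theorem one (h : IsOrd O o) : o 1 = 0 := by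
  have := h.mul one_ne_zero one_ne_zero
  rw [mul_one] at this
  omega

theorem inv (h : IsOrd O o) (x : F) : o x⁻¹ = -o x := by
  by_cases hx : x = 0
  · simp [hx, h.zero]
  · have := h.mul (inv_ne_zero hx) hx
    rw [inv_mul_cancel₀ hx, h.one] at this
    omega

theorem div (h : IsOrd O o) {x y : F} (hx : x ≠ 0) (hy : y ≠ 0) : o (x / y) = o x - o y := by
  rw [div_eq_mul_inv, h.mul hx (inv_ne_zero hy), h.inv, sub_eq_add_neg]

theorem pow (h : IsOrd O o) (x : F) (n : ℕ) : o (x ^ n) = n * o x := by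
  by_cases hx : x = 0
  · subst hx
    rcases n with _ | n
    · simp [h.one]
    · simp [h.zero]
  · induction n with
    | zero => simp [h.one]
    | succ n ih => rw [pow_succ, h.mul (pow_ne_zero _ hx) hx, ih]; push_cast; ring

theorem zpow (h : IsOrd O o) (x : F) (n : ℤ) : o (x ^ n) = n * o x := by
  rcases n with n | n
  · simp [h.pow]
  · rw [zpow_negSucc, h.inv, h.pow, Int.negSucc_eq]; push_cast; ring

theorem prod (h : IsOrd O o) {ι : Type*} (s : Finset ι) (x : ι → F) (hx : ∀ i ∈ s, x i ≠ 0) :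
    o (∏ i ∈ s, x i) = ∑ i ∈ s, o (x i) := by
  classical
  induction s using Finset.induction_on with
  | empty => simp [h.one]
  | insert a s ha ih =>
    rw [Finset.prod_insert ha, Finset.sum_insert ha, h.mul (hx a (by simp))
      (Finset.prod_ne_zero_iff.2 fun i hi => hx i (by simp [hi])), ih fun i hi => hx i (by simp [hi])]

theorem neg (h : IsOrd O o) (x : F) : o (-x) = o x := by
  by_cases hx : x = 0
  · simp [hx]
  · have h1 : o (-1) = 0 := by
      have := h.mul (neg_ne_zero.2 (one_ne_zero : (1 : F) ≠ 0)) (neg_ne_zero.2 one_ne_zero)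
      rw [neg_mul_neg, mul_one, h.one] at this
      omega
    have := h.mul (neg_ne_zero.2 (one_ne_zero : (1 : F) ≠ 0)) hx
    rw [neg_one_mul, h1, zero_add] at this
    exact this

theorem val_le_iff (h : IsOrd O o) {x y : F} (hx : x ≠ 0) (hy : y ≠ 0) :
    O.valuation x ≤ O.valuation y ↔ o y ≤ o x := by
  have hy' : O.valuation y ≠ 0 := by simpa using hy
  rw [← div_le_one₀ (zero_lt_iff.2 hy'), ← map_div₀, O.valuation_le_one_iff,
    h.mem_iff (div_ne_zero hx hy), h.div hx hy]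
  omega

theorem val_lt_iff (h : IsOrd O o) {x y : F} (hx : x ≠ 0) (hy : y ≠ 0) :
    O.valuation x < O.valuation y ↔ o y < o x := by
  rw [← not_le, h.val_le_iff hy hx, not_le]

theorem val_eq_iff (h : IsOrd O o) {x y : F} (hx : x ≠ 0) (hy : y ≠ 0) :
    O.valuation x = O.valuation y ↔ o x = o y := by
  rw [le_antisymm_iff, h.val_le_iff hx hy, h.val_le_iff hy hx]
  omega

theorem val_eq_one_iff (h : IsOrd O o) {x : F} (hx : x ≠ 0) : O.valuation x = 1 ↔ o x = 0 := by
  rw [← map_one O.valuation, h.val_eq_iff hx one_ne_zero, h.one]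

theorem val_lt_one_iff (h : IsOrd O o) {x : F} (hx : x ≠ 0) : O.valuation x < 1 ↔ 0 < o x := by
  rw [← map_one O.valuation, h.val_lt_iff hx one_ne_zero, h.one]

theorem one_lt_val_iff (h : IsOrd O o) {x : F} (hx : x ≠ 0) : 1 < O.valuation x ↔ o x < 0 := by
  rw [← map_one O.valuation, h.val_lt_iff one_ne_zero hx, h.one]

theorem min_le_add (h : IsOrd O o) {x y : F} (hx : x ≠ 0) (hy : y ≠ 0) (hxy : x + y ≠ 0) :
    min (o x) (o y) ≤ o (x + y) := by
  rcases le_max_iff.1 (O.valuation.map_add x y) with h1 | h1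
  · exact (min_le_left _ _).trans ((h.val_le_iff hxy hx).1 h1)
  · exact (min_le_right _ _).trans ((h.val_le_iff hxy hy).1 h1)

theorem add_eq_of_lt (h : IsOrd O o) {x y : F} (hx : x ≠ 0) (hy : y ≠ 0) (hlt : o x < o y) :
    x + y ≠ 0 ∧ o (x + y) = o x := by
  have h1 : O.valuation (x + y) = O.valuation x :=
    O.valuation.map_add_eq_of_lt_left ((h.val_lt_iff hy hx).2 hlt)
  have h2 : x + y ≠ 0 := by
    intro h0
    rw [h0, map_zero] at h1
    exact hx (by simpa using h1.symm)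
  exact ⟨h2, (h.val_eq_iff h2 hx).1 h1⟩

theorem exists_eq (h : IsOrd O o) (n : ℤ) : ∃ x, x ≠ 0 ∧ o x = n := by
  obtain ⟨π, h0, h1⟩ := h.2.2.2
  exact ⟨π ^ n, zpow_ne_zero _ h0, by rw [h.zpow, h1, mul_one]⟩

theorem ne_top (h : IsOrd O o) : O ≠ ⊤ := by
  obtain ⟨x, hx, h1⟩ := h.exists_eq (-1)
  intro ht
  have : x ∈ O := by rw [ht]; trivial
  rw [h.mem_iff hx] at this
  omega

theorem unique {o' : F → ℤ} (h : IsOrd O o) (h' : IsOrd O o') : o = o' := by
  obtain ⟨π, h0, h1⟩ := h.2.2.2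
  have key : ∀ x, x ≠ 0 → o' x = o x * o' π := by
    intro x hx
    have hz : π ^ o x ≠ 0 := zpow_ne_zero _ h0
    have : o x = o (π ^ o x) := by rw [h.zpow, h1, mul_one]
    rw [← h.val_eq_iff hx hz, h'.val_eq_iff hx hz, h'.zpow] at this
    exact this
  obtain ⟨π', h0', h1'⟩ := h'.2.2.2
  have hpos : 0 < o' π := (h'.val_lt_one_iff h0).1 ((h.val_lt_one_iff h0).2 (by omega))
  have h2 := key π' h0'
  rw [h1'] at h2
  have h3 : o' π = 1 := Int.eq_one_of_mul_eq_one_left hpos.le h2.symm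
  funext x
  by_cases hx : x = 0
  · rw [hx, h.zero, h'.zero]
  · rw [key x hx, h3, mul_one]

theorem ord_eq (h : IsOrd O o) : ord O = o := (IsDVR.isOrd ⟨o, h⟩).unique h

theorem const {κ : Type*} [Field κ] [Algebra κ F] (h : IsOrd O o) (ht : Triv κ O) (c : κ) :
    o (algebraMap κ F c) = 0 := by
  by_cases hc : c = 0
  · simp [hc, h.zero]
  · have h0 : algebraMap κ F c ≠ 0 := by simpa using hc
    have h1 := (h.mem_iff h0).1 (ht c)
    have h2 := (h.mem_iff (inv_ne_zero h0)).1 (by rw [← map_inv₀]; exact ht _)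
    rw [h.inv] at h2
    omega

/-- `o mod ℓ` as a functional on `V` -/
theorem exists_dual (h : IsOrd O o) (ℓ : ℕ) :
    ∃ φ : Module.Dual (ZMod ℓ) (V ℓ F), ∀ x, φ (cl ℓ x) = (o x : ZMod ℓ) := by
  let f : Additive Fˣ →+ ZMod ℓ :=
    { toFun := fun a => (o ((Additive.toMul a : Fˣ) : F) : ZMod ℓ)
      map_zero' := by simp [h.one]
      map_add' := fun a b => by
        simp only [toMul_add, Units.val_mul]
        rw [h.mul (Units.ne_zero _) (Units.ne_zero _)]; push_cast; rfl }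
  refine ⟨ModN.liftEquiv'.symm ⟨f, fun g => ?_⟩, fun x => ?_⟩
  · rw [← Nat.cast_smul_eq_nsmul (ZMod ℓ)]; simp
  · by_cases hx : x = 0
    · simp [hx, h.zero]
    · rw [cl_of_ne hx]; rfl

theorem cl_mem_HO_iff (h : IsOrd O o) (ℓ : ℕ) {x : F} (hx : x ≠ 0) :
    cl ℓ x ∈ HO ℓ O ↔ (ℓ : ℤ) ∣ o x := by
  constructor
  · intro hm
    obtain ⟨φ, hφ⟩ := h.exists_dual ℓ
    have hle : HO ℓ O ≤ LinearMap.ker φ := by
      refine Submodule.span_le.2 ?_
      rintro _ ⟨y, hy, rfl⟩
      have hy0 : y ≠ 0 := by rintro rfl; simp at hy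
      simp [hφ, (h.val_eq_one_iff hy0).1 hy]
    have := hle hm
    rw [LinearMap.mem_ker, hφ] at this
    exact (ZMod.intCast_zmod_eq_zero_iff_dvd _ _).1 this
  · rintro ⟨n, hn⟩
    obtain ⟨y, hy, hy'⟩ := h.exists_eq n
    have hyl : y ^ ℓ ≠ 0 := pow_ne_zero _ hy
    have h1 : cl ℓ x = cl ℓ (x / y ^ ℓ) := by rw [cl_div hx hyl, cl_pow_self, sub_zero]
    rw [h1]
    refine Submodule.subset_span ⟨_, ?_, rfl⟩
    rw [h.val_eq_one_iff (div_ne_zero hx hyl), h.div hx hyl, h.pow, hy', hn, sub_self]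

theorem comap {F' : Type*} [Field F'] (h : IsOrd O o) (e : F' ≃+* F) :
    IsOrd (O.comap (e : F' →+* F)) fun x => o (e x) := by
  refine ⟨by simp [h.zero], fun x y hx hy => ?_, fun x hx => ?_, ?_⟩
  · simp only [map_mul]
    exact h.mul (by simpa using hx) (by simpa using hy)
  · rw [ValuationSubring.mem_comap]
    exact h.mem_iff (by simpa using hx)
  · obtain ⟨π, h0, h1⟩ := h.2.2.2
    exact ⟨e.symm π, by simpa using h0, by simpa using h1⟩

end IsOrd

theorem ord_comap {F' : Type*} [Field F'] (O : ValuationSubring F) (e : F' ≃+* F) (x : F') :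
    ord (O.comap (e : F' →+* F)) x = ord O (e x) := by
  by_cases h : IsDVR O
  · rw [(h.isOrd.comap e).ord_eq]
  · have h' : ¬ IsDVR (O.comap (e : F' →+* F)) := by
      rintro ⟨o, ho⟩
      apply h
      have := ho.comap e.symm
      refine ⟨fun y => o (e.symm y), ?_⟩
      convert this using 1
      ext y
      simp [ValuationSubring.mem_comap]
    simp [ord, h, h']

end Vale.Agent.P019
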