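import Vale.Agent.P019.Curve.Degree
import Vale.Agent.P019.Curve.ClassCount
import Vale.Agent.P019.Curve.Count
import Vale.Agent.P019.Curve.Frob

/-! P019, curves: counting invariant effective divisors. -/

open IntermediateField Module

set_option linter.unusedSectionVars false

namespace Vale.Agent.P019

variable {κ C : Type*} [Field κ] [Field C] [Algebra κ C] [IsAlgClosed κ]

namespace PicCount

/-- the degree zero class attached to a divisor -/
noncomputable def cls0 (z₀ : Place κ C) (D : Dv κ C) : Pic κ C :=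
  ((D - Finsupp.single z₀ D.degree : Dv κ C) : Pic κ C)

/-- a divisor of degree `m` with prescribed class -/
noncomputable def rep (z₀ : Place κ C) (m : ℕ) (a : Pic κ C) : Dv κ C :=
  a.out + Finsupp.single z₀ (m : ℤ)

theorem cls0_mem (h : IsCurve κ C) {F : SAut κ C} {z₀ : Place κ C} (hz₀ : F • z₀ = z₀)
    {D : Dv κ C} (hD : F • (D : Pic κ C) = D) : cls0 z₀ D ∈ FixPic0 F := by
  refine ⟨(mk_mem_Pic0 h).2 (by simp), ?_⟩
  rw [cls0, QuotientAddGroup.mk_sub, smul_sub, hD, smul_Pic_mk, smul_Dv_single, hz₀]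

theorem fix_of_eff {F : SAut κ C} {m : ℕ} {D : Dv κ C} (hD : D ∈ Eff (Place κ C) F m) :
    F • (D : Pic κ C) = D := by
  rw [smul_Pic_mk, (smul_Dv_eq_iff F D).2 hD.2.1]

theorem mk_rep (z₀ : Place κ C) (m : ℕ) (a : Pic κ C) :
    (rep z₀ m a : Pic κ C) = a + ((Finsupp.single z₀ (m : ℤ) : Dv κ C) : Pic κ C) := by
  rw [rep, QuotientAddGroup.mk_add, QuotientAddGroup.out_eq']

theorem degree_rep (h : IsCurve κ C) (z₀ : Place κ C) (m : ℕ) {a : Pic κ C} (ha : a ∈ Pic0 κ C) :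
    (rep z₀ m a).degree = m := by
  have : (a.out : Dv κ C).degree = 0 := by
    rw [← mk_mem_Pic0 h, QuotientAddGroup.out_eq']
    exact ha
  simp [rep, this]

theorem cls0_eq_iff (z₀ : Place κ C) {m : ℕ} {D : Dv κ C} (hD : D.degree = m) (a : Pic κ C) :
    cls0 z₀ D = a ↔ (D : Pic κ C) = rep z₀ m a := by
  rw [cls0, QuotientAddGroup.mk_sub, hD, mk_rep, sub_eq_iff_eq_add]

theorem fibre (h : IsCurve κ C) (hκ : FinAlg κ) {q : ℕ} {F : SAut κ C} (hF : IsFrob q F)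
    {z₀ : Place κ C} (hz₀ : F • z₀ = z₀) (m : ℕ) {a : Pic κ C} (ha : a ∈ FixPic0 F) :
    ((q : ℤ) - 1) * {D | D ∈ Eff (Place κ C) F m ∧ cls0 z₀ D = a}.ncard =
      (q : ℤ) ^ ell (rep z₀ m a) - 1 := by
  have h1 : F • (rep z₀ m a : Pic κ C) = rep z₀ m a := by
    rw [mk_rep, smul_add, ha.2, smul_Pic_mk, smul_Dv_single, hz₀]
  rw [← (class_count h hκ hF _ h1).2]
  have : {D | D ∈ Eff (Place κ C) F m ∧ cls0 z₀ D = a} =
      {E : Dv κ C | 0 ≤ E ∧ F • E = E ∧ (E : Pic κ C) = rep z₀ m a} := by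
    ext D
    constructor
    · rintro ⟨hD, hc⟩
      exact ⟨hD.1, (smul_Dv_eq_iff F D).2 hD.2.1, (cls0_eq_iff z₀ hD.2.2 a).1 hc⟩
    · rintro ⟨h0, hf, hc⟩
      have hd : D.degree = m := (degree_congr h hc).trans (degree_rep h z₀ m ha.1)
      exact ⟨⟨h0, (smul_Dv_eq_iff F D).1 hf, hd⟩, (cls0_eq_iff z₀ hd a).2 hc⟩
  rw [this]

end PicCount

open PicCount

theorem fixPic0_finite (h : IsCurve κ C) (hκ : FinAlg κ) {g : ℕ} (hg : IsGenus κ C g) {q : ℕ}
    {F : SAut κ C} (hF : IsFrob q F) : (FixPic0 F).Finite := by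
  obtain ⟨z₀, hz₀⟩ := hF.base
  refine ((eff_finite F hF.fin g).image (cls0 z₀)).subset fun a ha => ?_
  have h1 := fibre h hκ hF hz₀ g ha
  have h2 := hg.1 (rep z₀ g a)
  rw [degree_rep h z₀ g ha.1] at h2
  have h3 : ell (rep z₀ g a) ≠ 0 := by omega
  have h4 : (1 : ℤ) < (q : ℤ) ^ ell (rep z₀ g a) :=
    one_lt_pow₀ (by exact_mod_cast hF.two_le) h3
  have h5 : {D | D ∈ Eff (Place κ C) F g ∧ cls0 z₀ D = a}.ncard ≠ 0 := by
    intro h0
    rw [h0] at h1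
    simp only [Nat.cast_zero, mul_zero] at h1
    omega
  obtain ⟨D, hD, hc⟩ := Set.nonempty_of_ncard_ne_zero h5
  exact ⟨D, hD, hc⟩

namespace PicCount

theorem sum_fib (h : IsCurve κ C) (hκ : FinAlg κ) {g : ℕ} (hg : IsGenus κ C g) {q : ℕ}
    {F : SAut κ C} (hF : IsFrob q F) {z₀ : Place κ C} (hz₀ : F • z₀ = z₀) (m : ℕ)
    {R : Type*} [CommRing R] (w : Pic κ C → R) :
    ∑ D ∈ (eff_finite F hF.fin m).toFinset, w (cls0 z₀ D) =
      ∑ a ∈ (fixPic0_finite h hκ hg hF).toFinset,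
        ({D | D ∈ Eff (Place κ C) F m ∧ cls0 z₀ D = a}.ncard : R) * w a := by
  classical
  rw [← Finset.sum_fiberwise_of_maps_to (t := (fixPic0_finite h hκ hg hF).toFinset)
    (g := cls0 z₀) fun D hD => by
      rw [Set.Finite.mem_toFinset] at hD ⊢
      exact cls0_mem h hz₀ (fix_of_eff hD)]
  refine Finset.sum_congr rfl fun a _ => ?_
  rw [Finset.sum_congr rfl (g := fun _ => w a) fun D hD => by rw [(Finset.mem_filter.1 hD).2],
    Finset.sum_const, nsmul_eq_mul, ← Set.ncard_coe_finset]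
  have : ((((eff_finite F hF.fin m).toFinset.filter fun D => cls0 z₀ D = a : Finset (Dv κ C))) :
      Set (Dv κ C)) = {D | D ∈ Eff (Place κ C) F m ∧ cls0 z₀ D = a} := by
    ext D
    simp
  rw [this]

theorem count_sum (h : IsCurve κ C) (hκ : FinAlg κ) {g : ℕ} (hg : IsGenus κ C g) {q : ℕ}
    {F : SAut κ C} (hF : IsFrob q F) {z₀ : Place κ C} (hz₀ : F • z₀ = z₀) (m : ℕ) :
    ((q : ℤ) - 1) * (Eff (Place κ C) F m).ncard =
      ∑ a ∈ (fixPic0_finite h hκ hg hF).toFinset, ((q : ℤ) ^ ell (rep z₀ m a) - 1) := by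
  have h1 := sum_fib h hκ hg hF hz₀ m (fun _ => (1 : ℤ))
  rw [Finset.sum_const, nsmul_eq_mul, mul_one,
    ← Set.ncard_eq_toFinset_card _ (eff_finite F hF.fin m)] at h1
  rw [h1, Finset.mul_sum]
  refine Finset.sum_congr rfl fun a ha => ?_
  rw [mul_one, fibre h hκ hF hz₀ m ((Set.Finite.mem_toFinset _).1 ha)]

end PicCount

theorem eff_count_big (h : IsCurve κ C) (hκ : FinAlg κ) {g : ℕ} (hg : IsGenus κ C g) {q : ℕ}
    {F : SAut κ C} (hF : IsFrob q F) (m : ℕ)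
    (hm : ∀ D : Dv κ C, D.degree = m → (ell D : ℤ) + g = m + 1) :
    ((q : ℤ) - 1) * (Eff (Place κ C) F m).ncard =
      (FixPic0 F).ncard * ((q : ℤ) ^ (m + 1 - g) - 1) := by
  obtain ⟨z₀, hz₀⟩ := hF.base
  rw [count_sum h hκ hg hF hz₀ m, Set.ncard_eq_toFinset_card _ (fixPic0_finite h hκ hg hF),
    ← nsmul_eq_mul, ← Finset.sum_const]
  refine Finset.sum_congr rfl fun a ha => ?_
  have h1 := hm _ (degree_rep h z₀ m ((Set.Finite.mem_toFinset _).1 ha).1)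
  have h2 : ell (rep z₀ m a) = m + 1 - g := by omega
  rw [h2]

theorem eff_count_canon (h : IsCurve κ C) (hκ : FinAlg κ) {g : ℕ} (hg : IsGenus κ C g) {q : ℕ}
    {F : SAut κ C} (hF : IsFrob q F) {W : Dv κ C} (hW : IsCanon g W) (m : ℕ)
    (hm : W.degree = m) :
    ((q : ℤ) - 1) * (Eff (Place κ C) F m).ncard =
      (FixPic0 F).ncard * ((q : ℤ) ^ (m + 1 - g) - 1) + (q : ℤ) ^ (m + 2 - g) -
        (q : ℤ) ^ (m + 1 - g) := by
  classical
  obtain ⟨z₀, hz₀⟩ := hF.base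
  have hWF : F • (W : Pic κ C) = W := by
    by_contra hne
    have h1 := hW.uniq (F • W) (degree_smul_Dv F W).ge hne
    rw [ell_smul h, degree_smul_Dv] at h1
    have h2 := hW.ell_eq
    omega
  have ha₀ : cls0 z₀ W ∈ (fixPic0_finite h hκ hg hF).toFinset :=
    (Set.Finite.mem_toFinset _).2 (cls0_mem h hz₀ hWF)
  have key : ∀ a ∈ (fixPic0_finite h hκ hg hF).toFinset,
      (q : ℤ) ^ ell (rep z₀ m a) - 1 = ((q : ℤ) ^ (m + 1 - g) - 1) +
        if cls0 z₀ W = a then (q : ℤ) ^ (m + 2 - g) - (q : ℤ) ^ (m + 1 - g) else 0 := by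
    intro a ha
    have hd := degree_rep h z₀ m ((Set.Finite.mem_toFinset _).1 ha).1
    split_ifs with hc
    · have h1 := ell_congr h ((cls0_eq_iff z₀ hm a).1 hc)
      have h2 := hW.ell_eq
      have h3 : ell (rep z₀ m a) = m + 2 - g := by omega
      rw [h3]
      ring
    · have h1 := hW.uniq (rep z₀ m a) (by rw [hd, hm])
        fun h' => hc ((cls0_eq_iff z₀ hm a).2 h'.symm)
      have h3 : ell (rep z₀ m a) = m + 1 - g := by omega
      rw [h3, add_zero]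
  rw [count_sum h hκ hg hF hz₀ m, Finset.sum_congr rfl key, Finset.sum_add_distrib,
    Finset.sum_ite_eq, if_pos ha₀, Finset.sum_const, nsmul_eq_mul,
    Set.ncard_eq_toFinset_card _ (fixPic0_finite h hκ hg hF)]
  ring

theorem eff_char_sum (h : IsCurve κ C) (hκ : FinAlg κ) {g : ℕ} (hg : IsGenus κ C g) {q : ℕ}
    {F : SAut κ C} (hF : IsFrob q F) {z₀ : Place κ C} (hz₀ : F • z₀ = z₀) (χ : Pic κ C → ℂ)
    (hχ : ∀ a ∈ FixPic0 F, ∀ b ∈ FixPic0 F, χ (a + b) = χ a * χ b)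
    (hne : ∃ a ∈ FixPic0 F, χ a ≠ 1) (m : ℕ) (hm : 2 * g ≤ m) :
    ∑ᶠ D ∈ Eff (Place κ C) F m,
      χ ((D - Finsupp.single z₀ D.degree : Dv κ C) : Pic κ C) = 0 := by
  obtain ⟨a₀, ha₀, hne⟩ := hne
  have hadd : ∀ a ∈ FixPic0 F, ∀ b ∈ FixPic0 F, a + b ∈ FixPic0 F := fun a ha b hb =>
    ⟨add_mem ha.1 hb.1, by rw [smul_add, ha.2, hb.2]⟩
  have hneg : ∀ a ∈ FixPic0 F, -a ∈ FixPic0 F := fun a ha =>
    ⟨neg_mem ha.1, by rw [smul_neg, ha.2]⟩
  have hsum : ∑ a ∈ (fixPic0_finite h hκ hg hF).toFinset, χ a = 0 := by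
    have h1 : ∑ a ∈ (fixPic0_finite h hκ hg hF).toFinset, χ (a₀ + a) =
        ∑ a ∈ (fixPic0_finite h hκ hg hF).toFinset, χ a := by
      refine Finset.sum_nbij' (fun a => a₀ + a) (fun a => -a₀ + a) ?_ ?_ ?_ ?_ ?_
      · intro a ha
        rw [Set.Finite.mem_toFinset] at ha ⊢
        exact hadd _ ha₀ _ ha
      · intro a ha
        rw [Set.Finite.mem_toFinset] at ha ⊢
        exact hadd _ (hneg _ ha₀) _ ha
      · intro a _
        simp
      · intro a _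
        simp
      · intro a _
        rfl
    rw [Finset.sum_congr rfl (g := fun a => χ a₀ * χ a)
      fun a ha => hχ _ ha₀ _ ((Set.Finite.mem_toFinset _).1 ha), ← Finset.mul_sum] at h1
    have h2 : (χ a₀ - 1) * ∑ a ∈ (fixPic0_finite h hκ hg hF).toFinset, χ a = 0 := by
      rw [sub_mul, h1, one_mul, sub_self]
    exact (mul_eq_zero.1 h2).resolve_left (sub_ne_zero.2 hne)
  have hq : ((q : ℂ) - 1) ≠ 0 := by
    rw [sub_ne_zero]
    have := hF.two_le
    exact_mod_cast (by omega : q ≠ 1)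
  rw [finsum_mem_eq_finite_toFinset_sum _ (eff_finite F hF.fin m)]
  refine (sum_fib h hκ hg hF hz₀ m χ).trans ?_
  refine (mul_eq_zero.1 ?_).resolve_left hq
  rw [Finset.mul_sum, Finset.sum_congr rfl (g := fun a => ((q : ℂ) ^ (m + 1 - g) - 1) * χ a) ?_,
    ← Finset.mul_sum, hsum, mul_zero]
  intro a ha
  have ha' := (Set.Finite.mem_toFinset _).1 ha
  have hd := degree_rep h z₀ m ha'.1
  have h1 := hg.2 (rep z₀ m a) (by omega)
  have h3 : ell (rep z₀ m a) = m + 1 - g := by omega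
  have h4 := fibre h hκ hF hz₀ m ha'
  rw [h3] at h4
  have h5 : ((q : ℂ) - 1) * {D | D ∈ Eff (Place κ C) F m ∧ cls0 z₀ D = a}.ncard =
      (q : ℂ) ^ (m + 1 - g) - 1 := by exact_mod_cast h4
  rw [← mul_assoc, h5]

end Vale.Agent.P019
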